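import Vale.Agent.P139.Ops

/-! P139 task A0/Alg (PROOF.md section A0). Algebraic identities and norms of the operators: `AA_ext`, the a.e. formulas of Ops.lean, `a0_qmp` to move a.e. statements, `a0_norm_ae` + `a0_int_aff` for norms.
-/

noncomputable section

open MeasureTheory Filter Topology Set Complex
open scoped ComplexConjugate ContDiff RealInnerProductSpace

namespace Vale.Agent.P139

theorem a0alg_qs {r : ℝ} (hr : r ≠ 0) :
    Measure.QuasiMeasurePreserving (fun ξ : E12 => r • ξ) volume volume := by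
  simpa using a0_qmp hr 0

theorem a0alg_ints (φ : E12 → ℝ) {r : ℝ} (hr : 0 < r) :
    ∫ ξ, φ (r • ξ) = (r ^ 12)⁻¹ * ∫ ξ, φ ξ := by
  simpa [abs_of_pos hr] using a0_int_aff φ hr.ne' 0

/-- Norm of a weighted dilation. -/
theorem a0alg_norm {T g : AA} {a : E12 → ℂ} {K L r : ℝ} (hr : 0 < r) (hK : ∀ ξ, ‖a ξ‖ ≤ K)
    (hL : 1 ≤ L) (hrL : r⁻¹ ≤ L) (h : T =ᵐ[volume] fun ξ => a ξ * g (r • ξ)) :
    ‖T‖ ≤ K * L ^ 20 * (r ^ 12)⁻¹ * ‖g‖ := by
  have hK0 : 0 ≤ K := (norm_nonneg _).trans (hK 0)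
  have hi : Integrable fun ξ : E12 => Wt (r • ξ) * ‖g (r • ξ)‖ := by
    simpa using a0_intble_aff (a0_intW g) hr.ne' 0
  rw [a0_norm_ae h, AA_norm, mul_assoc, ← a0alg_ints (fun ξ => Wt ξ * ‖g ξ‖) hr,
    ← integral_const_mul]
  refine integral_mono_of_nonneg (ae_of_all _ fun ξ => mul_nonneg (a0_Wt_pos ξ).le (norm_nonneg _))
    (hi.const_mul _) (ae_of_all _ fun ξ => ?_)
  have h1 := a0_Wt_smul hL (r := r⁻¹) (by rwa [abs_of_pos (inv_pos.2 hr)]) (r • ξ)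
  rw [inv_smul_smul₀ hr.ne'] at h1
  have h2 := hK ξ
  have h3 := a0_Wt_pos (r • ξ)
  simp only [norm_mul]
  calc _ ≤ (L ^ 20 * Wt (r • ξ)) * (K * ‖g (r • ξ)‖) := by gcongr
    _ = _ := by ring

theorem cj_smul (c : ℂ) (g : AA) : cj (c • g) = conj c • cj g := by
  refine AA_ext ?_
  filter_upwards [cj_ae (c • g), cj_ae g, a0_smul_ae (conj c) (cj g),
    a0ops_qneg.ae (a0_smul_ae c g)] with ξ h1 h2 h3 h4
  rw [h1, h3, h2, h4, map_mul]

theorem cj_cj (g : AA) : cj (cj g) = g := by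
  refine AA_ext ?_
  filter_upwards [cj_ae (cj g), a0ops_qneg.ae (cj_ae g)] with ξ h1 h2
  rw [h1, h2, neg_neg, Complex.conj_conj]

theorem norm_cj (g : AA) : ‖cj g‖ = ‖g‖ := by
  have h := integral_neg_eq_self (fun ξ => Wt ξ * ‖g ξ‖) (volume : Measure E12)
  rw [a0_norm_ae (cj_ae g), AA_norm, ← h]
  simp [a0_Wt_neg]

theorem norm_mulE {θ : E12 → ℝ} (hθ : Measurable θ) (g : AA) : ‖mulE θ g‖ = ‖g‖ := by
  rw [a0_norm_ae (mulE_ae hθ g), AA_norm]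
  congr 1
  ext ξ
  rw [norm_mul, Complex.norm_exp, Complex.I_mul_re, Complex.ofReal_im]
  simp

theorem norm_tr (η : E12) (g : AA) : ‖tr η g‖ ≤ 2 ^ 20 * Wt η * ‖g‖ := by
  have h := integral_sub_right_eq_self (μ := (volume : Measure E12)) (fun ξ => Wt ξ * ‖g ξ‖) η
  rw [a0_norm_ae (tr_ae η g), AA_norm, ← h, ← integral_const_mul]
  refine integral_mono_of_nonneg (ae_of_all _ fun ξ => mul_nonneg (a0_Wt_pos ξ).le (norm_nonneg _))
    (((a0_intW g).comp_sub_right η).const_mul _) (ae_of_all _ fun ξ => ?_)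
  have h1 := Wt_add (ξ - η) η
  rw [sub_add_cancel] at h1
  calc _ ≤ 2 ^ 20 * (Wt (ξ - η) * Wt η) * ‖g (ξ - η)‖ := by
        simp only; gcongr
    _ = _ := by ring

theorem Sg_zero (ν : ℂ) (g : AA) : Sg ν 0 g = g := by
  refine AA_ext ?_
  filter_upwards [Sg_ae ν 0 g] with ξ h
  rw [h]; simp

theorem Sg_add (ν : ℂ) (s t : ℝ) (g : AA) : Sg ν (s + t) g = Sg ν s (Sg ν t g) := by
  refine AA_ext ?_
  filter_upwards [Sg_ae ν (s + t) g, Sg_ae ν s (Sg ν t g),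
    (a0alg_qs (Real.exp_pos (s / 2)).ne').ae (Sg_ae ν t g)] with ξ h1 h2 h3
  rw [h1, h2, h3, smul_smul, ← Real.exp_add, ← mul_assoc, ← Complex.exp_add]
  have h4 : ‖Real.exp (s / 2) • ξ‖ ^ 2 = Real.exp s * ‖ξ‖ ^ 2 := by
    rw [norm_smul, mul_pow, Real.norm_of_nonneg (Real.exp_pos _).le, ← Real.exp_nat_mul]
    congr 2; push_cast; ring
  rw [h4, Real.exp_add s t, show t / 2 + s / 2 = (s + t) / 2 by ring]
  congr 2
  push_cast; ring

theorem a0alg_Sg (ν : ℂ) (s : ℝ) (g : AA) {l : ℝ} (hl : 0 ≤ l) (hs : -(s / 2) ≤ l) :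
    ‖Sg ν s g‖ ≤ Real.exp (-ν.re * s + 20 * l) * ‖g‖ := by
  have h := a0alg_norm (Real.exp_pos (s / 2)) (K := Real.exp (-ν * s + 6 * s).re)
    (L := Real.exp l) (fun ξ => by
      rw [Complex.norm_exp, Complex.sub_re, Complex.I_mul_re, Complex.ofReal_im]; simp)
    (Real.one_le_exp hl) (by rw [← Real.exp_neg]; exact Real.exp_le_exp.2 hs) (Sg_ae ν s g)
  refine h.trans (le_of_eq ?_)
  rw [← Real.exp_nat_mul, ← Real.exp_nat_mul, ← Real.exp_neg, ← Real.exp_add, ← Real.exp_add]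
  congr 2
  simp
  ring

theorem a0alg_Gp (ν : ℂ) (c0 c1 : ℝ) (x : E12) (g : AA) {l : ℝ} (hl : 0 ≤ l) (hs : c1 / 2 ≤ l) :
    ‖Gp ν c0 c1 x g‖ ≤ Real.exp (ν.re * c1 + 20 * l) * ‖g‖ := by
  have h := a0alg_norm (Real.exp_pos (-c1 / 2)) (K := Real.exp (I * c0 + ν * c1 - 6 * c1).re)
    (L := Real.exp l) (fun ξ => by
      rw [Complex.norm_exp, Complex.add_re, Complex.I_mul_re, Complex.ofReal_im]; simp)
    (Real.one_le_exp hl) (by rw [← Real.exp_neg]; exact Real.exp_le_exp.2 (by linarith))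
    (Gp_ae ν c0 c1 x g)
  refine h.trans (le_of_eq ?_)
  rw [← Real.exp_nat_mul, ← Real.exp_nat_mul, ← Real.exp_neg, ← Real.exp_add, ← Real.exp_add]
  congr 2
  simp
  ring

theorem norm_Sg (ν : ℂ) {s : ℝ} (hs : 0 ≤ s) (g : AA) :
    ‖Sg ν s g‖ ≤ Real.exp (-ν.re * s) * ‖g‖ := by
  simpa using a0alg_Sg ν s g le_rfl (by linarith)

theorem a0alg_re (ν : ℂ) (s : ℝ) : |ν.re * s| ≤ ‖ν‖ * |s| := by
  rw [abs_mul]
  exact mul_le_mul_of_nonneg_right (Complex.abs_re_le_norm ν) (abs_nonneg s)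

theorem norm_Sg' (ν : ℂ) (s : ℝ) (g : AA) :
    ‖Sg ν s g‖ ≤ Real.exp ((‖ν‖ + 10) * |s|) * ‖g‖ := by
  refine (a0alg_Sg ν s g (l := |s| / 2) (by positivity) (by linarith [neg_abs_le s])).trans ?_
  gcongr
  linarith [(abs_le.1 (a0alg_re ν s)).1]

theorem a0_norm_Gp (ν : ℂ) (c0 c1 : ℝ) (x : E12) (g : AA) :
    ‖Gp ν c0 c1 x g‖ ≤ Real.exp ((‖ν‖ + 10) * |c1|) * ‖g‖ := by
  refine (a0alg_Gp ν c0 c1 x g (l := |c1| / 2) (by positivity)
    (by linarith [le_abs_self c1])).trans ?_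
  gcongr
  linarith [(abs_le.1 (a0alg_re ν c1)).2]

theorem a0_norm_Gp0 {c1 : ℝ} (h : c1 ≤ 0) (g : AA) : ‖Gp 0 0 c1 0 g‖ ≤ ‖g‖ := by
  simpa using a0alg_Gp 0 0 c1 0 g le_rfl (by linarith)

theorem a0_Gp_zero (ν : ℂ) (g : AA) : Gp ν 0 0 0 g = g := by
  refine AA_ext ?_
  filter_upwards [Gp_ae ν 0 0 0 g] with ξ h
  rw [h]; simp

end Vale.Agent.P139
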