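import Vale.Agent.P139.Ops

/-! P139 task A0/Ev (PROOF.md section A0). Evaluation. `ev_inj`: `ev g` is the Fourier transform of the integrable function `g` (up to the scaling `2π`); use the injectivity of the Fourier transform on `L¹` (multiplication formula with Schwartz functions, e.g. `ae_eq_zero_of_integral_contDiff_smul_eq_zero` + Fourier inversion of Schwartz maps, or characteristic functions of the four finite measures). `ev_conv`: Fubini. The others: `a0_int_aff`.
-/

noncomputable section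

open MeasureTheory Filter Topology Set Complex
open scoped ComplexConjugate ContDiff RealInnerProductSpace

namespace Vale.Agent.P139

theorem a0ev_norm (t : ℝ) : ‖exp (I * t)‖ = 1 := by rw [mul_comm, norm_exp_ofReal_mul_I]

theorem a0ev_int {f : E12 → ℂ} (hf : Integrable f) (y : E12) :
    Integrable fun ξ => f ξ * exp (I * ⟪ξ, y⟫) :=
  hf.mul_bdd (c := 1) (by fun_prop) (Eventually.of_forall fun ξ => (a0ev_norm _).le)

theorem a0ev_ae {g : AA} {f : E12 → ℂ} (h : g =ᵐ[volume] f) (y : E12) :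
    ev g y = ∫ ξ, f ξ * exp (I * ⟪ξ, y⟫) :=
  integral_congr_ae (h.mono fun ξ hξ => by simp only [hξ])

theorem a0ev_add (f g : AA) (y : E12) : ev (f + g) y = ev f y + ev g y := by
  rw [a0ev_ae (a0_add_ae f g), ev, ev, ← integral_add (a0ev_int (a0_int f) y) (a0ev_int (a0_int g) y)]
  simp only [add_mul]

theorem a0ev_smul (c : ℂ) (g : AA) (y : E12) : ev (c • g) y = c * ev g y := by
  rw [a0ev_ae (a0_smul_ae c g), ev, ← integral_const_mul]
  simp only [mul_assoc]

theorem a0ev_le (g : AA) (y : E12) : ‖ev g y‖ ≤ ‖g‖ := by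
  rw [AA_norm]
  refine norm_integral_le_of_norm_le (a0_intW g) (Eventually.of_forall fun ξ => ?_)
  rw [norm_mul, a0ev_norm, mul_one]
  exact le_mul_of_one_le_left (norm_nonneg _) (a0_one_le_Wt ξ)

open scoped FourierTransform in
theorem a0ev_inj {f : E12 → ℂ} (hf : Integrable f)
    (h : ∀ y, ∫ ξ, f ξ * exp (I * ⟪ξ, y⟫) = 0) : ∀ᵐ ξ, f ξ = 0 := by
  refine ae_eq_zero_of_integral_contDiff_smul_eq_zero hf.locallyIntegrable fun φ h1 h2 => ?_
  let ψ : SchwartzMap E12 ℂ := (h2.comp_left (g := ofRealCLM) rfl).toSchwartzMap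
    (ofRealCLM.contDiff.comp h1)
  have e := VectorFourier.integral_fourierIntegral_smul_eq_flip (L := innerₗ E12)
    Real.continuous_fourierChar continuous_inner ((𝓕⁻ ψ).integrable (μ := volume)) hf
  have e1 : ∀ ξ, VectorFourier.fourierIntegral Real.fourierChar volume (innerₗ E12)
      (⇑(𝓕⁻ ψ : SchwartzMap E12 ℂ)) ξ = (φ ξ : ℂ) := fun ξ => by
    have := congrArg (fun F : SchwartzMap E12 ℂ => F ξ)
      (FourierTransform.fourier_fourierInv_eq (F := SchwartzMap E12 ℂ) ψ)
    exact this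
  have e2 : ∀ x, VectorFourier.fourierIntegral Real.fourierChar volume (innerₗ E12).flip f x = 0 :=
    fun x => by
      rw [← h (-(2 * Real.pi) • x), flip_innerₗ]
      refine (Real.fourier_eq' f x).trans (integral_congr_ae (Eventually.of_forall fun ξ => ?_))
      simp only [inner_smul_right, smul_eq_mul]
      rw [mul_comm]
      congr 2
      push_cast
      ring
  simpa only [e1, e2, smul_zero, integral_zero, smul_eq_mul, real_smul, mul_zero] using e

theorem a0ev_exp12 (t : ℝ) : ((|Real.exp t| ^ 12)⁻¹ : ℝ) = exp (-12 * t) := by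
  rw [abs_of_pos (Real.exp_pos t), ← Real.exp_nat_mul, ← Real.exp_neg, ofReal_exp]
  congr 1
  push_cast
  ring

theorem ex_evL (y : E12) : ∃ T : AA →L[ℂ] ℂ, ∀ g, T g = ev g y :=
⟨LinearMap.mkContinuous ⟨⟨fun g => ev g y, fun f g => a0ev_add f g y⟩, fun c g => a0ev_smul c g y⟩
    1 fun g => by rw [one_mul]; exact a0ev_le g y, fun _ => rfl⟩

theorem a0_ev_add (f g : AA) (y : E12) : ev (f + g) y = ev f y + ev g y :=
a0ev_add f g y

theorem a0_ev_sub (f g : AA) (y : E12) : ev (f - g) y = ev f y - ev g y := by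
  obtain ⟨T, hT⟩ := ex_evL y
  rw [← hT, ← hT, ← hT, map_sub]

theorem a0_ev_smul (c : ℂ) (g : AA) (y : E12) : ev (c • g) y = c * ev g y :=
a0ev_smul c g y

theorem a0_ev_rsmul (c : ℝ) (g : AA) (y : E12) : ev (c • g) y = c * ev g y :=
a0ev_smul c g y

theorem a0_ev_le (g : AA) (y : E12) : ‖ev g y‖ ≤ ‖g‖ :=
a0ev_le g y

theorem a0_ev_ae {g : AA} {f : E12 → ℂ} (h : g =ᵐ[volume] f) (y : E12) :
    ev g y = ∫ ξ, f ξ * exp (I * ⟪ξ, y⟫) :=
a0ev_ae h y

theorem ev_inj {f g : AA} (h : ∀ y, ev f y = ev g y) : f = g := by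
  refine sub_eq_zero.1 (AA_ext ?_)
  filter_upwards [a0ev_inj (a0_int (f - g)) fun y => (a0_ev_sub f g y).trans (sub_eq_zero.2 (h y)),
    a0_ac.ae_le (Lp.coeFn_zero ℂ 1 μW)] with ξ h1 h2
  rw [h1, h2, Pi.zero_apply]

theorem ev_conv (f g : AA) (y : E12) : ev (conv f g) y = ev f y * ev g y := by
  have h := integral_convolution (ContinuousLinearMap.mul ℂ ℂ) (a0ev_int (a0_int f) y)
    (a0ev_int (a0_int g) y)
  rw [a0ev_ae (conv_ae f g)]
  refine Eq.trans (integral_congr_ae (Eventually.of_forall fun ξ => ?_)) h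
  simp only [convolution, ContinuousLinearMap.mul_apply']
  rw [← integral_mul_const]
  refine integral_congr_ae (Eventually.of_forall fun ζ => ?_)
  have : exp (I * ⟪ξ, y⟫) = exp (I * ⟪ζ, y⟫) * exp (I * ⟪ξ - ζ, y⟫) := by
    rw [← Complex.exp_add, inner_sub_left]
    congr 1
    push_cast
    ring
  simp only [this]
  ring

theorem ev_cj (g : AA) (y : E12) : ev (cj g) y = conj (ev g y) := by
  rw [a0ev_ae (cj_ae g), ev, ← integral_conj, ← integral_neg_eq_self]
  refine integral_congr_ae (Eventually.of_forall fun ξ => ?_)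
  simp only [neg_neg, map_mul, ← exp_conj, conj_I, conj_ofReal, inner_neg_left, ofReal_neg, mul_neg,
    neg_mul]

theorem ev_tr (η : E12) (g : AA) (y : E12) : ev (tr η g) y = exp (I * ⟪η, y⟫) * ev g y := by
  rw [a0ev_ae (tr_ae η g), ev, ← integral_const_mul, ← integral_add_right_eq_self _ η]
  refine integral_congr_ae (Eventually.of_forall fun ξ => ?_)
  simp only [add_sub_cancel_right, inner_add_left, ofReal_add, mul_add, Complex.exp_add]
  ring

theorem ev_Gp (ν : ℂ) (c0 c1 : ℝ) (x : E12) (g : AA) (y : E12) :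
    ev (Gp ν c0 c1 x g) y = exp (I * c0 + ν * c1) * ev g (Real.exp (c1 / 2) • y + x) := by
  have h := a0_int_aff (fun ζ => exp (I * c0 + ν * c1 - 6 * c1 + I * ⟪ζ, x⟫) * g ζ *
    exp (I * ⟪Real.exp (c1 / 2) • ζ, y⟫)) (Real.exp_ne_zero (-c1 / 2)) 0
  simp only [add_zero, smul_smul, ← Real.exp_add, show c1 / 2 + -c1 / 2 = 0 by ring, Real.exp_zero,
    one_smul] at h
  rw [a0ev_ae (Gp_ae ν c0 c1 x g), h, real_smul, a0ev_exp12, ev, ← integral_const_mul,
    ← integral_const_mul]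
  refine integral_congr_ae (Eventually.of_forall fun ζ => ?_)
  simp only [inner_add_right, inner_smul_left, inner_smul_right, RCLike.conj_to_real]
  rw [mul_left_comm _ (g ζ), mul_comm _ (g ζ), mul_assoc (g ζ), mul_left_comm _ (g ζ),
    ← Complex.exp_add, ← Complex.exp_add, ← Complex.exp_add]
  congr 2
  push_cast
  ring

theorem a0_ev_Sg (ν : ℂ) (s : ℝ) (g : AA) (y : E12) : ev (Sg ν s g) y = ∫ ζ, g ζ *
    exp (-ν * s - I * ((1 - Real.exp (-s)) * ‖ζ‖ ^ 2 : ℝ) + I * (Real.exp (-s / 2) * ⟪ζ, y⟫ : ℝ)) := by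
  have h := a0_int_aff (fun ζ => exp (-ν * s + 6 * s - I * ((Real.exp s - 1) *
    ‖Real.exp (-s / 2) • ζ‖ ^ 2 : ℝ)) * g ζ * exp (I * ⟪Real.exp (-s / 2) • ζ, y⟫))
    (Real.exp_ne_zero (s / 2)) 0
  simp only [add_zero, smul_smul, ← Real.exp_add, show -s / 2 + s / 2 = 0 by ring, Real.exp_zero,
    one_smul] at h
  rw [a0ev_ae (Sg_ae ν s g), h, real_smul, a0ev_exp12, ← integral_const_mul]
  refine integral_congr_ae (Eventually.of_forall fun ζ => ?_)
  have e : (Real.exp s - 1) * ‖Real.exp (-s / 2) • ζ‖ ^ 2 = (1 - Real.exp (-s)) * ‖ζ‖ ^ 2 := by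
    rw [norm_smul, mul_pow, Real.norm_of_nonneg (Real.exp_pos _).le, ← Real.exp_nat_mul,
      show ((2 : ℕ) : ℝ) * (-s / 2) = -s by push_cast; ring, ← mul_assoc, sub_mul, ← Real.exp_add]
    simp
  simp only [e, inner_smul_left, RCLike.conj_to_real]
  rw [mul_comm _ (g ζ), mul_assoc (g ζ), mul_left_comm _ (g ζ), ← Complex.exp_add,
    ← Complex.exp_add]
  congr 2
  push_cast
  ring

theorem a0_ev_nlA (m : ℕ) (g : AA) (y : E12) :
    ev (nlA m g) y = (normSq (ev g y) : ℂ) ^ m * ev g y := by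
  induction m with
  | zero => simp [nlA]
  | succ m ih => rw [nlA, ev_conv, ev_conv, ev_cj, ih, mul_conj]; ring

end Vale.Agent.P139
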