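import Vale.Agent.P139.A0.Alg
import Vale.Agent.P139.A0.Ev

/-! P139 task A0/Cont (PROOF.md section A0). Strong continuity. One lemma (`a0_cont_aff`): a family of weighted composition operators with continuous data and locally bounded norms is jointly continuous: `a0_dense` + dominated convergence on a fixed compact set for continuous `φ` with compact support. `conv_eq_integral`: `ev_inj`, `ex_evL` commutes with the Bochner integral, `ev_conv`, `ev_tr`.
-/

noncomputable section

open MeasureTheory Filter Topology Set Complex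
open scoped ComplexConjugate ContDiff RealInnerProductSpace

namespace Vale.Agent.P139

theorem a0cont_one {P : Type} [PseudoMetricSpace P] [ProperSpace P] {T : P → AA →L[ℂ] AA}
    {a : P → E12 → ℂ} {r : P → ℝ} {b : P → E12} (ha : Continuous fun p : P × E12 => a p.1 p.2)
    (hr : Continuous r) (hr0 : ∀ p, 0 < r p) (hb : Continuous b)
    (h : ∀ p (g : AA), T p g =ᵐ[volume] fun ξ => a p ξ * g (r p • ξ + b p)) {g : AA} {φ : E12 → ℂ}
    (h1 : Continuous φ) (h2 : HasCompactSupport φ) (h3 : g =ᵐ[volume] φ) (p0 : P) :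
    Tendsto (fun p => ‖T p g - T p0 g‖) (𝓝 p0) (𝓝 0) := by
  have e : ∀ p, ‖T p g - T p0 g‖ =
      ∫ ξ, Wt ξ * ‖a p ξ * φ (r p • ξ + b p) - a p0 ξ * φ (r p0 • ξ + b p0)‖ := fun p => by
    refine a0_norm_ae ?_
    filter_upwards [a0_sub_ae (T p g) (T p0 g), h p g, h p0 g, (a0_qmp (hr0 p).ne' (b p)).ae_eq h3,
      (a0_qmp (hr0 p0).ne' (b p0)).ae_eq h3] with ξ e1 e2 e3 e4 e5
    simp only [Function.comp] at e4 e5
    rw [e1, e2, e3, e4, e5]
  obtain ⟨R, hR⟩ := h2.isCompact.isBounded.subset_closedBall 0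
  have hc := isCompact_closedBall p0 1
  obtain ⟨p1, -, hp1⟩ := hc.exists_isMinOn ⟨p0, Metric.mem_closedBall_self zero_le_one⟩
    hr.continuousOn
  obtain ⟨B, hB⟩ := hc.exists_bound_of_continuousOn hb.continuousOn
  have z : ∀ p ξ, p ∈ Metric.closedBall p0 1 → ξ ∉ Metric.closedBall (0 : E12) ((R + B) / r p1) →
      φ (r p • ξ + b p) = 0 := fun p ξ hp hξ => by
    refine image_eq_zero_of_notMem_tsupport fun hm => hξ ?_
    have k1 := mem_closedBall_zero_iff.1 (hR hm)
    have k2 := norm_sub_le (r p • ξ + b p) (b p)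
    rw [add_sub_cancel_right, norm_smul, Real.norm_of_nonneg (hr0 p).le] at k2
    rw [mem_closedBall_zero_iff, le_div_iff₀ (hr0 p1)]
    linarith [hB p hp, mul_le_mul_of_nonneg_right (show r p1 ≤ r p from hp1 hp) (norm_nonneg ξ)]
  have hW := a0_cont_Wt
  have ha0 : Continuous (a p0) := ha.comp (Continuous.prodMk_right p0)
  have k := continuousOn_integral_of_compact_support (μ := volume) (s := Metric.closedBall p0 1)
    (f := fun p ξ => Wt ξ * ‖a p ξ * φ (r p • ξ + b p) - a p0 ξ * φ (r p0 • ξ + b p0)‖)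
    (isCompact_closedBall 0 ((R + B) / r p1))
    (Continuous.continuousOn (by unfold Function.uncurry; fun_prop)) fun p ξ hp hξ => by
      rw [z p ξ hp hξ, z p0 ξ (Metric.mem_closedBall_self zero_le_one) hξ]; simp
  simp only [e]
  simpa using (k.continuousAt (Metric.closedBall_mem_nhds p0 one_pos)).tendsto

theorem a0_cont_aff {P : Type} [PseudoMetricSpace P] [ProperSpace P] {T : P → AA →L[ℂ] AA}
    {a : P → E12 → ℂ} {r : P → ℝ} {b : P → E12} (ha : Continuous fun p : P × E12 => a p.1 p.2)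
    (hr : Continuous r) (hr0 : ∀ p, 0 < r p) (hb : Continuous b) {K : P → ℝ} (hK : Continuous K)
    (hT : ∀ p g, ‖T p g‖ ≤ K p * ‖g‖)
    (h : ∀ p (g : AA), T p g =ᵐ[volume] fun ξ => a p ξ * g (r p • ξ + b p)) :
    Continuous fun p : P × AA => T p.1 p.2 := by
  refine continuous_iff_continuousAt.2 fun ⟨p0, g0⟩ => ?_
  rw [ContinuousAt, tendsto_iff_norm_sub_tendsto_zero, Metric.tendsto_nhds]
  intro ε hε
  obtain ⟨D, hD⟩ : ∃ D, D = |K p0| + 1 := ⟨_, rfl⟩
  have hD0 : 0 < D := by rw [hD]; positivity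
  obtain ⟨g', φ, h1, h2, h3, h4⟩ := a0_dense g0 (ε := ε / (8 * D)) (by positivity)
  have t1 : Tendsto Prod.fst (𝓝 (p0, g0)) (𝓝 p0) := continuous_fst.tendsto _
  have e1 := ((a0cont_one ha hr hr0 hb h h1 h2 h3 p0).comp t1).eventually
    (gt_mem_nhds (half_pos hε))
  have e2 := ((hK.tendsto p0).comp t1).eventually
    (gt_mem_nhds (show K p0 < D by linarith [le_abs_self (K p0)]))
  have e3 := (continuous_snd.tendsto (p0, g0)).eventually
    (Metric.ball_mem_nhds g0 (show 0 < ε / (8 * D) by positivity))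
  filter_upwards [e1, e2, e3] with p e1 e2 e3
  simp only [Function.comp] at e1 e2
  rw [dist_eq_norm] at e3
  rw [dist_zero_right, norm_norm, show T p.1 p.2 - T p0 g0 =
    T p.1 (p.2 - g') + (T p.1 g' - T p0 g') + T p0 (g' - g0) by simp only [map_sub]; abel]
  have k1 : ‖p.2 - g'‖ ≤ 2 * (ε / (8 * D)) := by
    linarith [norm_sub_le_norm_sub_add_norm_sub p.2 g0 g']
  have k2 := (hT p.1 (p.2 - g')).trans (mul_le_mul e2.le k1 (norm_nonneg _) hD0.le)
  have k3 := (hT p0 (g' - g0)).trans (mul_le_mul (show K p0 ≤ D by linarith [le_abs_self (K p0)])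
    ((norm_sub_rev _ _).trans_le h4) (norm_nonneg _) hD0.le)
  have k4 : D * (ε / (8 * D)) = ε / 8 := by field_simp
  linarith [norm_add₃_le (a := T p.1 (p.2 - g')) (b := T p.1 g' - T p0 g') (c := T p0 (g' - g0))]

theorem continuous_tr : Continuous fun p : E12 × AA => tr p.1 p.2 :=
a0_cont_aff (T := tr) (a := fun _ _ => 1) (r := fun _ => 1) (b := fun η => -η) continuous_const
    continuous_const (fun _ => one_pos) continuous_neg (K := fun η => 2 ^ 20 * Wt η)
    (continuous_const.mul a0_cont_Wt) norm_tr fun η g => by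
      simpa only [one_mul, one_smul, ← sub_eq_add_neg] using tr_ae η g

/-- Convolution is the superposition of translates. -/
theorem conv_eq_integral (f g : AA) : conv f g = ∫ η, g η • tr η f := by
  have hc : Continuous fun η => tr η f := by
    simpa only [Function.comp_def] using continuous_tr.comp (Continuous.prodMk_left f)
  have hi : Integrable fun η => g η • tr η f :=
    ((a0_intW g).const_mul (2 ^ 20 * ‖f‖)).mono' ((a0_meas g).smul hc.aestronglyMeasurable)
      (Eventually.of_forall fun η => by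
        rw [norm_smul]
        linarith [mul_le_mul_of_nonneg_left (norm_tr η f) (norm_nonneg (g η))])
  refine ev_inj fun y => ?_
  obtain ⟨T, hT⟩ := ex_evL y
  rw [ev_conv, ← hT (∫ η, g η • tr η f), ← T.integral_comp_comm hi]
  simp only [hT, a0_ev_smul, ev_tr, ← mul_assoc]
  rw [integral_mul_const, mul_comm]
  rfl

theorem continuous_Sg (ν : ℂ) : Continuous fun p : ℝ × AA => Sg ν p.1 p.2 :=
a0_cont_aff (T := Sg ν) (a := fun s ξ => exp (-ν * s + 6 * s - I * ((Real.exp s - 1) * ‖ξ‖ ^ 2 : ℝ)))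
    (r := fun s => Real.exp (s / 2)) (b := fun _ => 0) (by fun_prop) (by fun_prop)
    (fun _ => Real.exp_pos _) continuous_const (K := fun s => Real.exp ((‖ν‖ + 10) * |s|))
    (by fun_prop) (norm_Sg' ν) fun s g => by simpa only [add_zero] using Sg_ae ν s g

theorem continuous_Gp (ν : ℂ) :
    Continuous fun p : ℝ × ℝ × E12 × AA => Gp ν p.1 p.2.1 p.2.2.1 p.2.2.2 := by
  have h := a0_cont_aff (P := ℝ × ℝ × E12) (T := fun p => Gp ν p.1 p.2.1 p.2.2)
    (a := fun p ξ => exp (I * p.1 + ν * p.2.1 - 6 * p.2.1 + I * ⟪Real.exp (-p.2.1 / 2) • ξ, p.2.2⟫))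
    (r := fun p => Real.exp (-p.2.1 / 2)) (b := fun _ => 0) (by fun_prop) (by fun_prop)
    (fun _ => Real.exp_pos _) continuous_const (K := fun p => Real.exp ((‖ν‖ + 10) * |p.2.1|))
    (by fun_prop) (fun p => a0_norm_Gp ν _ _ _) fun p g => by
      simpa only [add_zero] using Gp_ae ν p.1 p.2.1 p.2.2 g
  have hc : Continuous fun p : ℝ × ℝ × E12 × AA => ((p.1, p.2.1, p.2.2.1), p.2.2.2) := by fun_prop
  simpa only [Function.comp_def] using h.comp hc

end Vale.Agent.P139
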