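import Vale.Agent.P139.A0.Alg

/-! P139 task A0/Disc (PROOF.md section A0). The cells of mesh `h > 0` are a measurable partition of `E12` (`ξ ∈ cell h n ↔ n j = ⌊ξ j / h + 1/2⌋`), `hasSum_integral_iUnion`; on `cell h n`, `rnd h ξ = h • zE n` and `‖ξ - h • zE n‖ ≤ 2 h`, so `Wt (h • zE n) ≤ 2^20 Wt (2h-vector) Wt ξ`. `disc_cj`: `-cell h n` and `cell h (-n)` differ by a null set (coordinate hyperplanes).
-/

noncomputable section

open MeasureTheory Filter Topology Set Complex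
open scoped ComplexConjugate ContDiff RealInnerProductSpace

namespace Vale.Agent.P139

theorem a0d_mem {h : ℝ} (h0 : 0 < h) (n : Z12) (ξ : E12) :
    ξ ∈ cell h n ↔ ∀ j, ⌊ξ j / h + 1 / 2⌋ = n j := by
  refine forall_congr' fun j => ?_
  rw [Int.floor_eq_iff, ← sub_le_iff_le_add, le_div_iff₀ h0, ← lt_sub_iff_add_lt, div_lt_iff₀ h0,
    mul_comm _ h, mul_comm _ h, show (n j : ℝ) + 1 - 1 / 2 = n j + 1 / 2 by ring]

theorem a0_rnd_cell {h : ℝ} (h0 : 0 < h) {n : Z12} {ξ : E12} (hξ : ξ ∈ cell h n) :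
    rnd h ξ = h • zE n := by
  rw [rnd, if_neg h0.ne']
  ext j
  simp only [(a0d_mem h0 n ξ).1 hξ j, zE, PiLp.smul_apply, smul_eq_mul]

theorem a0_rnd_le {h : ℝ} (h0 : 0 ≤ h) (ξ : E12) : ‖rnd h ξ - ξ‖ ≤ 2 * h := by
  rcases h0.eq_or_lt with rfl | h0
  · simp [rnd]
  rw [rnd, if_neg h0.ne']
  refine (pow_le_pow_iff_left₀ (norm_nonneg _) (by positivity) two_ne_zero).1 ?_
  rw [EuclideanSpace.real_norm_sq_eq]
  refine (Finset.sum_le_card_nsmul _ _ ((h / 2) ^ 2) fun j _ => ?_).trans ?_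
  · have a1 := Int.floor_le (ξ j / h + 1 / 2)
    have a2 := Int.lt_floor_add_one (ξ j / h + 1 / 2)
    have e : ξ j = h * (ξ j / h) := by field_simp
    simp only [PiLp.sub_apply]
    refine sq_le_sq' ?_ ?_ <;> nlinarith
  · simp only [Finset.card_univ, Fintype.card_fin, nsmul_eq_mul]
    push_cast
    nlinarith [sq_nonneg h]

theorem a0_meas_rnd (h : ℝ) : Measurable (rnd h) := by
  unfold rnd
  split_ifs
  · exact measurable_id
  · refine (WithLp.measurable_toLp 2 _).comp (measurable_pi_lambda _ fun j => ?_)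
    exact measurable_const.mul (measurable_from_top.comp (Measurable.floor (by fun_prop)))

theorem a0_meas_cell (h : ℝ) (n : Z12) : MeasurableSet (cell h n) := by
  rw [cell, ofPred_forall]
  exact MeasurableSet.iInter fun j =>
    (show Measurable fun ξ : E12 => ξ j by fun_prop) (measurableSet_Ico
      (a := h * (n j - 1 / 2)) (b := h * (n j + 1 / 2)))

theorem a0_hasSum_cell {F : Type} [NormedAddCommGroup F] [NormedSpace ℝ F] [CompleteSpace F] {h : ℝ}
    (h0 : 0 < h) {φ : E12 → F} (hφ : Integrable φ) :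
    HasSum (fun n : Z12 => ∫ ξ in cell h n, φ ξ) (∫ ξ, φ ξ) := by
  have hU : ⋃ n, cell h n = univ := eq_univ_of_forall fun ξ =>
    mem_iUnion.2 ⟨fun j => ⌊ξ j / h + 1 / 2⌋, (a0d_mem h0 _ ξ).2 fun _ => rfl⟩
  have H := hasSum_integral_iUnion (a0_meas_cell h) (fun n k hnk => disjoint_left.2 fun ξ h1 h2 =>
    hnk (funext fun j => ((a0d_mem h0 n ξ).1 h1 j).symm.trans ((a0d_mem h0 k ξ).1 h2 j)))
    (f := φ) (μ := volume) hφ.integrableOn
  rwa [hU, Measure.restrict_univ] at H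

theorem a0d_ae {g : AA} {f : E12 → ℂ} (e : g =ᵐ[volume] f) (h : ℝ) (n : Z12) :
    disc h g n = ∫ ξ in cell h n, f ξ := integral_congr_ae (ae_restrict_of_ae e)

theorem disc_add (h : ℝ) (f g : AA) : disc h (f + g) = disc h f + disc h g := by
  funext n
  rw [a0d_ae (a0_add_ae f g)]
  exact integral_add (a0_int f).integrableOn (a0_int g).integrableOn

theorem ex_discL (h : ℝ) (n : Z12) : ∃ T : AA →L[ℂ] ℂ, ∀ g, T g = disc h g n := by
  refine ⟨LinearMap.mkContinuous ⟨⟨fun g => disc h g n, fun f g => congrFun (disc_add h f g) n⟩,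
    fun c g => ?_⟩ 1 fun g => ?_, fun _ => rfl⟩
  · exact (a0d_ae (a0_smul_ae c g) h n).trans (integral_const_mul _ _)
  · rw [one_mul, AA_norm]
    refine (norm_integral_le_integral_norm _).trans ((setIntegral_le_integral (a0_int g).norm
      (Eventually.of_forall fun _ => norm_nonneg _)).trans (integral_mono (a0_int g).norm
        (a0_intW g) fun ξ => le_mul_of_one_le_left (norm_nonneg _) (a0_one_le_Wt ξ)))

theorem a0d_le {h : ℝ} (h0 : 0 < h) (g : AA) (n : Z12) : Wt (h • zE n) * ‖disc h g n‖ ≤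
    2 ^ 20 * (1 + (2 * h) ^ 20) * ∫ ξ in cell h n, Wt ξ * ‖g ξ‖ := by
  rw [← integral_const_mul]
  refine (mul_le_mul_of_nonneg_left (norm_integral_le_integral_norm _) (a0_Wt_pos _).le).trans ?_
  rw [← integral_const_mul]
  refine setIntegral_mono_on ((a0_int g).norm.const_mul _).integrableOn
    ((a0_intW g).const_mul _).integrableOn (a0_meas_cell h n) fun ξ hξ => ?_
  rw [← mul_assoc]
  refine mul_le_mul_of_nonneg_right ?_ (norm_nonneg _)
  have h1 := Wt_add (rnd h ξ - ξ) ξ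
  rw [sub_add_cancel, a0_rnd_cell h0 hξ, ← a0_rnd_cell h0 hξ] at h1
  rw [← a0_rnd_cell h0 hξ, mul_assoc]
  refine h1.trans (mul_le_mul_of_nonneg_left (mul_le_mul_of_nonneg_right ?_ (a0_Wt_pos _).le)
    (by positivity))
  have := a0_rnd_le h0.le ξ
  unfold Wt
  gcongr

theorem a0d_sum {h : ℝ} (h0 : 0 < h) (g : AA) : Summable fun n => Wt (h • zE n) * ‖disc h g n‖ :=
  Summable.of_nonneg_of_le (fun _ => mul_nonneg (a0_Wt_pos _).le (norm_nonneg _)) (a0d_le h0 g)
    ((a0_hasSum_cell h0 (a0_intW g)).summable.mul_left _)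

theorem disc_SW {h : ℝ} (h0 : 0 < h) (g : AA) : SW (disc h g) := by
  refine Summable.of_nonneg_of_le (fun _ => mul_nonneg (a0_Wt_pos _).le (norm_nonneg _))
    (fun n => ?_) ((a0d_sum h0 g).mul_left ((1 + |h⁻¹|) ^ 20))
  have h1 := a0_Wt_smul (r := h⁻¹) (K := 1 + |h⁻¹|) (le_add_of_nonneg_right (abs_nonneg _))
    (le_add_of_nonneg_left zero_le_one) (h • zE n)
  rw [inv_smul_smul₀ h0.ne'] at h1
  rw [← mul_assoc]
  exact mul_le_mul_of_nonneg_right h1 (norm_nonneg _)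

theorem disc_wn {h : ℝ} (h0 : 0 < h) (h1 : h ≤ 1) (g : AA) : wn h (disc h g) ≤ 2 ^ 60 * ‖g‖ := by
  have H := (a0_hasSum_cell h0 (a0_intW g)).mul_left (2 ^ 20 * (1 + (2 * h) ^ 20))
  refine (hasSum_le (a0d_le h0 g) (a0d_sum h0 g).hasSum H).trans ?_
  rw [← AA_norm]
  refine mul_le_mul_of_nonneg_right ?_ (norm_nonneg _)
  have : (2 * h) ^ 20 ≤ 2 ^ 20 := pow_le_pow_left₀ (by positivity) (by linarith) 20
  norm_num at this ⊢
  linarith

theorem disc_sum {h : ℝ} (h0 : 0 < h) (g : AA) : ∑' n, disc h g n = ev g 0 := by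
  simpa [ev, disc] using (a0_hasSum_cell h0 (a0_int g)).tsum_eq

theorem a0d_null (j : Fin 12) (c : ℝ) : ∀ᵐ ξ : E12, ξ j ≠ c :=
  (PiLp.volume_preserving_ofLp (Fin 12)).quasiMeasurePreserving.ae
    (Measure.ae_eval_ne (fun _ : Fin 12 => (volume : Measure ℝ)) j c)

theorem disc_cj {h : ℝ} (_h0 : 0 < h) (g : AA) : disc h (cj g) = st (disc h g) := by
  funext n
  rw [a0d_ae (cj_ae g), st, disc, ← integral_conj, ← integral_indicator (a0_meas_cell _ _),
    ← integral_indicator (a0_meas_cell _ _), ← integral_neg_eq_self]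
  refine integral_congr_ae ?_
  filter_upwards [ae_all_iff.2 fun j => a0d_null j (h * (-n j - 1 / 2)),
    ae_all_iff.2 fun j => a0d_null j (h * (-n j + 1 / 2))] with ξ h1 h2
  have e : -ξ ∈ cell h n ↔ ξ ∈ cell h (-n) := forall_congr' fun j => by
    simp only [PiLp.neg_apply, Pi.neg_apply, Int.cast_neg]
    exact ⟨fun a => ⟨by linarith [a.2], lt_of_le_of_ne (by linarith [a.1]) (h2 j)⟩,
      fun a => ⟨by linarith [a.2], by linarith [lt_of_le_of_ne a.1 (h1 j).symm]⟩⟩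
  by_cases hξ : ξ ∈ cell h (-n)
  · rw [indicator_of_mem hξ, indicator_of_mem (e.2 hξ), neg_neg]
  · rw [indicator_of_notMem hξ, indicator_of_notMem (mt e.1 hξ)]

theorem disc_tr {h : ℝ} (_h0 : 0 < h) (n : Z12) (g : AA) (k : Z12) :
    disc h (tr (h • zE n) g) k = disc h g (k - n) := by
  rw [a0d_ae (tr_ae _ g), disc, ← integral_indicator (a0_meas_cell _ _),
    ← integral_indicator (a0_meas_cell _ _), ← integral_add_right_eq_self _ (h • zE n)]
  refine integral_congr_ae (Eventually.of_forall fun ξ => ?_)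
  have e : ξ + h • zE n ∈ cell h k ↔ ξ ∈ cell h (k - n) := forall_congr' fun j => by
    simp only [PiLp.add_apply, PiLp.smul_apply, zE, smul_eq_mul, Pi.sub_apply, Int.cast_sub]
    exact ⟨fun a => ⟨by linarith [a.1], by linarith [a.2]⟩,
      fun a => ⟨by linarith [a.1], by linarith [a.2]⟩⟩
  by_cases hξ : ξ ∈ cell h (k - n)
  · simp only [indicator_of_mem hξ, indicator_of_mem (e.2 hξ), add_sub_cancel_right]
  · simp only [indicator_of_notMem hξ, indicator_of_notMem (mt e.1 hξ)]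

theorem disc_mulE {h : ℝ} (h0 : 0 < h) {θ : E12 → ℝ} (hθ : Measurable θ) (g : AA) (n : Z12) :
    disc h (mulE (fun ζ => θ (rnd h ζ)) g) n = exp (I * θ (h • zE n)) * disc h g n := by
  rw [a0d_ae (mulE_ae (hθ.fun_comp (a0_meas_rnd h)) g), disc, ← integral_const_mul]
  exact setIntegral_congr_fun (a0_meas_cell h n) fun ξ hξ => by simp only [a0_rnd_cell h0 hξ]

end Vale.Agent.P139
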