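import Vale.Agent.P139.A0.Disc
import Vale.Agent.P139.A0.Cont

/-! P139 task A0/Disc2 (PROOF.md section A0). `disc_conv`: `cv (disc f) (disc g) n = disc (∫ g η • tr (rnd h η) f) n` (`disc_tr`, `a0_hasSum_cell`, `ex_discL`), `conv_eq_integral`, `disc_wn`, dominated convergence with `continuous_tr`, `norm_tr`. `disc_Sg`, `disc_Gp`: change variables in the cell integral (`a0_int_aff` with indicators); the difference is `c * disc h (mulE θ g - mulE (θ ∘ rnd h) g)` (`disc_mulE`), whose norm is `≤ ∫ Wt ‖g‖ min 2 (C_N |θ0 ζ - θ0 (rnd h ζ)|) → 0`; `wn (h r) ≤ K^20 wn h` by `a0_Wt_smul`.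
-/

noncomputable section

open MeasureTheory Filter Topology Set Complex
open scoped ComplexConjugate ContDiff RealInnerProductSpace

namespace Vale.Agent.P139

theorem a0disc2_sub (h : ℝ) (f g : AA) : disc h (f - g) = disc h f - disc h g := by
  funext n
  obtain ⟨T, hT⟩ := ex_discL h n
  rw [Pi.sub_apply, ← hT, ← hT, ← hT, map_sub]

theorem a0disc2_nonneg (h : ℝ) (c : Z12 → ℂ) : 0 ≤ wn h c :=
  tsum_nonneg fun _ => mul_nonneg (a0_Wt_pos _).le (norm_nonneg _)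

theorem a0disc2_bd {h : ℝ} (h0 : 0 ≤ h) (h1 : h ≤ 1) (f g : AA) (η : E12) :
    ‖g η • tr (rnd h η) f‖ ≤ 2 ^ 40 * (1 + 2 ^ 20) * ‖f‖ * (Wt η * ‖g η‖) := by
  have a1 := Wt_add (rnd h η - η) η
  rw [sub_add_cancel] at a1
  have a2 : Wt (rnd h η - η) ≤ 1 + 2 ^ 20 := by
    have := (a0_rnd_le h0 η).trans (show 2 * h ≤ 2 by linarith)
    unfold Wt
    gcongr
  have a3 := a0_Wt_pos η
  calc _ = ‖g η‖ * ‖tr (rnd h η) f‖ := norm_smul _ _
    _ ≤ ‖g η‖ * (2 ^ 20 * (2 ^ 20 * ((1 + 2 ^ 20) * Wt η)) * ‖f‖) := by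
        refine mul_le_mul_of_nonneg_left ((norm_tr _ f).trans ?_) (norm_nonneg _)
        gcongr
        exact a1.trans (by gcongr)
    _ = _ := by ring

theorem a0disc2_cont (f : AA) : Continuous fun η : E12 => tr η f :=
  continuous_tr.comp (f := fun η : E12 => (η, f)) (by fun_prop)

theorem a0disc2_meas (h : ℝ) (f g : AA) :
    AEStronglyMeasurable (fun η => g η • tr (rnd h η) f) volume :=
  (a0_meas g).smul
    ((a0disc2_cont f).stronglyMeasurable.comp_measurable (a0_meas_rnd h)).aestronglyMeasurable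

theorem a0disc2_cv {h : ℝ} (h0 : 0 < h) (h1 : h ≤ 1) (f g : AA) :
    cv (disc h f) (disc h g) = disc h (∫ η, g η • tr (rnd h η) f) := by
  funext n
  obtain ⟨T, hT⟩ := ex_discL h n
  have hi : Integrable fun η => g η • tr (rnd h η) f :=
    ((a0_intW g).const_mul _).mono' (a0disc2_meas h f g)
      (Eventually.of_forall (a0disc2_bd h0.le h1 f g))
  rw [← hT, ← T.integral_comp_comm hi, ← (a0_hasSum_cell h0 (T.integrable_comp hi)).tsum_eq, cv,
    ← (Equiv.subLeft n).tsum_eq]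
  refine tsum_congr fun k => ?_
  rw [Equiv.subLeft_apply, sub_sub_cancel, mul_comm, disc, ← integral_mul_const]
  refine setIntegral_congr_fun (a0_meas_cell h k) fun η hη => ?_
  beta_reduce
  rw [map_smul, hT, a0_rnd_cell h0 hη, disc_tr h0, smul_eq_mul]

theorem a0disc2_scale {r ρ h : ℝ} (hρ : 0 < ρ) (hr : r * ρ = 1) {T G : AA} {φ : E12 → ℂ} {c : ℂ}
    (hT : T =ᵐ[volume] fun ξ => c * r ^ 12 * φ (r • ξ)) (hG : G =ᵐ[volume] φ) (n : Z12) :
    disc (h * ρ) T n = c * disc h G n := by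
  have r0 : 0 < r := pos_of_mul_pos_left (hr ▸ one_pos) hρ.le
  have e : ∀ ξ : E12, ξ ∈ cell (h * ρ) n ↔ r • ξ + 0 ∈ cell h n := fun ξ => by
    refine forall_congr' fun j => ?_
    have e1 : ∀ t : ℝ, h * t = r * (h * ρ * t) := fun t => by linear_combination -(h * t) * hr
    rw [add_zero, PiLp.smul_apply, smul_eq_mul, e1 (n j - 1 / 2), e1 (n j + 1 / 2),
      mul_le_mul_iff_right₀ r0, mul_lt_mul_iff_right₀ r0]
  have h1 := a0_int_aff ((cell h n).indicator φ) r0.ne' 0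
  rw [integral_indicator (a0_meas_cell _ _), abs_of_pos r0] at h1
  rw [disc, disc, integral_congr_ae (ae_restrict_of_ae hT), integral_congr_ae (ae_restrict_of_ae hG),
    integral_const_mul, ← integral_indicator (a0_meas_cell _ _), integral_congr_ae
      (g := fun ξ => (cell h n).indicator φ (r • ξ + 0)) (Eventually.of_forall fun ξ => ?_), h1,
    real_smul]
  · have : (r : ℂ) ≠ 0 := ofReal_ne_zero.2 r0.ne'
    push_cast
    field_simp
  · by_cases hξ : ξ ∈ cell (h * ρ) n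
    · simp only [indicator_of_mem hξ, indicator_of_mem ((e ξ).1 hξ)]
      rw [add_zero]
    · simp only [indicator_of_notMem hξ, indicator_of_notMem (mt (e ξ).2 hξ)]

theorem a0disc2_exp (a b : ℝ) : ‖exp (I * a) - exp (I * b)‖ ≤ min 2 |a - b| := by
  refine le_min ((norm_sub_le _ _).trans ?_) ?_
  · rw [norm_exp_I_mul_ofReal, norm_exp_I_mul_ofReal]
    norm_num
  · have e : exp (I * a) - exp (I * b) = exp (I * b) * (exp (I * (a - b : ℝ)) - 1) := by
      rw [mul_sub, ← Complex.exp_add]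
      push_cast
      ring_nf
    rw [e, norm_mul, norm_exp_I_mul_ofReal, one_mul]
    exact Real.norm_exp_I_mul_ofReal_sub_one_le

theorem a0disc2_err (g : AA) (C : ℝ) {δ : ℝ} (hδ : 0 < δ) : ∀ᶠ h in 𝓝 (0 : ℝ), ∀ θ θ' : E12 → ℝ,
    Measurable θ → Measurable θ' → (∀ ζ, |θ ζ - θ' ζ| ≤ h * (C * (1 + ‖ζ‖))) →
      ‖mulE θ g - mulE θ' g‖ ≤ δ := by
  have hi : ∀ h : ℝ, AEStronglyMeasurable
      (fun ζ => Wt ζ * ‖g ζ‖ * min 2 |h * (C * (1 + ‖ζ‖))|) volume := fun h =>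
    (a0_intW g).1.mul (Continuous.aestronglyMeasurable (by fun_prop))
  have hb : ∀ (h : ℝ) ζ, ‖Wt ζ * ‖g ζ‖ * min 2 |h * (C * (1 + ‖ζ‖))|‖ ≤ Wt ζ * ‖g ζ‖ * 2 :=
    fun h ζ => by
      have := a0_Wt_pos ζ
      rw [Real.norm_of_nonneg (by positivity)]
      exact mul_le_mul_of_nonneg_left (min_le_left _ _) (by positivity)
  have ht := continuous_of_dominated hi (fun h => Eventually.of_forall (hb h))
    ((a0_intW g).mul_const 2) (Eventually.of_forall fun ζ => by fun_prop)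
  filter_upwards [(ht.tendsto' 0 0 (by simp)).eventually_le_const hδ] with h hh θ θ' m m' hθ
  refine le_trans ?_ hh
  rw [AA_norm]
  refine integral_mono_ae (a0_intW _) (((a0_intW g).mul_const 2).mono' (hi h)
    (Eventually.of_forall (hb h))) ?_
  filter_upwards [a0_sub_ae (mulE θ g) (mulE θ' g), mulE_ae m g, mulE_ae m' g] with ζ e e1 e2
  rw [e, e1, e2, ← sub_mul, norm_mul, mul_comm _ ‖g ζ‖, ← mul_assoc]
  exact mul_le_mul_of_nonneg_left ((a0disc2_exp _ _).trans (min_le_min le_rfl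
    ((hθ ζ).trans (le_abs_self _)))) (mul_nonneg (a0_Wt_pos _).le (norm_nonneg _))

theorem a0disc2_wn {h ρ K B : ℝ} (h0 : 0 < h) (h1 : h ≤ 1) (hK : 1 ≤ K) (hρ : |ρ| ≤ K) {c : ℂ}
    (hc : ‖c‖ ≤ B) (G : AA) : wn (h * ρ) (fun n => c * disc h G n) ≤ K ^ 20 * B * 2 ^ 60 * ‖G‖ := by
  have hB : 0 ≤ B := (norm_nonneg _).trans hc
  have hs : Summable fun n => Wt (h • zE n) * ‖disc h G n‖ :=
    (disc_SW h0 G).of_nonneg_of_le (fun _ => mul_nonneg (a0_Wt_pos _).le (norm_nonneg _)) fun n =>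
      mul_le_mul_of_nonneg_right (by simpa using a0_Wt_smul le_rfl (abs_le.2 ⟨by linarith, h1⟩) _)
        (norm_nonneg _)
  calc _ ≤ K ^ 20 * B * wn h (disc h G) := by
        refine Real.tsum_le_of_sum_le (fun _ => mul_nonneg (a0_Wt_pos _).le (norm_nonneg _))
          fun u => le_trans (Finset.sum_le_sum fun n _ => ?_) (sum_le_hasSum u (fun n _ =>
            mul_nonneg (by positivity) (mul_nonneg (a0_Wt_pos _).le (norm_nonneg _)))
            (hs.hasSum.mul_left (K ^ 20 * B)))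
        rw [mul_comm h, mul_smul, norm_mul, mul_mul_mul_comm]
        exact mul_le_mul (a0_Wt_smul hK hρ _) (mul_le_mul_of_nonneg_right hc (norm_nonneg _))
          (by positivity) (mul_nonneg (by positivity) (a0_Wt_pos _).le)
    _ ≤ K ^ 20 * B * (2 ^ 60 * ‖G‖) := mul_le_mul_of_nonneg_left (disc_wn h0 h1 G) (by positivity)
    _ = _ := by ring

theorem a0disc2_main (g : AA) (C : ℝ) {K B δ : ℝ} (hK : 1 ≤ K) (hB : 0 < B) (hδ : 0 < δ) :
    ∃ h0 > 0, ∀ h ∈ Ioc 0 h0, h ≤ 1 ∧ ∀ (r ρ : ℝ) (c : ℂ) (θ : E12 → ℝ) (T : AA) (a : E12 → ℂ)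
      (u : Z12 → ℂ), 0 < ρ → ρ ≤ K → r * ρ = 1 → ‖c‖ ≤ B → Measurable θ →
      (∀ ζ, |θ ζ - θ (rnd h ζ)| ≤ h * (C * (1 + ‖ζ‖))) →
      (T =ᵐ[volume] fun ξ => a ξ * g (r • ξ)) → (∀ ξ, a ξ = c * r ^ 12 * exp (I * θ (r • ξ))) →
      (∀ n, u n = c * exp (I * θ (h • zE n))) →
      wn (h * ρ) (disc (h * ρ) T - fun n => u n * disc h g n) ≤ δ := by
  have hp : 0 < K ^ 20 * B * 2 ^ 60 := by positivity
  obtain ⟨ε, hε, h2⟩ := Metric.eventually_nhds_iff.1 (a0disc2_err g C (div_pos hδ hp))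
  refine ⟨min 1 (ε / 2), by positivity, fun h ⟨h0, h1⟩ => ?_⟩
  rw [le_min_iff] at h1
  refine ⟨h1.1, fun r ρ c θ T a u hρ hρK hr hc m hθ hT ha hu => ?_⟩
  have m' : Measurable fun ζ => θ (rnd h ζ) := m.comp (a0_meas_rnd h)
  have e : (disc (h * ρ) T - fun n => u n * disc h g n) =
      fun n => c * disc h (mulE θ g - mulE (fun ζ => θ (rnd h ζ)) g) n := by
    funext n
    simp only [ha, mul_assoc (c * _)] at hT
    rw [a0disc2_sub, Pi.sub_apply, Pi.sub_apply, disc_mulE h0 m, hu,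
      a0disc2_scale hρ hr (φ := fun ζ => exp (I * θ ζ) * g ζ) hT (mulE_ae m g)]
    ring
  rw [e]
  refine (a0disc2_wn h0 h1.1 hK (by rwa [abs_of_pos hρ]) hc _).trans ?_
  rw [mul_comm, ← le_div_iff₀ hp]
  exact h2 (by rw [Real.dist_eq, sub_zero, abs_of_pos h0]; linarith) _ _ m m' hθ

theorem disc_conv (f g : AA) : Tendsto
    (fun h => wn h (disc h (conv f g) - cv (disc h f) (disc h g))) (𝓝[>] 0) (𝓝 0) := by
  have h1 : ∀ᶠ h in 𝓝[>] (0 : ℝ), h ∈ Ioc 0 1 := Ioc_mem_nhdsGT one_pos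
  have h2 : Tendsto (fun h => ∫ η, g η • tr (rnd h η) f) (𝓝[>] 0) (𝓝 (conv f g)) := by
    rw [conv_eq_integral]
    refine tendsto_integral_filter_of_dominated_convergence _
      (Eventually.of_forall fun h => a0disc2_meas h f g)
      (h1.mono fun h hh => Eventually.of_forall (a0disc2_bd hh.1.le hh.2 f g))
      ((a0_intW g).const_mul _) (Eventually.of_forall fun η => ?_)
    refine (((a0disc2_cont f).tendsto η).comp (tendsto_iff_norm_sub_tendsto_zero.2 ?_)).const_smul _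
    refine squeeze_zero' (Eventually.of_forall fun _ => norm_nonneg _)
      (h1.mono fun h hh => a0_rnd_le hh.1.le η) (tendsto_nhdsWithin_of_tendsto_nhds ?_)
    exact (continuous_const.mul continuous_id).tendsto' 0 0 (by simp)
  refine squeeze_zero' (Eventually.of_forall fun _ => a0disc2_nonneg _ _) (h1.mono fun h hh => ?_)
    (by simpa using (tendsto_iff_norm_sub_tendsto_zero.1 h2).const_mul (2 ^ 60))
  rw [a0disc2_cv hh.1 hh.2, ← a0disc2_sub, norm_sub_rev]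
  exact disc_wn hh.1 hh.2 _

theorem disc_Sg (ν : ℂ) (g : AA) (N : ℝ) {δ : ℝ} (hδ : 0 < δ) : ∃ h0 > 0, ∀ h ∈ Ioc 0 h0,
    ∀ s ∈ Icc (-N) N, wn (h * Real.exp (-s / 2)) (disc (h * Real.exp (-s / 2)) (Sg ν s g) - fun n =>
      exp (-ν * s - I * ((1 - Real.exp (-s)) * h ^ 2 * nsq n : ℝ)) * disc h g n) ≤ δ := by
  obtain ⟨h0, p0, H⟩ := a0disc2_main g (4 * (1 + Real.exp N)) (Real.one_le_exp (abs_nonneg N))
    (Real.exp_pos (‖ν‖ * N)) hδ
  refine ⟨h0, p0, fun h hh s hs => (H h hh).2 (Real.exp (s / 2)) _ (exp (-ν * s))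
    (fun ζ => -((1 - Real.exp (-s)) * ‖ζ‖ ^ 2)) _ _ _ (Real.exp_pos _)
    (Real.exp_le_exp.2 (by linarith [hs.1, hs.2, le_abs_self N])) ?_ ?_ (by fun_prop) (fun ζ => ?_)
    (Sg_ae ν s g) (fun ξ => ?_) fun n => ?_⟩
  · rw [← Real.exp_add, ← Real.exp_zero]
    congr 1
    ring
  · refine (norm_exp_le_exp_norm _).trans (Real.exp_le_exp.2 ?_)
    rw [norm_mul, norm_neg, norm_real]
    exact mul_le_mul_of_nonneg_left (abs_le.2 hs) (norm_nonneg _)
  · have a1 := abs_le.1 ((abs_norm_sub_norm_le _ _).trans (a0_rnd_le hh.1.le ζ))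
    have a2 : |1 - Real.exp (-s)| ≤ 1 + Real.exp N := by
      have := Real.exp_le_exp.2 (neg_le.1 hs.1)
      have := Real.exp_pos (-s)
      exact abs_le.2 ⟨by linarith, by linarith⟩
    have a3 : |‖rnd h ζ‖ ^ 2 - ‖ζ‖ ^ 2| ≤ 2 * h * (2 * (1 + ‖ζ‖)) := by
      rw [sq_sub_sq, abs_mul, mul_comm, abs_of_nonneg (a := _ + _) (by positivity)]
      exact mul_le_mul (abs_le.2 a1) (by linarith [(H h hh).1]) (by positivity) (by linarith [hh.1])
    rw [neg_sub_neg, ← mul_sub, abs_mul]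
    exact (mul_le_mul a2 a3 (abs_nonneg _) (by positivity)).trans_eq (by ring)
  · have e : Real.exp (s / 2) ^ 2 * Real.exp (-s) = 1 := by
      rw [← Real.exp_nat_mul, ← Real.exp_add, ← Real.exp_zero]
      congr 1
      push_cast
      ring
    have e' : Real.exp (s / 2) ^ 2 = Real.exp s := by
      rw [← Real.exp_nat_mul]
      congr 1
      push_cast
      ring
    rw [norm_smul, Real.norm_of_nonneg (Real.exp_pos _).le, ofReal_exp, ← Complex.exp_nat_mul,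
      ← Complex.exp_add, ← Complex.exp_add,
      show (1 - Real.exp (-s)) * (Real.exp (s / 2) * ‖ξ‖) ^ 2 = (Real.exp s - 1) * ‖ξ‖ ^ 2 by
        rw [← e']; linear_combination -‖ξ‖ ^ 2 * e, ofReal_neg]
    congr 1
    simp only [ofReal_div, ofReal_ofNat, Nat.cast_ofNat]
    ring
  · rw [← Complex.exp_add, norm_smul, mul_pow, EuclideanSpace.real_norm_sq_eq, Real.norm_eq_abs,
      sq_abs, ofReal_neg, mul_neg, ← sub_eq_add_neg, ← mul_assoc]
    rfl

theorem disc_Gp (ν : ℂ) (g : AA) {δ : ℝ} (hδ : 0 < δ) : ∃ h0 > 0, ∀ h ∈ Ioc 0 h0,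
    ∀ (c0 c1 : ℝ) (x : E12), |c1| ≤ 1 → ‖x‖ ≤ 1 →
      wn (h * Real.exp (c1 / 2)) (disc (h * Real.exp (c1 / 2)) (Gp ν c0 c1 x g) - fun n =>
        exp (I * c0 + ν * c1 + I * (h * ⟪zE n, x⟫ : ℝ)) * disc h g n) ≤ δ := by
  obtain ⟨h0, p0, H⟩ := a0disc2_main g 2 (Real.one_le_exp zero_le_one) (Real.exp_pos ‖ν‖) hδ
  refine ⟨h0, p0, fun h hh c0 c1 x hc hx => (H h hh).2 (Real.exp (-c1 / 2)) _
    (exp (I * c0 + ν * c1)) (fun ζ => ⟪ζ, x⟫) _ _ _ (Real.exp_pos _)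
    (Real.exp_le_exp.2 (by linarith [le_abs_self c1])) ?_ ?_ (by fun_prop) (fun ζ => ?_)
    (Gp_ae ν c0 c1 x g) (fun ξ => ?_) fun n => ?_⟩
  · rw [← Real.exp_add, ← Real.exp_zero]
    congr 1
    ring
  · rw [Complex.exp_add, norm_mul, norm_exp_I_mul_ofReal, one_mul]
    refine (norm_exp_le_exp_norm _).trans (Real.exp_le_exp.2 ?_)
    rw [norm_mul, norm_real]
    exact mul_le_of_le_one_right (norm_nonneg _) hc
  · rw [← inner_sub_left]
    refine (abs_real_inner_le_norm _ _).trans ((mul_le_of_le_one_right (norm_nonneg _) hx).trans ?_)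
    rw [norm_sub_rev]
    nlinarith [a0_rnd_le hh.1.le ζ, mul_nonneg hh.1.le (norm_nonneg ζ)]
  · rw [ofReal_exp, ← Complex.exp_nat_mul, ← Complex.exp_add, ← Complex.exp_add]
    congr 1
    simp only [ofReal_div, ofReal_neg, ofReal_ofNat, Nat.cast_ofNat]
    ring
  · rw [← Complex.exp_add, real_inner_smul_left]

end Vale.Agent.P139
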