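import Vale.Agent.P139.A0.Smooth
import Vale.Agent.P139.A0.Cont

/-! P139 task A0/Duh (PROOF.md section A0). Weak form: with `a0_fderiv_ev`, `a0_lap_ev` the hypothesis says `∫ g (-i‖ζ‖² - ν - λ - (i/2)⟪ζ,y⟫) e^(i⟪ζ,y⟫) + ∫ k e^(i⟪ζ,y⟫) = 0`. Integrate against the Gaussian `exp (-‖y - y0‖²/(4 b))`, `re b > 0` (`GaussianFourier.integral_cexp_neg_mul_sq_norm_add`, Fubini; the term with `⟪ζ,y⟫` is the derivative in `c` at `c = 1` of the formula at `c ζ`): `∫ g (-i‖ζ‖² - ν - λ + b‖ζ‖² - (i/2)⟪ζ,y0⟫) e^(-b‖ζ‖² + i⟪ζ,y0⟫) + ∫ k e^(..) = 0`; let `b → i τ` (dominated convergence). With `a0_deriv_ev_Sg`: `d/ds ev (Sg s g) y = λ ev (Sg s g) y - ev (Sg s k) y`; integrate `σ ↦ e^(λσ) ev (Sg (s-σ) g) y`; `ev_inj`, `ex_evL`.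
-/

noncomputable section

open MeasureTheory Filter Topology Set Complex
open scoped ComplexConjugate ContDiff RealInnerProductSpace

namespace Vale.Agent.P139

theorem a0_gint {c : ℝ} (hc : 0 < c) :
    Integrable fun w : E12 => (1 + ‖w‖) * Real.exp (-c * ‖w‖ ^ 2) := by
  have h := (GaussianFourier.integrable_cexp_neg_mul_sq_norm_add (V := E12)
    (b := ((c / 2 : ℝ) : ℂ)) (by simpa using hc) 0 0).norm.const_mul (2 + 2 / c)
  refine h.mono' (by fun_prop) (Eventually.of_forall fun w => ?_)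
  rw [zero_mul, add_zero, ← ofReal_pow, ← ofReal_neg, ← ofReal_mul, norm_exp_ofReal,
    Real.norm_of_nonneg (by positivity),
    show -(c / 2) * ‖w‖ ^ 2 = c / 2 * ‖w‖ ^ 2 + -c * ‖w‖ ^ 2 by ring, Real.exp_add, ← mul_assoc]
  refine mul_le_mul_of_nonneg_right (le_trans ?_ (mul_le_mul_of_nonneg_left
    (Real.add_one_le_exp _) (by positivity))) (Real.exp_pos _).le
  have h1 : 2 / c * (c / 2 * ‖w‖ ^ 2) = ‖w‖ ^ 2 := by field_simp
  nlinarith [sq_nonneg (‖w‖ - 1), mul_nonneg hc.le (sq_nonneg ‖w‖), div_pos two_pos hc]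

theorem a0_gnorm (b : ℂ) (t : ℝ) (w : E12) :
    ‖exp (-b * (‖w‖ : ℂ) ^ 2 + I * t)‖ = Real.exp (-b.re * ‖w‖ ^ 2) := by
  rw [norm_exp, ← ofReal_pow]
  simp [-ofReal_pow]

theorem a0_moment {b : ℂ} (hb : 0 < b.re) (ζ : E12) :
    (Integrable fun w : E12 => exp (-b * (‖w‖ : ℂ) ^ 2 + I * ⟪ζ, w⟫) * (I * ⟪ζ, w⟫)) ∧
    ∫ w : E12, exp (-b * (‖w‖ : ℂ) ^ 2 + I * ⟪ζ, w⟫) * (I * ⟪ζ, w⟫) =
      (Real.pi / b) ^ (Module.finrank ℝ E12 / 2 : ℂ) * (exp (I ^ 2 * (‖ζ‖ : ℂ) ^ 2 / (4 * b)) *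
        (-(‖ζ‖ : ℂ) ^ 2 / (2 * b))) := by
  have h1 := hasDerivAt_integral_of_dominated_loc_of_deriv_le (μ := (volume : Measure E12))
    (F := fun (t : ℝ) w => exp (-b * (‖w‖ : ℂ) ^ 2 + I * t * ⟪ζ, w⟫))
    (F' := fun (t : ℝ) w => exp (-b * (‖w‖ : ℂ) ^ 2 + I * t * ⟪ζ, w⟫) * (I * ⟪ζ, w⟫))
    (x₀ := 1) (bound := fun w => ‖ζ‖ * ((1 + ‖w‖) * Real.exp (-b.re * ‖w‖ ^ 2))) univ_mem
    (Eventually.of_forall fun t => by fun_prop)
    (GaussianFourier.integrable_cexp_neg_mul_sq_norm_add hb _ ζ) (by fun_prop)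
    (Eventually.of_forall fun w t _ => by
      rw [norm_mul, mul_assoc I, ← ofReal_mul, a0_gnorm, norm_mul, norm_I, one_mul, norm_real]
      nlinarith [mul_le_mul_of_nonneg_left (norm_inner_le_norm (𝕜 := ℝ) ζ w)
        (Real.exp_pos (-b.re * ‖w‖ ^ 2)).le,
        mul_nonneg (norm_nonneg ζ) (Real.exp_pos (-b.re * ‖w‖ ^ 2)).le])
    ((a0_gint hb).const_mul _) (Eventually.of_forall fun w t _ =>
      (((((hasDerivAt_id t).ofReal_comp.const_mul I).mul_const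
        ((⟪ζ, w⟫ : ℝ) : ℂ)).const_add (-b * (‖w‖ : ℂ) ^ 2)).cexp).congr_deriv (by simp))
  simp only [GaussianFourier.integral_cexp_neg_mul_sq_norm_add hb] at h1
  have h2 := ((((((hasDerivAt_id (1 : ℝ)).ofReal_comp.const_mul I).pow 2).mul_const
    ((‖ζ‖ : ℂ) ^ 2)).div_const (4 * b)).cexp).const_mul
    ((Real.pi / b) ^ (Module.finrank ℝ E12 / 2 : ℂ))
  have h3 := h1.2.unique h2
  have h4 := h1.1
  simp only [ofReal_one, mul_one, id, Pi.pow_apply] at h3 h4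
  refine ⟨h4, ?_⟩
  rw [h3]
  congr 2
  push_cast
  linear_combination (‖ζ‖ : ℂ) ^ 2 / (2 * b) * I_mul_I

theorem a0_sup {g h : E12 → ℂ} (hm : AEStronglyMeasurable g volume)
    (hg : Integrable fun ζ => Wt ζ * ‖g ζ‖) (hh : Integrable h)
    (H : ∀ v : E12, ∫ ζ, (h ζ + I / 2 * ⟪ζ, v⟫ * g ζ) * exp (I * ⟪ζ, v⟫) = 0) {β : ℂ}
    (hβ : 0 < β.re) (y : E12) : ∫ ζ, (h ζ + (I / 2 * ⟪ζ, y⟫ - β * (‖ζ‖ : ℂ) ^ 2) * g ζ) *
      exp (-β * (‖ζ‖ : ℂ) ^ 2 + I * ⟪ζ, y⟫) = 0 := by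
  have h0 : β ≠ 0 := by rintro rfl; simp at hβ
  have hb : 0 < (4 * β)⁻¹.re := by
    rw [inv_re]
    exact div_pos (by simpa using hβ) (normSq_pos.2 (by simpa using h0))
  have hi : Integrable (Function.uncurry fun w ζ : E12 => exp (-(4 * β)⁻¹ * (‖w‖ : ℂ) ^ 2) *
      ((h ζ + I / 2 * ⟪ζ, y + w⟫ * g ζ) * exp (I * ⟪ζ, y + w⟫))) (volume.prod volume) := by
    refine ((a0_gint hb).mul_prod (hh.norm.add (hg.const_mul (1 + ‖y‖)))).mono' ?_
      (Eventually.of_forall fun p => ?_)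
    · exact (Continuous.aestronglyMeasurable (by fun_prop)).mul ((hh.1.comp_snd.add
        ((Continuous.aestronglyMeasurable (by fun_prop)).mul hm.comp_snd)).mul
          (Continuous.aestronglyMeasurable (by fun_prop)))
    have h1 := a0_gnorm (4 * β)⁻¹ 0 p.1
    rw [ofReal_zero, mul_zero, add_zero] at h1
    have h2 : ‖⟪p.2, y + p.1⟫‖ ≤ (1 + ‖p.1‖) * ((1 + ‖y‖) * Wt p.2) := by
      refine (norm_inner_le_norm _ _).trans ?_
      have h3 := a0_pow_le_Wt (j := 1) (by norm_num) p.2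
      rw [pow_one] at h3
      rw [← mul_assoc, mul_comm]
      exact mul_le_mul ((norm_add_le _ _).trans (by nlinarith [norm_nonneg y, norm_nonneg p.1]))
        h3 (norm_nonneg _) (by positivity)
    simp only [Function.uncurry, norm_mul, h1, norm_exp_I_mul_ofReal, mul_one, Pi.add_apply]
    rw [mul_comm (1 + ‖p.1‖), mul_assoc (Real.exp _), mul_assoc (I / 2)]
    refine mul_le_mul_of_nonneg_left ?_ (Real.exp_pos _).le
    refine (norm_add_le _ _).trans ?_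
    rw [norm_mul, norm_mul, norm_real, norm_div, norm_I, Complex.norm_two]
    nlinarith [mul_le_mul_of_nonneg_right h2 (norm_nonneg (g p.2)), norm_nonneg (g p.2),
      mul_nonneg (norm_nonneg p.1) (norm_nonneg (h p.2)),
      mul_nonneg (norm_nonneg (inner ℝ p.2 (y + p.1))) (norm_nonneg (g p.2))]
  have h1 := integral_integral_swap hi
  simp only [integral_const_mul, H, mul_zero, integral_zero] at h1
  have hC : ((Real.pi : ℂ) / (4 * β)⁻¹) ^ (Module.finrank ℝ E12 / 2 : ℂ) ≠ 0 := by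
    simp [h0]
  refine (mul_eq_zero_iff_left hC).1 ?_
  rw [h1, ← integral_const_mul]
  refine integral_congr_ae (Eventually.of_forall fun ζ => ?_)
  have e : ∀ w : E12, exp (-(4 * β)⁻¹ * (‖w‖ : ℂ) ^ 2) *
      ((h ζ + I / 2 * ⟪ζ, y + w⟫ * g ζ) * exp (I * ⟪ζ, y + w⟫)) =
      exp (I * ⟪ζ, y⟫) * (h ζ + I / 2 * ⟪ζ, y⟫ * g ζ) *
        exp (-(4 * β)⁻¹ * (‖w‖ : ℂ) ^ 2 + I * ⟪ζ, w⟫) + exp (I * ⟪ζ, y⟫) * g ζ / 2 *
        (exp (-(4 * β)⁻¹ * (‖w‖ : ℂ) ^ 2 + I * ⟪ζ, w⟫) * (I * ⟪ζ, w⟫)) := fun w => by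
    rw [inner_add_right, ofReal_add, mul_add I, exp_add, exp_add]
    ring
  simp only [e]
  rw [integral_add ((GaussianFourier.integrable_cexp_neg_mul_sq_norm_add hb _ ζ).const_mul _)
    ((a0_moment hb ζ).1.const_mul _), integral_const_mul, integral_const_mul, (a0_moment hb ζ).2,
    GaussianFourier.integral_cexp_neg_mul_sq_norm_add hb, exp_add,
    show I ^ 2 * (‖ζ‖ : ℂ) ^ 2 / (4 * (4 * β)⁻¹) = -β * (‖ζ‖ : ℂ) ^ 2 by rw [I_sq]; field_simp,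
    show -(‖ζ‖ : ℂ) ^ 2 / (2 * (4 * β)⁻¹) = -2 * β * (‖ζ‖ : ℂ) ^ 2 by field_simp; ring]
  ring

theorem a0_chirp {g h : E12 → ℂ} (hm : AEStronglyMeasurable g volume)
    (hg : Integrable fun ζ => Wt ζ * ‖g ζ‖) (hh : Integrable h)
    (H : ∀ v : E12, ∫ ζ, (h ζ + I / 2 * ⟪ζ, v⟫ * g ζ) * exp (I * ⟪ζ, v⟫) = 0) (τ : ℝ) (y : E12) :
    ∫ ζ, (h ζ + (I / 2 * ⟪ζ, y⟫ - I * τ * (‖ζ‖ : ℂ) ^ 2) * g ζ) *
      exp (-(I * τ) * (‖ζ‖ : ℂ) ^ 2 + I * ⟪ζ, y⟫) = 0 := by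
  have h1 := tendsto_integral_filter_of_dominated_convergence (μ := (volume : Measure E12))
    (l := 𝓝[>] (0 : ℝ)) (F := fun (ε : ℝ) ζ => (h ζ + (I / 2 * ⟪ζ, y⟫ - (ε + I * τ) *
      (‖ζ‖ : ℂ) ^ 2) * g ζ) * exp (-(ε + I * τ) * (‖ζ‖ : ℂ) ^ 2 + I * ⟪ζ, y⟫))
    (f := fun ζ => (h ζ + (I / 2 * ⟪ζ, y⟫ - ((0 : ℝ) + I * τ) *
      (‖ζ‖ : ℂ) ^ 2) * g ζ) * exp (-((0 : ℝ) + I * τ) * (‖ζ‖ : ℂ) ^ 2 + I * ⟪ζ, y⟫))
    (fun ζ => ‖h ζ‖ + (‖y‖ + 1 + |τ|) * (Wt ζ * ‖g ζ‖))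
    (Eventually.of_forall fun ε => (hh.1.add ((Continuous.aestronglyMeasurable (by fun_prop)).mul
      hm)).mul (Continuous.aestronglyMeasurable (by fun_prop)))
    (Eventually.mono (Ioc_mem_nhdsGT one_pos) fun ε (hε : ε ∈ Ioc 0 1) =>
      Eventually.of_forall fun ζ => ?_) (hh.norm.add (hg.const_mul _))
    (Eventually.of_forall fun ζ => (Continuous.tendsto (by fun_prop) 0).mono_left nhdsWithin_le_nhds)
  · simp only [ofReal_zero, zero_add] at h1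
    exact tendsto_nhds_unique h1 (tendsto_const_nhds.congr' (Filter.mem_of_superset
      self_mem_nhdsWithin fun ε hε => (a0_sup hm hg hh H (by simpa using hε) y).symm))
  rw [norm_mul, a0_gnorm]
  refine (mul_le_of_le_one_right (norm_nonneg _) (Real.exp_le_one_iff.2 ?_)).trans
    ((norm_add_le _ _).trans (add_le_add le_rfl ?_))
  · simp only [add_re, ofReal_re, mul_re, I_re, I_im, ofReal_im]
    nlinarith [hε.1, sq_nonneg ‖ζ‖]
  rw [norm_mul, ← mul_assoc]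
  refine mul_le_mul_of_nonneg_right ((norm_sub_le _ _).trans ?_) (norm_nonneg _)
  have h2 := a0_pow_le_Wt (j := 1) (by norm_num) ζ
  have h3 : ‖(ε : ℂ) + I * τ‖ ≤ 1 + |τ| := (norm_add_le _ _).trans (by
    simp [abs_of_pos hε.1, hε.2])
  have h4 := mul_le_mul h3 (a0_pow_le_Wt (j := 2) (by norm_num) ζ) (by positivity) (by positivity)
  rw [pow_one] at h2
  rw [norm_mul, norm_mul, norm_real, norm_div, norm_I, Complex.norm_two, norm_pow, norm_real,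
    norm_norm]
  linarith [norm_inner_le_norm (𝕜 := ℝ) ζ y, mul_le_mul_of_nonneg_right h2 (norm_nonneg y),
    norm_nonneg (inner ℝ ζ y)]

theorem a0_int_poly (g : AA) (a b c : ℂ) (y : E12) {E : E12 → ℂ} (hE : Continuous E) {K : ℝ}
    (hK : ∀ ζ, ‖E ζ‖ ≤ K) {F : E12 → ℂ}
    (hF : ∀ ζ, F ζ = g ζ * (a + b * (‖ζ‖ : ℂ) ^ 2 + c * ⟪ζ, y⟫) * E ζ) : Integrable F := by
  rw [funext hF]
  refine (((a0_intW g).const_mul (‖a‖ + ‖b‖ + ‖c‖ * ‖y‖)).mul_const K).mono'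
    (((a0_meas g).mul (Continuous.aestronglyMeasurable (by fun_prop))).mul hE.aestronglyMeasurable)
    (Eventually.of_forall fun ζ => ?_)
  have h2 := a0_pow_le_Wt (j := 1) (by norm_num) ζ
  have h3 := a0_Wt_pos ζ
  rw [pow_one] at h2
  rw [norm_mul, norm_mul, ← mul_assoc, mul_comm ‖g ζ‖]
  refine mul_le_mul (mul_le_mul_of_nonneg_right (norm_add₃_le.trans ?_) (norm_nonneg _)) (hK ζ)
    (norm_nonneg _) (by positivity)
  rw [norm_mul, norm_mul, norm_pow, norm_real, norm_real, norm_norm]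
  linarith [mul_le_mul_of_nonneg_left (a0_one_le_Wt ζ) (norm_nonneg a),
    mul_le_mul_of_nonneg_left (a0_pow_le_Wt (j := 2) (by norm_num) ζ) (norm_nonneg b),
    mul_le_mul_of_nonneg_left ((norm_inner_le_norm (𝕜 := ℝ) ζ y).trans
      (mul_le_mul_of_nonneg_right h2 (norm_nonneg y))) (norm_nonneg c)]

theorem a0_lin {f1 f2 f3 f4 : E12 → ℂ} (h1 : Integrable f1) (h2 : Integrable f2)
    (h3 : Integrable f3) (h4 : Integrable f4) (c1 c2 c3 c4 : ℂ) {F : E12 → ℂ}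
    (hF : ∀ ζ, F ζ = c1 * f1 ζ + c2 * f2 ζ + c3 * f3 ζ + c4 * f4 ζ) :
    ∫ ζ, F ζ = (c1 * ∫ ζ, f1 ζ) + (c2 * ∫ ζ, f2 ζ) + (c3 * ∫ ζ, f3 ζ) + c4 * ∫ ζ, f4 ζ := by
  have i1 : Integrable fun ζ => c1 * f1 ζ + c2 * f2 ζ := (h1.const_mul c1).add (h2.const_mul c2)
  have i2 : Integrable fun ζ => c1 * f1 ζ + c2 * f2 ζ + c3 * f3 ζ := i1.add (h3.const_mul c3)
  simp only [hF]
  rw [integral_add i2 (h4.const_mul c4), integral_add i1 (h3.const_mul c3),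
    integral_add (h1.const_mul c1) (h2.const_mul c2)]
  simp only [integral_const_mul]

theorem a0_eig_deriv {ν lam : ℂ} {g k : AA} (h : ∀ y, I * Laplacian.laplacian (ev g) y -
    ν * ev g y - 1 / 2 * fderiv ℝ (ev g) y y + ev k y = lam * ev g y) (y : E12) (s : ℝ) :
    HasDerivAt (fun s => ev (Sg ν s g) y) (lam * ev (Sg ν s g) y - ev (Sg ν s k) y) s := by
  have hh : Integrable fun ζ => g ζ * (lam + ν + I * (‖ζ‖ : ℂ) ^ 2) - k ζ :=
    (a0_int_poly g (lam + ν) I 0 0 (E := fun _ => 1) continuous_const (fun _ => le_rfl)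
      fun ζ => by ring).sub (a0_int k)
  have h1 := a0_chirp (a0_meas g) (a0_intW g) hh (fun v => ?_) (1 - Real.exp (-s))
    (Real.exp (-s / 2) • y)
  · refine (a0_deriv_ev_Sg ν g y s).congr_deriv ?_
    rw [a0_ev_Sg, a0_ev_Sg]
    set E : E12 → ℂ := fun ζ => exp (-ν * s - I * ((1 - Real.exp (-s)) * ‖ζ‖ ^ 2 : ℝ) +
      I * (Real.exp (-s / 2) * ⟪ζ, y⟫ : ℝ)) with hE
    have hc : Continuous E := by fun_prop
    have hK : ∀ ζ, ‖E ζ‖ ≤ ‖exp (-ν * s)‖ := fun ζ => by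
      simp only [hE, sub_eq_add_neg, exp_add, norm_mul, ← mul_neg, ← ofReal_neg,
        norm_exp_I_mul_ofReal, mul_one, le_refl]
    have i1 : Integrable fun ζ => g ζ * E ζ := a0_int_poly g 1 0 0 y hc hK fun ζ => by ring
    have i2 : Integrable fun ζ => k ζ * E ζ := a0_int_poly k 1 0 0 y hc hK fun ζ => by ring
    have i3 : Integrable fun ζ => g ζ * (-ν - I * (Real.exp (-s) * ‖ζ‖ ^ 2 : ℝ) -
        I / 2 * (Real.exp (-s / 2) * ⟪ζ, y⟫ : ℝ)) * E ζ :=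
      a0_int_poly g (-ν) (-I * Real.exp (-s)) (-I / 2 * Real.exp (-s / 2)) y hc hK fun ζ => by
        simp only [ofReal_mul, ofReal_pow]
        ring
    have h2 := congrArg (exp (-ν * s) * ·) h1
    simp only [mul_zero] at h2
    rw [← integral_const_mul, a0_lin i1 i2 i3 i3 lam (-1) (-1) 0 fun ζ => ?_] at h2
    · linear_combination -h2
    rw [mul_left_comm, ← exp_add]
    simp only [hE, real_inner_smul_right, ofReal_mul, ofReal_pow, ofReal_sub, ofReal_one]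
    rw [show -ν * s + (-(I * (1 - (Real.exp (-s) : ℂ))) * (‖ζ‖ : ℂ) ^ 2 +
      I * (Real.exp (-s / 2) * ⟪ζ, y⟫)) = -ν * s - I * ((1 - (Real.exp (-s) : ℂ)) * (‖ζ‖ : ℂ) ^ 2) +
      I * (Real.exp (-s / 2) * ⟪ζ, y⟫) by ring]
    ring
  have hc : Continuous fun ζ : E12 => exp (I * ⟪ζ, v⟫) := by fun_prop
  have hK : ∀ ζ : E12, ‖exp (I * ⟪ζ, v⟫)‖ ≤ 1 := fun ζ => (norm_exp_I_mul_ofReal _).le
  have h2 := h v
  rw [a0_lap_ev, a0_fderiv_ev, ev, ev] at h2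
  rw [a0_lin (f1 := fun ζ => g ζ * (-(‖ζ‖ ^ 2 : ℝ)) * exp (I * ⟪ζ, v⟫))
    (f2 := fun ζ => g ζ * exp (I * ⟪ζ, v⟫)) (f3 := fun ζ => g ζ * (I * ⟪ζ, v⟫) * exp (I * ⟪ζ, v⟫))
    (f4 := fun ζ => k ζ * exp (I * ⟪ζ, v⟫))
    (a0_int_poly g 0 (-1) 0 v hc hK fun ζ => by simp) (a0_int_poly g 1 0 0 v hc hK fun ζ => by ring)
    (a0_int_poly g 0 0 I v hc hK fun ζ => by ring) (a0_int_poly k 1 0 0 v hc hK fun ζ => by ring)
    (-I) (lam + ν) (1 / 2) (-1) fun ζ => by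
      simp only [ofReal_pow]
      ring]
  linear_combination -h2

/-- An eigenvalue equation in physical space gives the Duhamel formula. -/
theorem duhamel_of_eig {ν lam : ℂ} {g k : AA} (h : ∀ y, I * Laplacian.laplacian (ev g) y -
    ν * ev g y - 1 / 2 * fderiv ℝ (ev g) y y + ev k y = lam * ev g y) (s : ℝ) :
    exp (lam * s) • g = Sg ν s g + ∫ σ in (0 : ℝ)..s, Sg ν (s - σ) (exp (lam * σ) • k) := by
  refine ev_inj fun y => ?_
  obtain ⟨T, hT⟩ := ex_evL y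
  have hc : Continuous fun σ : ℝ => Sg ν (s - σ) (exp (lam * σ) • k) :=
    (continuous_Sg ν).comp (f := fun σ : ℝ => (s - σ, exp (lam * σ) • k)) (by fun_prop)
  have h1 := intervalIntegral.integral_eq_sub_of_hasDerivAt (a := 0) (b := s)
    (f := fun σ : ℝ => exp (lam * σ) * ev (Sg ν (s - σ) g) y)
    (f' := fun σ : ℝ => T (Sg ν (s - σ) (exp (lam * σ) • k))) (fun σ _ => ?_)
    ((T.continuous.comp hc).intervalIntegrable _ _)
  · rw [a0_ev_add, ← hT (∫ σ in (0 : ℝ)..s, _),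
      ← T.intervalIntegral_comp_comm (hc.intervalIntegrable _ _), h1, a0_ev_smul]
    simp [Sg_zero]
  refine ((((hasDerivAt_id σ).ofReal_comp.const_mul lam).cexp).mul
    ((a0_eig_deriv h y (s - σ)).scomp σ ((hasDerivAt_id σ).const_sub s))).congr_deriv ?_
  simp only [map_smul, hT, a0_ev_smul, id, ofReal_one, Function.comp_apply, neg_smul,
    one_smul]
  ring

end Vale.Agent.P139
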