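import Vale.Agent.P139.C.ModesAux

/-! P139 task A0/Rad (PROOF.md section A0). Radial functions on `E12`: first derivative by the chain rule (`XX` has derivative `⟪y, ·⟫/2`), Laplacian by `InnerProductSpace.laplacian_eq_iteratedFDeriv_orthonormalBasis` / `iteratedFDeriv_two_apply`.
-/

noncomputable section

open MeasureTheory Filter Topology Set Complex
open scoped ComplexConjugate ContDiff RealInnerProductSpace

namespace Vale.Agent.P139

theorem a0r_XX (y : E12) : HasFDerivAt XX ((1 / 2 : ℝ) • innerSL ℝ y) y := by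
  have h := (hasStrictFDerivAt_norm_sq y).hasFDerivAt.const_mul (1 / 4 : ℝ)
  have e : XX = fun y : E12 => 1 / 4 * ‖y‖ ^ 2 := funext fun z => by rw [XX]; ring
  rw [e]
  refine h.congr_fderiv (ContinuousLinearMap.ext fun v => ?_)
  simp
  ring

theorem a0r_diff {κ : ℝ → ℂ} {y : E12} (h : DifferentiableAt ℝ κ (XX y)) :
    DifferentiableAt ℝ (fun z => κ (XX z)) y := h.comp y (a0r_XX y).differentiableAt

theorem a0_fderiv_dir {κ : ℝ → ℂ} {y : E12} (h : DifferentiableAt ℝ κ (XX y)) (v : E12) :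
    fderiv ℝ (fun z => κ (XX z)) y v = (⟪y, v⟫ / 2 : ℝ) * deriv κ (XX y) := by
  have h1 := (h.hasDerivAt.hasFDerivAt.comp y (a0r_XX y)).fderiv
  rw [show (fun z => κ (XX z)) = κ ∘ XX from rfl, h1]
  simp
  ring

theorem a0_fderiv_rad {κ : ℝ → ℂ} {y : E12} (h : DifferentiableAt ℝ κ (XX y)) :
    fderiv ℝ (fun z => κ (XX z)) y y = 2 * XX y * deriv κ (XX y) := by
  rw [a0_fderiv_dir h, real_inner_self_eq_norm_sq, XX]
  push_cast
  ring

theorem a0r_co (j : Fin 12) (y : E12) : HasFDerivAt (fun z : E12 => ((z j / 2 : ℝ) : ℂ))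
    (ofRealCLM.comp ((1 / 2 : ℝ) • EuclideanSpace.proj j)) y := by
  convert (ofRealCLM.comp ((1 / 2 : ℝ) • EuclideanSpace.proj (𝕜 := ℝ) j)).hasFDerivAt (x := y)
    using 1
  funext z
  simp
  ring

theorem a0r_mul {K : E12 → ℂ} {y : E12} (h : DifferentiableAt ℝ K y) (j : Fin 12) (v : E12) :
    fderiv ℝ (fun z : E12 => ((z j / 2 : ℝ) : ℂ) * K z) y v =
      (y j / 2 : ℝ) * fderiv ℝ K y v + (v j / 2 : ℝ) * K y := by
  rw [fderiv_fun_mul (a0r_co j y).differentiableAt h, (a0r_co j y).fderiv]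
  simp
  ring

theorem a0_fderiv_radj {κ : ℝ → ℂ} {y : E12} (h : DifferentiableAt ℝ κ (XX y)) (j : Fin 12) :
    fderiv ℝ (fun z : E12 => ((z j / 2 : ℝ) : ℂ) * κ (XX z)) y y =
      (y j / 2 : ℝ) * (κ (XX y) + 2 * XX y * deriv κ (XX y)) := by
  rw [a0r_mul (a0r_diff h), a0_fderiv_rad h]
  ring

theorem a0r_lap {F : E12 → ℂ} {y : E12} (h : ContDiffAt ℝ 2 F y) {G : Fin 12 → E12 → ℂ}
    (hG : ∀ᶠ z in 𝓝 y, ∀ i, fderiv ℝ F z (EuclideanSpace.single i 1) = G i z) :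
    Laplacian.laplacian F y = ∑ i, fderiv ℝ (G i) y (EuclideanSpace.single i 1) := by
  rw [InnerProductSpace.laplacian_eq_iteratedFDeriv_orthonormalBasis F
    (EuclideanSpace.basisFun (Fin 12) ℝ)]
  refine Finset.sum_congr rfl fun i _ => ?_
  have e : G i =ᶠ[𝓝 y] fun z => fderiv ℝ F z (EuclideanSpace.single i 1) :=
    hG.mono fun z hz => (hz i).symm
  rw [iteratedFDeriv_two_apply, e.fderiv_eq, fderiv_clm_apply
    ((h.fderiv_right (m := 1) (by norm_num)).differentiableAt one_ne_zero) (differentiableAt_const _)]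
  simp

theorem a0r_ev {κ : ℝ → ℂ} {y : E12} (h : ContDiffAt ℝ 2 κ (XX y)) :
    ContDiffAt ℝ 2 (fun z => κ (XX z)) y ∧ DifferentiableAt ℝ (deriv κ) (XX y) ∧
      ∀ᶠ z in 𝓝 y, DifferentiableAt ℝ κ (XX z) :=
  ⟨h.comp y ((contDiff_norm_sq ℝ).div_const 4).contDiffAt,
    ((h.fderiv_right (m := 1) (by norm_num)).differentiableAt one_ne_zero).clm_apply
      (differentiableAt_const 1),
    ((a0r_XX y).continuousAt.eventually (h.eventually (by simp))).mono fun _ hz =>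
      hz.differentiableAt two_ne_zero⟩

theorem a0r_e {κ : ℝ → ℂ} {y : E12} (h : DifferentiableAt ℝ κ (XX y)) (i : Fin 12) :
    fderiv ℝ (fun z => κ (XX z)) y (EuclideanSpace.single i 1) = (y i / 2 : ℝ) * deriv κ (XX y) := by
  rw [a0_fderiv_dir h]
  simp [EuclideanSpace.inner_single_right]

theorem a0r_sum (y : E12) (A B : ℂ) : ∑ i, (((y i / 2 : ℝ) : ℂ) * ((y i / 2 : ℝ) * A) +
    ((EuclideanSpace.single i (1 : ℝ) : E12) i / 2 : ℝ) * B) = XX y * A + 6 * B := by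
  rw [XX, EuclideanSpace.real_norm_sq_eq, Finset.sum_add_distrib]
  push_cast
  rw [Finset.sum_div, Finset.sum_mul]
  congr 1
  · exact Finset.sum_congr rfl fun i _ => by ring
  · simp
    ring

theorem a0_lap_rad {κ : ℝ → ℂ} {y : E12} (h : ContDiffAt ℝ 2 κ (XX y)) :
    Laplacian.laplacian (fun z => κ (XX z)) y =
      XX y * deriv (deriv κ) (XX y) + 6 * deriv κ (XX y) := by
  obtain ⟨h1, h2, h3⟩ := a0r_ev h
  rw [a0r_lap h1 (h3.mono fun z hz i => a0r_e hz i), ← a0r_sum]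
  exact Finset.sum_congr rfl fun i _ => by rw [a0r_mul (a0r_diff h2), a0r_e h2]

theorem a0_lap_radj {κ : ℝ → ℂ} {y : E12} (h : ContDiffAt ℝ 2 κ (XX y)) (j : Fin 12) :
    Laplacian.laplacian (fun z : E12 => ((z j / 2 : ℝ) : ℂ) * κ (XX z)) y =
      (y j / 2 : ℝ) * (XX y * deriv (deriv κ) (XX y) + 7 * deriv κ (XX y)) := by
  obtain ⟨h1, h2, h3⟩ := a0r_ev h
  have h0 := h3.self_of_nhds
  have c : ContDiff ℝ 2 fun z : E12 => ((z j / 2 : ℝ) : ℂ) :=
    ofRealCLM.contDiff.comp ((EuclideanSpace.proj (𝕜 := ℝ) j).contDiff.div_const 2)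
  rw [a0r_lap (c.contDiffAt.mul h1) (h3.mono fun z hz i => by rw [a0r_mul (a0r_diff hz), a0r_e hz])]
  have e : ∀ i, fderiv ℝ (fun z : E12 => ((z j / 2 : ℝ) : ℂ) * ((z i / 2 : ℝ) * deriv κ (XX z)) +
      ((EuclideanSpace.single i (1 : ℝ) : E12) j / 2 : ℝ) * κ (XX z)) y (EuclideanSpace.single i 1) =
      (y j / 2 : ℝ) * ((y i / 2 : ℝ) * ((y i / 2 : ℝ) * deriv (deriv κ) (XX y)) +
        ((EuclideanSpace.single i (1 : ℝ) : E12) i / 2 : ℝ) * deriv κ (XX y)) +
      if j = i then (y i / 2 : ℝ) * deriv κ (XX y) else 0 := by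
    intro i
    have d1 := (a0r_co i y).differentiableAt.fun_mul (a0r_diff h2)
    rw [fderiv_fun_add ((a0r_co j y).differentiableAt.fun_mul d1) ((a0r_diff h0).const_mul _),
      add_apply, a0r_mul d1, fderiv_const_mul (a0r_diff h0),
      smul_apply, a0r_e h0, a0r_mul (a0r_diff h2), a0r_e h2]
    split_ifs with hj
    · subst hj
      simp
      ring
    · simp [hj]
  simp only [e]
  rw [Finset.sum_add_distrib, ← Finset.mul_sum, a0r_sum, Finset.sum_ite_eq]
  simp only [Finset.mem_univ, if_true]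
  ring

end Vale.Agent.P139
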