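import Vale.Agent.P139.A0.Duh
import Vale.Agent.P139.A0.Rad

/-! P139 task A0/Eig (PROOF.md section A0). Apply `duhamel_of_eig` with `λ = 0, 0, 1, 1/2` and `k = -I • nlA m H.q`, resp. `H.B e`; `ev` of these by `ev_conv`, `ev_cj`, `a0_ev_nlA`; `a0_lap_rad` etc. and the ODEs (`Q.ode`, `cmodes_ode`; the latter also at `X = 0` by continuity, or extend the identity from `y ≠ 0` by density); `H.B` is real linear.
-/

noncomputable section

open MeasureTheory Filter Topology Set Complex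
open scoped ComplexConjugate ContDiff RealInnerProductSpace

namespace Vale.Agent.P139

namespace Hat
variable {m : ℕ} {Q : Prof m} (H : Hat Q)

theorem a0e_B (z : AA) (y : E12) :
    ev (H.B z) y = -I * (Q.V1 (XX y) * ev z y + Q.V2 (XX y) * conj (ev z y)) := by
  rw [B, a0_ev_smul, a0_ev_add, ev_conv, ev_conv, ev_cj, H.ev_V1, H.ev_V2]

theorem a0e_smul (t : ℝ) (z : AA) : H.B (t • z) = (t : ℂ) • H.B z := ev_inj fun y => by
  rw [a0_ev_smul, a0e_B, a0e_B, a0_ev_rsmul, map_mul, conj_ofReal]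
  ring

theorem a0e_r (t : ℝ) (z : AA) : (t : ℂ) • z = t • z := ev_inj fun y => by
  rw [a0_ev_smul, a0_ev_rsmul]

theorem a0e_X (y : E12) : 0 ≤ XX y := by
  unfold XX
  positivity

theorem a0e_two : (2 : WithTop ℕ∞) ≤ ∞ := WithTop.coe_le_coe.2 (le_top (a := (2 : ℕ∞)))

theorem a0e_rad {g k : AA} {κ : ℝ → ℂ} {lam : ℂ} (hg : ∀ y, ev g y = κ (XX y))
    (hκ : ∀ X, 0 ≤ X → ContDiffAt ℝ 2 κ X)
    (ho : ∀ y, XX y * deriv (deriv κ) (XX y) + (6 + I * XX y) * deriv κ (XX y) +
      (Q.β + I * aa m + I * lam) * κ (XX y) = I * ev k y) (s : ℝ) :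
    exp (lam * s) • g = Sg (nu0 m Q.β) s g +
      ∫ σ in (0 : ℝ)..s, Sg (nu0 m Q.β) (s - σ) (exp (lam * σ) • k) := by
  refine duhamel_of_eig (fun y => ?_) s
  have h := hκ _ (a0e_X y)
  rw [show ev g = fun y => κ (XX y) from funext hg, a0_lap_rad h,
    a0_fderiv_rad (h.differentiableAt two_ne_zero), nu0]
  linear_combination I * ho y + (ev k y - XX y * deriv κ (XX y) - (aa m + lam) * κ (XX y)) * I_sq

theorem stat (s : ℝ) : H.q = Sg (nu0 m Q.β) s H.q +
    ∫ σ in (0 : ℝ)..s, Sg (nu0 m Q.β) (s - σ) (-I • nlA m H.q) := by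
  have h := a0e_rad (Q := Q) (k := -I • nlA m H.q) (lam := 0) H.ev_q
    (fun X hX => (cmodes_at Q hX).1.of_le a0e_two) (fun y => by
      rw [a0_ev_smul, a0_ev_nlA, H.ev_q]
      linear_combination Q.ode _ (a0e_X y) + (normSq (Q.q (XX y)) : ℂ) ^ m * Q.q (XX y) * I_sq) s
  simpa only [zero_mul, Complex.exp_zero, one_smul] using h

theorem eig_P (s : ℝ) : I • H.q = Sg (nu0 m Q.β) s (I • H.q) +
    ∫ σ in (0 : ℝ)..s, Sg (nu0 m Q.β) (s - σ) (H.B (I • H.q)) := by
  have e : H.B (I • H.q) = I • (-I • nlA m H.q) := ev_inj fun y => by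
    obtain ⟨n, h1, h2, h3, -⟩ := cmodes_V Q (XX y)
    simp only [a0e_B, a0_ev_smul, a0_ev_nlA, H.ev_q, h1, h2, h3, map_mul, conj_I]
    ring
  simp only [e, map_smul _ I]
  rw [intervalIntegral.integral_smul, ← smul_add, ← H.stat s]

theorem eig_T (s : ℝ) : Real.exp s • H.eT = Sg (nu0 m Q.β) s H.eT +
    ∫ σ in (0 : ℝ)..s, Sg (nu0 m Q.β) (s - σ) (H.B (Real.exp σ • H.eT)) := by
  have c : ∀ X : ℝ, HasDerivAt (fun X : ℝ => (X : ℂ)) 1 X := fun X => (hasDerivAt_id' X).ofReal_comp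
  have h := a0e_rad (Q := Q) (k := H.B H.eT) (lam := 1) H.ev_eT
    (fun X hX => ((ofRealCLM.contDiff.contDiffAt.mul (cmodes_at Q hX).2.1).add
      (contDiffAt_const.mul (cmodes_at Q hX).1)).of_le a0e_two) (fun y => by
      have hX := a0e_X y
      obtain ⟨d0, d1, d2⟩ := cmodes_d Q hX
      have e1 : deriv Q.eT =ᶠ[𝓝 (XX y)] fun X : ℝ => 1 * deriv Q.q X + X * deriv (deriv Q.q) X +
          nu0 m Q.β * deriv Q.q X := by
        filter_upwards [((cmodes_at Q hX).1.of_le (m := 1) (by exact_mod_cast le_top)).eventually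
          (by simp), ((cmodes_at Q hX).2.1.of_le (m := 1) (by exact_mod_cast le_top)).eventually
          (by simp)] with X a0 a1
        exact (((c X).fun_mul (a1.differentiableAt one_ne_zero).hasDerivAt).fun_add
          ((a0.differentiableAt one_ne_zero).hasDerivAt.const_mul _)).deriv
      have e2 := (((d1.const_mul 1).fun_add ((c _).fun_mul d2)).fun_add
        (d1.const_mul (nu0 m Q.β))).deriv
      have o3 : (XX y : ℂ) * (XX y * deriv (deriv (deriv Q.q)) (XX y) +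
          (7 + I * XX y) * deriv (deriv Q.q) (XX y) + (Q.β + I * aa m + I) * deriv Q.q (XX y)) =
          XX y * (Q.V1 (XX y) * deriv Q.q (XX y) + Q.V2 (XX y) * conj (deriv Q.q (XX y))) := by
        rcases hX.eq_or_lt with h | h
        · simp [← h]
        · rw [cmodes_ode Q h]
      have o2 := Q.ode _ hX
      obtain ⟨n, h1, h2, h3, -⟩ := cmodes_V Q (XX y)
      have ha : (2 * m * aa m : ℂ) = 1 := by
        have : (m : ℂ) ≠ 0 := Nat.cast_ne_zero.2 (Nat.one_le_iff_ne_zero.1 Q.m_pos)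
        unfold aa
        push_cast
        field_simp
      rw [e1.deriv_eq, e2, e1.eq_of_nhds, a0e_B, H.ev_eT]
      rw [h1] at o2
      rw [h2, h3] at o3 ⊢
      simp only [Prof.eT, nu0, map_add, map_mul, map_sub, conj_ofReal, conj_I]
      generalize Q.q (XX y) = q at *
      generalize deriv Q.q (XX y) = q1 at *
      linear_combination o3 + (1 + aa m - I * Q.β) * o2 - n * q * q * conj q * ha +
        (-(Q.β * q) + (m + 1) * (n * (q * conj q)) * (XX y * q1 + (aa m - I * Q.β) * q) +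
          m * n * q ^ 2 * (XX y * conj q1 + (aa m + I * Q.β) * conj q)) * I_sq) s
  simpa only [one_mul, ← ofReal_exp, a0e_smul, a0e_r] using h

theorem eig_D (j : Fin 12) (s : ℝ) : Real.exp (s / 2) • H.eD j = Sg (nu0 m Q.β) s (H.eD j) +
    ∫ σ in (0 : ℝ)..s, Sg (nu0 m Q.β) (s - σ) (H.B (Real.exp (σ / 2) • H.eD j)) := by
  have h := duhamel_of_eig (ν := nu0 m Q.β) (lam := 1 / 2) (g := H.eD j) (k := H.B (H.eD j))
    (fun y => by
      have hX := a0e_X y
      have o3 : ((y j / 2 : ℝ) : ℂ) * (XX y * deriv (deriv (deriv Q.q)) (XX y) +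
          (7 + I * XX y) * deriv (deriv Q.q) (XX y) + (Q.β + I * aa m + I) * deriv Q.q (XX y)) =
          (y j / 2 : ℝ) * (Q.V1 (XX y) * deriv Q.q (XX y) +
            Q.V2 (XX y) * conj (deriv Q.q (XX y))) := by
        rcases eq_or_ne y 0 with h | h
        · simp [h]
        · rw [cmodes_ode Q (X := XX y) (div_pos (pow_pos (norm_pos_iff.2 h) 2) four_pos)]
      have h2 : ContDiffAt ℝ 2 (deriv Q.q) (XX y) :=
        (cmodes_at Q hX).2.1.of_le a0e_two
      rw [a0e_B, show ev (H.eD j) = fun z : E12 => ((z j / 2 : ℝ) : ℂ) * deriv Q.q (XX z) from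
        funext (H.ev_eD j), a0_lap_radj h2, a0_fderiv_radj (h2.differentiableAt two_ne_zero), nu0]
      simp only [map_mul, conj_ofReal]
      linear_combination I * o3 - ((y j / 2 : ℝ) : ℂ) * (XX y * deriv (deriv Q.q) (XX y) +
        (aa m + 1) * deriv Q.q (XX y)) * I_sq) s
  have e : ∀ σ : ℝ, exp (1 / 2 * (σ : ℂ)) = (Real.exp (σ / 2) : ℝ) := fun σ => by
    rw [ofReal_exp]
    congr 1
    push_cast
    ring
  simpa only [e, a0e_smul, a0e_r] using h

end Hat

end Vale.Agent.P139
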