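import Vale.Agent.P139.A0.Cont
import Vale.Agent.P139.A0.Rad

/-! P139 task A0/GpD (PROOF.md section A0). `d/dt ev (Gp (t c0) (t c1) (t x) q) y = ev (Gp (t c0) (t c1) (t x) (mode c0 c1 ((1 - t c1/2) x))) y` (`ev_Gp`, chain rule, `a0_fderiv_dir`), so `Gp c q - q = ∫₀¹ Gp (t c) (mode ..) dt` by `ev_inj`; then `continuous_Gp` at `0` for the finitely many vectors `I • q`, `eT`, `eD j`, and `a0_Gp_zero`.
-/

noncomputable section

open MeasureTheory Filter Topology Set Complex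
open scoped ComplexConjugate ContDiff RealInnerProductSpace

namespace Vale.Agent.P139

namespace Hat
variable {m : ℕ} {Q : Prof m} (H : Hat Q)

theorem a0g_sum (f : Fin 12 → AA) (y : E12) : ev (∑ j, f j) y = ∑ j, ev (f j) y := by
  obtain ⟨T, hT⟩ := ex_evL y
  simp only [← hT, map_sum]

theorem a0g_mode (c0 c1 : ℝ) (x y : E12) : ev (H.mode c0 c1 x) y =
    c0 * (I * Q.q (XX y)) + c1 * Q.eT (XX y) + (⟪y, x⟫ / 2 : ℝ) * deriv Q.q (XX y) := by
  rw [mode, a0_ev_add, a0_ev_add, a0_ev_rsmul, a0_ev_rsmul, a0_ev_smul, a0g_sum, H.ev_q, H.ev_eT]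
  simp only [a0_ev_rsmul, H.ev_eD, Prof.eD, PiLp.inner_apply, RCLike.inner_apply, conj_trivial]
  push_cast
  rw [Finset.sum_div, Finset.sum_mul]
  congr 1
  exact Finset.sum_congr rfl fun j _ => by ring

theorem a0g_cont (c0 c1 : ℝ) (x : E12) : Continuous fun t : ℝ =>
    Gp (nu0 m Q.β) (t * c0) (t * c1) (t • x) (H.mode c0 c1 ((1 - t * c1 / 2) • x)) := by
  have h : Continuous fun t : ℝ => H.mode c0 c1 ((1 - t * c1 / 2) • x) := by
    unfold mode
    fun_prop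
  exact (continuous_Gp (nu0 m Q.β)).comp (f := fun t : ℝ =>
    (t * c0, t * c1, t • x, H.mode c0 c1 ((1 - t * c1 / 2) • x))) (by fun_prop)

theorem a0g_int (c0 c1 : ℝ) (x : E12) : Gp (nu0 m Q.β) c0 c1 x H.q - H.q = ∫ t in (0 : ℝ)..1,
    Gp (nu0 m Q.β) (t * c0) (t * c1) (t • x) (H.mode c0 c1 ((1 - t * c1 / 2) • x)) := by
  refine ev_inj fun y => ?_
  obtain ⟨T, hT⟩ := ex_evL y
  have hc := H.a0g_cont c0 c1 x
  rw [← hT (∫ t in (0 : ℝ)..1, _), ← T.intervalIntegral_comp_comm (hc.intervalIntegrable 0 1),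
    intervalIntegral.integral_eq_sub_of_hasDerivAt
      (f := fun t : ℝ => ev (Gp (nu0 m Q.β) (t * c0) (t * c1) (t • x) H.q) y) (fun t _ => ?_)
      ((T.continuous.comp' hc).intervalIntegrable 0 1)]
  · simp only [one_mul, one_smul, zero_mul, zero_smul, a0_Gp_zero, a0_ev_sub]
  simp only [hT, ev_Gp, a0g_mode, H.ev_q]
  have d0 : ∀ c : ℝ, HasDerivAt (fun t : ℝ => ((t * c : ℝ) : ℂ)) c t := fun c => by
    simpa using ((hasDerivAt_id' t).mul_const c).ofReal_comp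
  have d1 := (((d0 c0).const_mul I).fun_add ((d0 c1).const_mul (nu0 m Q.β))).cexp
  have d2 : HasDerivAt (fun t : ℝ => Real.exp (t * c1 / 2) • y + t • x)
      ((Real.exp (t * c1 / 2) * (1 * c1 / 2)) • y + (1 : ℝ) • x) t :=
    ((((hasDerivAt_id' t).mul_const c1).div_const 2).exp.smul_const y).fun_add
      ((hasDerivAt_id' t).smul_const x)
  set w := Real.exp (t * c1 / 2) • y + t • x with hw
  have hq : DifferentiableAt ℝ Q.q (XX w) :=
    (cmodes_d Q (show 0 ≤ XX w by unfold XX; positivity)).1.differentiableAt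
  have d3 := (a0r_diff hq).hasFDerivAt.comp_hasDerivAt t d2
  have e : (Real.exp (t * c1 / 2) * (1 * c1 / 2)) • y + (1 : ℝ) • x =
      (c1 / 2) • w + (1 - t * c1 / 2) • x := by
    rw [hw]
    module
  rw [a0_fderiv_dir hq, e, inner_add_right, real_inner_smul_right w w,
    real_inner_self_eq_norm_sq] at d3
  refine (d1.fun_mul d3).congr_deriv ?_
  simp only [Function.comp_apply, ← hw, Prof.eT, XX]
  push_cast
  ring

theorem Gp_deriv {δ : ℝ} (hδ : 0 < δ) : ∃ r > 0, ∀ (c0 c1 : ℝ) (x : E12), |c0| + |c1| + ‖x‖ ≤ r →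
    ‖Gp (nu0 m Q.β) c0 c1 x H.q - H.q - H.mode c0 c1 x‖ ≤ δ * (|c0| + |c1| + ‖x‖) := by
  have cG : ∀ g : AA, Continuous fun p : ℝ × ℝ × E12 => Gp (nu0 m Q.β) p.1 p.2.1 p.2.2 g := fun g =>
    (continuous_Gp (nu0 m Q.β)).comp (f := fun p : ℝ × ℝ × E12 => (p.1, p.2.1, p.2.2, g))
      (by fun_prop)
  have k1 : ∀ g : AA, ∀ᶠ p : ℝ × ℝ × E12 in 𝓝 0, ‖Gp (nu0 m Q.β) p.1 p.2.1 p.2.2 g - g‖ ≤ δ := by
    intro g
    refine (((cG g).sub continuous_const).norm.tendsto' 0 0 ?_).eventually (ge_mem_nhds hδ)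
    simp [a0_Gp_zero]
  have k2 : ∀ g : AA, ∀ᶠ p : ℝ × ℝ × E12 in 𝓝 0,
      ‖(1 - p.2.1 / 2) • Gp (nu0 m Q.β) p.1 p.2.1 p.2.2 g - g‖ ≤ δ / 12 := by
    intro g
    refine ((((by fun_prop : Continuous fun p : ℝ × ℝ × E12 => 1 - p.2.1 / 2).smul (cG g)).sub
      continuous_const).norm.tendsto' 0 0 ?_).eventually (ge_mem_nhds (by positivity))
    simp [a0_Gp_zero]
  obtain ⟨r, r0, hr⟩ := Metric.nhds_basis_closedBall.eventually_iff.1
    ((k1 (I • H.q)).and ((k1 H.eT).and (eventually_all.2 fun j => k2 (H.eD j))))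
  refine ⟨r, r0, fun c0 c1 x hx => ?_⟩
  have e1 : H.mode c0 c1 x = ∫ _ in (0 : ℝ)..1, H.mode c0 c1 x := by simp
  rw [a0g_int, e1, ← intervalIntegral.integral_sub ((H.a0g_cont c0 c1 x).intervalIntegrable 0 1)
    intervalIntegrable_const]
  refine (intervalIntegral.norm_integral_le_of_norm_le_const (C := δ * (|c0| + |c1| + ‖x‖))
    fun t ht => ?_).trans (by simp)
  rw [uIoc_of_le zero_le_one] at ht
  have a0 := abs_nonneg c0
  have a1 := abs_nonneg c1
  have a2 := norm_nonneg x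
  have hp : ((t * c0, t * c1, t • x) : ℝ × ℝ × E12) ∈ Metric.closedBall 0 r := by
    rw [mem_closedBall_zero_iff, show ((t * c0, t * c1, t • x) : ℝ × ℝ × E12) = t • (c0, c1, x) from
      rfl, norm_smul, Real.norm_of_nonneg ht.1.le]
    refine (mul_le_of_le_one_left (norm_nonneg _) ht.2).trans ?_
    simp only [Prod.norm_def, Real.norm_eq_abs, max_le_iff]
    refine ⟨by linarith, by linarith, by linarith⟩
  obtain ⟨h1, h2, h3⟩ := hr hp
  dsimp only at h1 h2 h3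
  set G := Gp (nu0 m Q.β) (t * c0) (t * c1) (t • x) with hG
  have e : G (H.mode c0 c1 ((1 - t * c1 / 2) • x)) - H.mode c0 c1 x =
      c0 • (G (I • H.q) - I • H.q) + c1 • (G H.eT - H.eT) +
        ∑ j, x j • ((1 - t * c1 / 2) • G (H.eD j) - H.eD j) := by
    simp only [mode, map_add, map_sum, G.map_smul_of_tower, PiLp.smul_apply, smul_eq_mul, smul_sub,
      Finset.sum_sub_distrib, smul_smul, mul_comm (x _)]
    abel
  rw [e]
  have s3 : ‖∑ j, x j • ((1 - t * c1 / 2) • G (H.eD j) - H.eD j)‖ ≤ ∑ _j : Fin 12, ‖x‖ * (δ / 12) :=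
    norm_sum_le_of_le _ fun j _ => by
      rw [norm_smul]
      exact mul_le_mul (PiLp.norm_apply_le x j) (h3 j) (norm_nonneg _) a2
  refine (norm_add_le_of_le (norm_add_le_of_le (r₂ := |c1| * δ) (r₁ := |c0| * δ) ?_ ?_) s3).trans
    (le_of_eq ?_)
  · rw [norm_smul]
    exact mul_le_mul_of_nonneg_left h1 a0
  · rw [norm_smul]
    exact mul_le_mul_of_nonneg_left h2 a1
  · simp only [Finset.sum_const, Finset.card_univ, Fintype.card_fin, nsmul_eq_mul]
    push_cast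
    ring

end Hat

end Vale.Agent.P139
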