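import Vale.Agent.P139.A0.Hat2
import Vale.Agent.P139.Ops

/-! P139 A0/Hat: dyadic decomposition and `ex_hat`. -/

noncomputable section

open MeasureTheory Filter Topology Set Complex
open scoped ComplexConjugate ContDiff RealInnerProductSpace

namespace Vale.Agent.P139

theorem a0h_cs {f : E12 → ℂ} (hs : ∀ z, 5 < ‖z‖ → f =ᶠ[𝓝 z] 0) : HasCompactSupport f :=
  HasCompactSupport.intro (isCompact_closedBall 0 5) fun z hz =>
    (hs z (by rwa [mem_closedBall_zero_iff, not_le] at hz)).eq_of_nhds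

theorem a0h_main {b : ℝ} (hb : 0 < b) {F : E12 → ℂ} (hF : Sc b F) :
    ∃ g : AA, ∀ y, ev g y = F y := by
  let χ0 : ContDiffBump (0 : E12) := ⟨4, 5, by norm_num, by norm_num⟩
  set χ : E12 → ℂ := fun z => (χ0 z : ℝ) with hχ
  have χs : ContDiff ℝ ∞ χ := ofRealCLM.contDiff.comp χ0.contDiff
  have χ1 : ∀ z, ‖z‖ ≤ 4 → χ z = 1 := fun z hz => by
    simp only [hχ, χ0.one_of_mem_closedBall (mem_closedBall_zero_iff.2 hz), ofReal_one]
  have χ5 : ∀ z, 5 ≤ ‖z‖ → χ z = 0 := fun z hz => by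
    simp only [hχ, χ0.zero_of_le_dist (x := z) (by simpa using hz), ofReal_zero]
  set ψ : E12 → ℂ := fun z => χ z - χ ((2 : ℝ) • z) with hψ
  have ψs : ContDiff ℝ ∞ ψ := χs.sub (a0h_dil χs 2)
  have n2 : ∀ z : E12, ‖(2 : ℝ) • z‖ = 2 * ‖z‖ := fun z => by rw [norm_smul, Real.norm_two]
  have far : ∀ z : E12, 5 < ‖z‖ → ∀ᶠ w : E12 in 𝓝 z, 5 < ‖w‖ := fun z hz =>
    continuous_norm.continuousAt.eventually (lt_mem_nhds hz)
  have near : ∀ z : E12, ‖z‖ < 2 → ∀ᶠ w : E12 in 𝓝 z, ‖w‖ < 2 := fun z hz =>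
    continuous_norm.continuousAt.eventually (gt_mem_nhds hz)
  obtain ⟨C, C0, hC⟩ := a0h_piece
  obtain ⟨A, A0, hA⟩ := hF.2 33
  obtain ⟨M, M1, hM⟩ := a0h_bd ψs 33
  set V := volume.real (Metric.closedBall (0 : E12) 5) with hV
  have pc : ∀ t : ℝ, 1 ≤ t → ∃ g : AA, ‖g‖ ≤ C * (V * (2 ^ 33 * (M * (A * t ^ (-b))))) ∧
      ∀ y, ev g y = ψ (t⁻¹ • y) * F y := by
    intro t ht
    have hs : ∀ z : E12, 5 < ‖z‖ → (fun z => ψ z * F (t • z)) =ᶠ[𝓝 z] 0 := fun z hz => by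
      filter_upwards [far z hz] with w hw
      simp only [hψ, χ5 w hw.le, χ5 _ (show 5 ≤ ‖(2 : ℝ) • w‖ by rw [n2]; linarith), sub_self,
        zero_mul, Pi.zero_apply]
    obtain ⟨g, h1, h2⟩ := hC _ (V * (2 ^ 33 * (M * (A * t ^ (-b))))) t (ψs.mul (a0h_dil hF.1 t))
      (a0h_cs hs) (fun j hj => a0h_int_le hs fun z hz => by
        rcases lt_or_ge ‖z‖ 2 with h | h
        · have h0 : (fun z => ψ z * F (t • z)) =ᶠ[𝓝 z] 0 := by
            filter_upwards [near z h] with w hw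
            simp only [hψ, χ1 w (by linarith), χ1 _ (show ‖(2 : ℝ) • w‖ ≤ 4 by rw [n2]; linarith),
              sub_self, zero_mul, Pi.zero_apply]
          rw [(h0.iteratedFDeriv ℝ j).eq_of_nhds]
          simp only [iteratedFDeriv_zero, Pi.zero_apply, norm_zero]
          positivity
        · exact a0h_leib ψs (a0h_dil hF.1 t) (fun i hi => hM i hi z hz)
            (fun i hi => hA i hi t ht z h hz) hj) ht
    exact ⟨g, h1, fun y => by rw [h2, smul_inv_smul₀ (by linarith)]⟩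
  have p0 : ∃ g : AA, ∀ y, ev g y = χ y * F y := by
    have hs : ∀ z : E12, 5 < ‖z‖ → (fun z => χ z * F z) =ᶠ[𝓝 z] 0 := fun z hz => by
      filter_upwards [far z hz] with w hw
      simp only [χ5 w hw.le, zero_mul, Pi.zero_apply]
    obtain ⟨B, -, hB⟩ := a0h_bd (χs.mul hF.1) 33
    obtain ⟨g, -, h2⟩ := hC _ (V * B) 1 (χs.mul hF.1) (a0h_cs hs)
      (fun j hj => a0h_int_le hs (hB j hj)) le_rfl
    exact ⟨g, fun y => by rw [h2, inv_one, one_smul]⟩
  obtain ⟨g0, hg0⟩ := p0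
  choose g hg1 hg2 using fun k : ℕ => pc (2 ^ (k + 1)) (one_le_pow₀ one_le_two)
  have r1 : (2 : ℝ) ^ (-b) < 1 := Real.rpow_lt_one_of_one_lt_of_neg one_lt_two (by linarith)
  have gs : Summable g := by
    refine Summable.of_norm_bounded (((summable_geometric_of_lt_one (by positivity) r1).mul_left
      (C * (V * (2 ^ 33 * (M * (A * 2 ^ (-b)))))))) fun k => (hg1 k).trans (le_of_eq ?_)
    rw [← Real.rpow_pow_comm zero_le_two, pow_succ]
    ring
  refine ⟨g0 + ∑' k, g k, fun y => ?_⟩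
  have T := (a0h_ev_sum gs.hasSum y).tendsto_sum_nat
  have e : ∀ n, ∑ k ∈ Finset.range n, ev (g k) y = (χ (((2 : ℝ) ^ n)⁻¹ • y) - χ y) * F y := by
    intro n
    have h := Finset.sum_range_sub (fun k : ℕ => χ (((2 : ℝ) ^ k)⁻¹ • y)) n
    rw [pow_zero, inv_one, one_smul] at h
    rw [← h, Finset.sum_mul]
    refine Finset.sum_congr rfl fun k _ => ?_
    have e2 : (2 : ℝ) * (2 ^ (k + 1))⁻¹ = (2 ^ k)⁻¹ := by
      rw [pow_succ]
      field_simp
    simp only [hg2, hψ, smul_smul, e2]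
  have T2 : Tendsto (fun n : ℕ => ((2 : ℝ) ^ n)⁻¹ • y) atTop (𝓝 0) := by
    simpa using (tendsto_inv_atTop_zero.comp
      (tendsto_pow_atTop_atTop_of_one_lt (one_lt_two (α := ℝ)))).smul_const y
  have T3 := (((χs.continuous.tendsto 0).comp T2).sub_const (χ y)).mul_const (F y)
  simp only [e] at T
  rw [a0h_ev_add, hg0, tendsto_nhds_unique T T3, χ1 0 (by simp)]
  ring

theorem a0h_ext {q : ℝ → ℂ} {δ : ℝ} (hδ : 0 < δ) (hq : ContDiffOn ℝ ∞ q (Ioi (-δ))) :
    ∃ k : ℝ → ℂ, ContDiff ℝ ∞ k ∧ ∀ X, 0 ≤ X → k =ᶠ[𝓝 X] q := by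
  refine ⟨fun X => (Real.smoothTransition (4 / δ * X + 2) : ℝ) * q X, ?_, fun X hX => ?_⟩
  · refine contDiff_iff_contDiffAt.2 fun X => ?_
    rcases lt_or_ge (-δ) X with h | h
    · refine ContDiffAt.mul ?_ (hq.contDiffAt (Ioi_mem_nhds h))
      exact (ofRealCLM.contDiff.comp (Real.smoothTransition.contDiff.comp
        ((contDiff_const.mul contDiff_id).add contDiff_const))).contDiffAt
    · refine (contDiffAt_const (c := (0 : ℂ))).congr_of_eventuallyEq ?_
      filter_upwards [Iio_mem_nhds (show X < -(δ / 2) by linarith)] with Y hY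
      rw [Real.smoothTransition.zero_of_nonpos, ofReal_zero, zero_mul]
      have h1 : 4 / δ * Y ≤ 4 / δ * -(δ / 2) := mul_le_mul_of_nonneg_left (le_of_lt hY) (by positivity)
      have h2 : 4 / δ * -(δ / 2) = -2 := by field_simp; norm_num
      linarith
  · filter_upwards [Ioi_mem_nhds (show -(δ / 4) < X by linarith)] with Y hY
    rw [Real.smoothTransition.one_of_one_le, ofReal_one, one_mul]
    have h1 : 4 / δ * -(δ / 4) ≤ 4 / δ * Y := mul_le_mul_of_nonneg_left (le_of_lt hY) (by positivity)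
    have h2 : 4 / δ * -(δ / 4) = -1 := by field_simp
    linarith

theorem ex_hat {m : ℕ} (Q : Prof m) : Nonempty (Hat Q) := by
  obtain ⟨δ, hδ, hq⟩ := Q.smooth
  obtain ⟨k, ks, hk⟩ := a0h_ext hδ hq
  have m1 : (1 : ℝ) ≤ m := by exact_mod_cast Q.m_pos
  have a0 : 0 < aa m := by
    unfold aa
    positivity
  have X0 : ∀ y, 0 ≤ XX y := fun y => by
    unfold XX
    positivity
  have sy : ∀ j, ∃ C, ∀ X : ℝ, 1 ≤ X → ‖iteratedDeriv j k X‖ ≤ C * X ^ (-aa m - j) := fun j =>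
    (Q.symb j).imp fun C hC X hX => by
      rw [(hk X (by linarith)).iteratedDeriv_eq]
      exact hC X hX
  have S0 : Sc (2 * aa m) fun y => Q.q (XX y) := by
    simpa only [fun y => (hk _ (X0 y)).eq_of_nhds] using Sc.rad a0.le ks sy
  have S1 : Sc (2 * (aa m + 1)) fun y => deriv Q.q (XX y) := by
    have h := Sc.rad (a := aa m + 1) (by linarith) (contDiff_infty_iff_deriv.1 ks).2 fun j =>
      (sy (j + 1)).imp fun C hC X hX => by
        rw [← iteratedDeriv_succ', show -(aa m + 1) - j = -aa m - (j + 1 : ℕ) by push_cast; ring]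
        exact hC X hX
    simpa only [fun y => (hk _ (X0 y)).deriv_eq] using h
  have SX : Sc (-2) fun y => (XX y : ℂ) := Sc.hom (ofRealCLM.contDiff.comp a0h_XX) fun t _ z => by
    simp [a0h_XX_smul]
  have SD : ∀ j, Sc (-1) fun y => ((y j / 2 : ℝ) : ℂ) := fun j => Sc.hom
    (ofRealCLM.contDiff.comp ((EuclideanSpace.proj (𝕜 := ℝ) j).contDiff.div_const 2)) fun t _ z => by
      simp [mul_div_assoc]
  have SN := S0.mul S0.conj
  obtain ⟨q, hq⟩ := a0h_main (by positivity) S0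
  obtain ⟨V1, h1⟩ := a0h_main (by positivity) ((Sc.const (m + 1)).mul (SN.pow m))
  obtain ⟨V2, h2⟩ := a0h_main (by positivity) (((Sc.const m).mul (SN.pow (m - 1))).mul (S0.pow 2))
  have ST := SX.mul S1
  rw [show -2 + 2 * (aa m + 1) = 0 + 2 * aa m by ring] at ST
  obtain ⟨eT, h3⟩ := a0h_main (by positivity) (ST.add ((Sc.const (nu0 m Q.β)).mul S0))
  choose eD h4 using fun j => a0h_main (by linarith) ((SD j).mul S1)
  refine ⟨⟨q, V1, V2, eT, eD, hq, fun y => ?_, fun y => ?_, h3, h4⟩⟩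
  · simp [h1, Prof.V1, Prof.P, mul_conj]
  · simp only [h2, Prof.V2, mul_conj]

end Vale.Agent.P139
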