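import Vale.Agent.P139.DefT

/-! P139 A0/Hat1: elementary facts on `AA` and the Fourier density of a dilated test function. -/

noncomputable section

open MeasureTheory Filter Topology Set Complex
open scoped ComplexConjugate ContDiff RealInnerProductSpace FourierTransform

namespace Vale.Agent.P139

theorem a0h_one_le (ξ : E12) : 1 ≤ Wt ξ := le_add_of_nonneg_right (by positivity)

theorem a0h_pos (ξ : E12) : 0 < Wt ξ := lt_of_lt_of_le one_pos (a0h_one_le ξ)

theorem a0h_cont : Continuous Wt := by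
  unfold Wt
  fun_prop

theorem a0h_meas : Measurable fun ξ : E12 => ENNReal.ofReal (Wt ξ) :=
  a0h_cont.measurable.ennreal_ofReal

theorem a0h_ac : (volume : Measure E12) ≪ μW :=
  withDensity_absolutelyContinuous' a0h_meas.aemeasurable
    (Eventually.of_forall fun ξ => (ENNReal.ofReal_pos.2 (a0h_pos ξ)).ne')

theorem a0h_int {F : Type} [NormedAddCommGroup F] [NormedSpace ℝ F] (G : E12 → F) :
    Integrable G μW ↔ Integrable fun ξ => Wt ξ • G ξ := by
  rw [μW, integrable_withDensity_iff_integrable_smul' a0h_meas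
    (Eventually.of_forall fun _ => ENNReal.ofReal_lt_top)]
  simp only [ENNReal.toReal_ofReal (a0h_pos _).le]

theorem a0h_integral (G : E12 → ℝ) : ∫ ξ, G ξ ∂μW = ∫ ξ, Wt ξ * G ξ := by
  rw [μW, integral_withDensity_eq_integral_toReal_smul a0h_meas
    (Eventually.of_forall fun _ => ENNReal.ofReal_lt_top)]
  simp only [ENNReal.toReal_ofReal (a0h_pos _).le, smul_eq_mul]

theorem a0h_norm_exp (ξ y : E12) : ‖exp (I * ⟪ξ, y⟫)‖ = 1 := by
  rw [mul_comm, norm_exp_ofReal_mul_I]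

theorem a0h_intN (g : AA) : Integrable fun ξ => Wt ξ * ‖g ξ‖ :=
  (a0h_int _).1 (L1.integrable_coeFn g).norm

theorem a0h_intE (g : AA) (y : E12) : Integrable fun ξ => g ξ * exp (I * ⟪ξ, y⟫) := by
  refine (a0h_intN g).mono' (((Lp.aestronglyMeasurable g).mono_ac a0h_ac).mul
    (Continuous.aestronglyMeasurable (by fun_prop))) (Eventually.of_forall fun ξ => ?_)
  rw [norm_mul, a0h_norm_exp, mul_one]
  exact le_mul_of_one_le_left (norm_nonneg _) (a0h_one_le _)

theorem a0h_ev_le (g : AA) (y : E12) : ‖ev g y‖ ≤ 1 * ‖g‖ := by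
  rw [one_mul, L1.norm_eq_integral_norm, a0h_integral]
  refine norm_integral_le_of_norm_le (a0h_intN g) (Eventually.of_forall fun ξ => ?_)
  rw [norm_mul, a0h_norm_exp, mul_one]
  exact le_mul_of_one_le_left (norm_nonneg _) (a0h_one_le _)

theorem a0h_ev_add (f g : AA) (y : E12) : ev (f + g) y = ev f y + ev g y := by
  unfold ev
  rw [← integral_add (a0h_intE f y) (a0h_intE g y)]
  refine integral_congr_ae ?_
  filter_upwards [a0h_ac.ae_eq (Lp.coeFn_add f g)] with ξ h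
  rw [h, Pi.add_apply, add_mul]

theorem a0h_ev_sum {g : ℕ → AA} {s : AA} (h : HasSum g s) (y : E12) :
    HasSum (fun k => ev (g k) y) (ev s y) := by
  let T : AA →+ ℂ := AddMonoidHom.mk' (fun g => ev g y) fun f g => a0h_ev_add f g y
  exact h.map T (AddMonoidHomClass.continuous_of_bound T 1 fun g => a0h_ev_le g y)

theorem a0h_mk {G : E12 → ℂ} (hG : Continuous G) (hI : Integrable fun ξ => Wt ξ * ‖G ξ‖) :
    ∃ g : AA, ‖g‖ = ∫ ξ, Wt ξ * ‖G ξ‖ ∧ ∀ y, ev g y = ∫ ξ, G ξ * exp (I * ⟪ξ, y⟫) := by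
  have h1 : Integrable G μW :=
    (integrable_norm_iff hG.aestronglyMeasurable).1 ((a0h_int _).2 hI)
  refine ⟨h1.toL1 G, by rw [L1.norm_of_fun_eq_integral_norm, a0h_integral], fun y => ?_⟩
  refine integral_congr_ae ?_
  filter_upwards [a0h_ac.ae_eq h1.coeFn_toL1] with ξ h
  rw [h]

theorem a0h_decay {f : E12 → ℂ} (hf : ContDiff ℝ ∞ f) (hc : HasCompactSupport f) {M : ℝ}
    (hM : ∀ j ≤ 33, ∫ z, ‖iteratedFDeriv ℝ j f z‖ ≤ M) (w : E12) :
    Wt w * ‖𝓕 f w‖ ≤ 2 ^ 80 * M * (1 + ‖w‖) ^ (-13 : ℝ) := by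
  have M0 : 0 ≤ M := (integral_nonneg fun _ => norm_nonneg _).trans (hM 0 (by norm_num))
  have key : ∀ n ≤ 33, ‖w‖ ^ n * ‖𝓕 f w‖ ≤ 2 ^ 33 * (34 * M) := by
    intro n hn
    have h := Real.pow_mul_norm_iteratedFDeriv_fourier_le (K := 0) (N := ⊤) (k := 0) (n := n) hf
      (fun k j _ _ => Continuous.integrable_of_hasCompactSupport
        ((continuous_norm.pow k).mul (hf.continuous_iteratedFDeriv (mod_cast le_top)).norm)
        (hc.iteratedFDeriv j).norm.mul_left) le_rfl le_top w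
    simp only [norm_iteratedFDeriv_zero, pow_zero, Nat.cast_zero, mul_zero, zero_add, one_mul,
      Finset.range_one, Finset.singleton_product, Finset.sum_map, Function.Embedding.coeFn_mk] at h
    refine h.trans (mul_le_mul (pow_le_pow_right₀ one_le_two hn) ?_
      (Finset.sum_nonneg fun _ _ => integral_nonneg fun _ => norm_nonneg _) (by positivity))
    refine (Finset.sum_le_card_nsmul _ _ M fun j hj => hM j (by
      have := Finset.mem_range.1 hj
      omega)).trans ?_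
    rw [Finset.card_range, nsmul_eq_mul]
    have : ((n + 1 : ℕ) : ℝ) ≤ 34 := by exact_mod_cast Nat.succ_le_succ hn
    gcongr
  have r0 := norm_nonneg w
  have h0 := key 0 (by norm_num)
  have h33 := key 33 le_rfl
  have a1 := add_pow_le zero_le_one r0 33
  have a2 : Wt w ≤ 2 * (1 + ‖w‖) ^ 20 := by
    have b1 : 1 ≤ (1 + ‖w‖) ^ 20 := one_le_pow₀ (by linarith)
    have b2 : ‖w‖ ^ 20 ≤ (1 + ‖w‖) ^ 20 := pow_le_pow_left₀ r0 (by linarith) 20
    unfold Wt
    linarith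
  have a3 : (1 + ‖w‖) ^ 33 * ‖𝓕 f w‖ ≤ 2 ^ 79 * M := by
    have := mul_le_mul_of_nonneg_right a1 (norm_nonneg (𝓕 f w))
    norm_num at this h0 h33 ⊢
    nlinarith
  have p : 0 < (1 + ‖w‖) ^ 13 := by positivity
  rw [Real.rpow_neg (by positivity), show (13 : ℝ) = (13 : ℕ) by norm_num, Real.rpow_natCast,
    ← div_eq_mul_inv, le_div_iff₀ p]
  calc Wt w * ‖𝓕 f w‖ * (1 + ‖w‖) ^ 13 ≤ 2 * (1 + ‖w‖) ^ 20 * ‖𝓕 f w‖ * (1 + ‖w‖) ^ 13 := by gcongr
    _ = 2 * ((1 + ‖w‖) ^ 33 * ‖𝓕 f w‖) := by ring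
    _ ≤ _ := by linarith

theorem a0h_piece : ∃ C, 0 ≤ C ∧ ∀ (f : E12 → ℂ) (M t : ℝ), ContDiff ℝ ∞ f → HasCompactSupport f →
    (∀ j ≤ 33, ∫ z, ‖iteratedFDeriv ℝ j f z‖ ≤ M) → 1 ≤ t →
    ∃ g : AA, ‖g‖ ≤ C * M ∧ ∀ y, ev g y = f (t⁻¹ • y) := by
  have J : Integrable fun w : E12 => (1 + ‖w‖) ^ (-13 : ℝ) :=
    integrable_one_add_norm (by simp; norm_num)
  refine ⟨8 ^ 20 * 2 ^ 80 * ∫ w : E12, (1 + ‖w‖) ^ (-13 : ℝ),
    mul_nonneg (by positivity) (integral_nonneg fun _ => by positivity), ?_⟩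
  intro f M t hf hc hM ht
  have fi : Integrable f := hf.continuous.integrable_of_hasCompactSupport hc
  have Fc : Continuous (𝓕 f) := VectorFourier.fourierIntegral_continuous Real.continuous_fourierChar
    continuous_inner fi
  have D := a0h_decay hf hc hM
  have Fi : Integrable (𝓕 f) := (J.const_mul (2 ^ 80 * M)).mono' Fc.aestronglyMeasurable
    (Eventually.of_forall fun w =>
      (le_mul_of_one_le_left (norm_nonneg _) (a0h_one_le _)).trans (D w))
  set u : ℝ := t / (2 * Real.pi) with hu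
  have pi0 := Real.pi_pos
  have u0 : 0 < u := by positivity
  have ui : u⁻¹ = 2 * Real.pi * t⁻¹ := by rw [hu, inv_div, div_eq_mul_inv]
  have u8 : u⁻¹ ≤ 8 := by
    have := inv_le_one_of_one_le₀ ht
    have := Real.pi_le_four
    have : 0 ≤ t⁻¹ := by positivity
    rw [ui]
    nlinarith
  set φ : E12 → ℝ := fun w => Wt (u⁻¹ • w) * ‖𝓕 f w‖ with hφ
  have φle : ∀ w, φ w ≤ 8 ^ 20 * 2 ^ 80 * M * (1 + ‖w‖) ^ (-13 : ℝ) := by
    intro w
    have h1 : Wt (u⁻¹ • w) ≤ 8 ^ 20 * Wt w := by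
      unfold Wt
      rw [norm_smul, Real.norm_of_nonneg (by positivity), mul_pow, mul_add]
      gcongr
      norm_num
    calc φ w ≤ 8 ^ 20 * Wt w * ‖𝓕 f w‖ := mul_le_mul_of_nonneg_right h1 (norm_nonneg _)
      _ = 8 ^ 20 * (Wt w * ‖𝓕 f w‖) := by ring
      _ ≤ 8 ^ 20 * (2 ^ 80 * M * (1 + ‖w‖) ^ (-13 : ℝ)) := mul_le_mul_of_nonneg_left (D w) (by positivity)
      _ = _ := by ring
  have φi : Integrable φ := (J.const_mul _).mono'
    ((a0h_cont.comp (by fun_prop)).mul Fc.norm).aestronglyMeasurable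
    (Eventually.of_forall fun w => by
      rw [Real.norm_of_nonneg (mul_nonneg (a0h_pos _).le (norm_nonneg _))]
      exact φle w)
  have e1 : ∀ ξ : E12, Wt ξ * ‖((u ^ 12 : ℝ) : ℂ) * 𝓕 f (u • ξ)‖ = u ^ 12 * φ (u • ξ) := by
    intro ξ
    simp only [hφ, inv_smul_smul₀ u0.ne', norm_mul, norm_real, Real.norm_of_nonneg (pow_pos u0 12).le]
    ring
  have fr : Module.finrank ℝ E12 = 12 := by simp
  obtain ⟨g, hg1, hg2⟩ := a0h_mk (G := fun ξ => ((u ^ 12 : ℝ) : ℂ) * 𝓕 f (u • ξ)) (by fun_prop)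
    (by simpa only [e1] using (φi.comp_smul u0.ne').const_mul _)
  refine ⟨g, ?_, fun y => ?_⟩
  · rw [hg1]
    simp only [e1]
    rw [integral_const_mul, Measure.integral_comp_smul, fr, abs_of_pos (by positivity), smul_eq_mul,
      mul_inv_cancel_left₀ (by positivity), mul_right_comm, ← integral_const_mul]
    exact integral_mono φi (J.const_mul _) φle
  · rw [hg2, ← fi.fourierInv_fourier_eq Fi hf.continuous.continuousAt, Real.fourierInv_eq']
    have h := Measure.integral_comp_smul volume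
      (fun v => exp (((2 * Real.pi * ⟪v, t⁻¹ • y⟫ : ℝ) : ℂ) * I) • 𝓕 f v) u
    rw [fr, abs_of_pos (by positivity), eq_comm, inv_smul_eq_iff₀ (by positivity)] at h
    rw [h, ← integral_smul]
    refine integral_congr_ae (Eventually.of_forall fun ξ => ?_)
    have e : 2 * Real.pi * ⟪u • ξ, t⁻¹ • y⟫ = ⟪ξ, y⟫ := by
      rw [real_inner_smul_left, real_inner_smul_right, hu]
      field_simp
    simp only [e, smul_eq_mul, real_smul, mul_comm I]
    ring

end Vale.Agent.P139
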