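import Vale.Agent.P139.A0.Hat1

/-! P139 A0/Hat2: symbols of negative order on `ℝ¹²` have a Fourier density in `AA`. -/

noncomputable section

open MeasureTheory Filter Topology Set Complex
open scoped ComplexConjugate ContDiff RealInnerProductSpace

namespace Vale.Agent.P139

/-- Symbols of order `-b`, in scaling form. -/
def Sc (b : ℝ) (F : E12 → ℂ) : Prop :=
  ContDiff ℝ ∞ F ∧ ∀ n : ℕ, ∃ C, 0 ≤ C ∧ ∀ i ≤ n, ∀ t : ℝ, 1 ≤ t → ∀ z : E12, 2 ≤ ‖z‖ → ‖z‖ ≤ 5 →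
    ‖iteratedFDeriv ℝ i (fun z => F (t • z)) z‖ ≤ C * t ^ (-b)

theorem a0h_bd {G : Type} [NormedAddCommGroup G] [NormedSpace ℝ G] {f : E12 → G}
    (hf : ContDiff ℝ ∞ f) (n : ℕ) :
    ∃ M, 1 ≤ M ∧ ∀ i ≤ n, ∀ z : E12, ‖z‖ ≤ 5 → ‖iteratedFDeriv ℝ i f z‖ ≤ M := by
  have hc : Continuous fun z => ∑ i ∈ Finset.range (n + 1), ‖iteratedFDeriv ℝ i f z‖ :=
    continuous_finsetSum _ fun i _ => (hf.continuous_iteratedFDeriv (mod_cast le_top)).norm
  obtain ⟨M, hM⟩ := (isCompact_closedBall (0 : E12) 5).exists_bound_of_continuousOn hc.continuousOn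
  refine ⟨max 1 M, le_max_left _ _, fun i hi z hz => le_trans ?_ (le_max_right _ _)⟩
  refine le_trans ?_ ((le_abs_self _).trans (hM z (mem_closedBall_zero_iff.2 hz)))
  exact Finset.single_le_sum (f := fun i => ‖iteratedFDeriv ℝ i f z‖) (fun _ _ => norm_nonneg _)
    (Finset.mem_range.2 (Nat.lt_succ_of_le hi))

theorem a0h_leib {f g : E12 → ℂ} (hf : ContDiff ℝ ∞ f) (hg : ContDiff ℝ ∞ g) {n : ℕ} {A B : ℝ}
    {z : E12} (hA : ∀ i ≤ n, ‖iteratedFDeriv ℝ i f z‖ ≤ A)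
    (hB : ∀ i ≤ n, ‖iteratedFDeriv ℝ i g z‖ ≤ B) {i : ℕ} (hi : i ≤ n) :
    ‖iteratedFDeriv ℝ i (fun y => f y * g y) z‖ ≤ 2 ^ n * (A * B) := by
  have A0 : 0 ≤ A := (norm_nonneg _).trans (hA 0 n.zero_le)
  have B0 : 0 ≤ B := (norm_nonneg _).trans (hB 0 n.zero_le)
  refine (norm_iteratedFDeriv_mul_le hf hg z (mod_cast le_top)).trans ?_
  calc _ ≤ ∑ j ∈ Finset.range (i + 1), (i.choose j : ℝ) * (A * B) := by
        refine Finset.sum_le_sum fun j hj => ?_
        have := Finset.mem_range.1 hj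
        rw [mul_assoc]
        exact mul_le_mul_of_nonneg_left (mul_le_mul (hA j (by omega)) (hB _ (by omega))
          (norm_nonneg _) A0) (by positivity)
    _ = 2 ^ i * (A * B) := by
        rw [← Finset.sum_mul, ← Nat.cast_sum, Nat.sum_range_choose]
        push_cast
        rfl
    _ ≤ _ := mul_le_mul_of_nonneg_right (pow_le_pow_right₀ one_le_two hi) (by positivity)

theorem a0h_dil {F : E12 → ℂ} (hF : ContDiff ℝ ∞ F) (t : ℝ) : ContDiff ℝ ∞ fun z => F (t • z) :=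
  hF.comp (contDiff_id.const_smul t)

theorem Sc.hom {b : ℝ} {F : E12 → ℂ} (hF : ContDiff ℝ ∞ F)
    (h : ∀ t : ℝ, 1 ≤ t → ∀ z, F (t • z) = t ^ (-b) • F z) : Sc b F := by
  refine ⟨hF, fun n => ?_⟩
  obtain ⟨M, M1, hM⟩ := a0h_bd hF n
  refine ⟨M, by linarith, fun i hi t ht z _ hz => ?_⟩
  simp only [h t ht]
  rw [iteratedFDeriv_const_smul_apply' (hF.contDiffAt.of_le (mod_cast le_top)), norm_smul,
    Real.norm_of_nonneg (by positivity), mul_comm]
  exact mul_le_mul_of_nonneg_right (hM i hi z hz) (by positivity)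

theorem Sc.const (c : ℂ) : Sc 0 fun _ => c := Sc.hom contDiff_const fun _ _ _ => by simp

theorem Sc.mul {a b : ℝ} {F G : E12 → ℂ} (hF : Sc a F) (hG : Sc b G) :
    Sc (a + b) fun y => F y * G y := by
  refine ⟨hF.1.mul hG.1, fun n => ?_⟩
  obtain ⟨A, A0, hA⟩ := hF.2 n
  obtain ⟨B, B0, hB⟩ := hG.2 n
  refine ⟨2 ^ n * (A * B), by positivity, fun i hi t ht z h2 h5 => ?_⟩
  refine (a0h_leib (a0h_dil hF.1 t) (a0h_dil hG.1 t) (fun j hj => hA j hj t ht z h2 h5)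
    (fun j hj => hB j hj t ht z h2 h5) hi).trans (le_of_eq ?_)
  rw [neg_add, Real.rpow_add (by linarith)]
  ring

theorem Sc.add {a : ℝ} {F G : E12 → ℂ} (hF : Sc a F) (hG : Sc a G) : Sc a fun y => F y + G y := by
  refine ⟨hF.1.add hG.1, fun n => ?_⟩
  obtain ⟨A, A0, hA⟩ := hF.2 n
  obtain ⟨B, B0, hB⟩ := hG.2 n
  refine ⟨A + B, by positivity, fun i hi t ht z h2 h5 => ?_⟩
  rw [fun_iteratedFDeriv_add_apply ((a0h_dil hF.1 t).contDiffAt.of_le (mod_cast le_top))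
    ((a0h_dil hG.1 t).contDiffAt.of_le (mod_cast le_top)), add_mul]
  exact norm_add_le_of_le (hA i hi t ht z h2 h5) (hB i hi t ht z h2 h5)

theorem Sc.conj {a : ℝ} {F : E12 → ℂ} (hF : Sc a F) : Sc a fun y => conj (F y) := by
  refine ⟨conjLIE.contDiff.comp hF.1, fun n => ?_⟩
  obtain ⟨A, A0, hA⟩ := hF.2 n
  refine ⟨A, A0, fun i hi t ht z h2 h5 => ?_⟩
  exact (conjLIE.norm_iteratedFDeriv_comp_left (fun z => F (t • z)) z i).trans_le
    (hA i hi t ht z h2 h5)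

theorem Sc.pow {a : ℝ} {F : E12 → ℂ} (hF : Sc a F) (m : ℕ) : Sc (m * a) fun y => F y ^ m := by
  induction m with
  | zero => simpa using Sc.const 1
  | succ m ih => simpa only [pow_succ, Nat.cast_succ, add_mul, one_mul] using ih.mul hF

theorem a0h_XX : ContDiff ℝ ∞ XX := (contDiff_norm_sq ℝ).div_const 4

theorem a0h_XX_smul (t : ℝ) (z : E12) : XX (t • z) = t ^ 2 * XX z := by
  simp only [XX, norm_smul, mul_pow, Real.norm_eq_abs, sq_abs]
  ring

theorem Sc.rad {a : ℝ} (ha : 0 ≤ a) {k : ℝ → ℂ} (hk : ContDiff ℝ ∞ k)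
    (h : ∀ j, ∃ C, ∀ X : ℝ, 1 ≤ X → ‖iteratedDeriv j k X‖ ≤ C * X ^ (-a - j)) :
    Sc (2 * a) fun y => k (XX y) := by
  refine ⟨hk.comp a0h_XX, fun n => ?_⟩
  choose C hC using h
  obtain ⟨D, D1, hD⟩ := a0h_bd a0h_XX n
  set B := ∑ j ∈ Finset.range (n + 1), |C j| with hB
  have B0 : 0 ≤ B := Finset.sum_nonneg fun _ _ => abs_nonneg _
  refine ⟨n.factorial * B * D ^ n, by positivity, fun i hi t ht z h2 h5 => ?_⟩
  have e : (fun z => k (XX (t • z))) = (fun X => k (t ^ 2 * X)) ∘ XX := by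
    funext z
    simp only [a0h_XX_smul, Function.comp_apply]
  have X1 : 1 ≤ XX z := by
    unfold XX
    nlinarith
  have t0 : 0 < t := by linarith
  have t1 : 1 ≤ t ^ 2 := one_le_pow₀ ht
  have hk2 : ContDiff ℝ ∞ fun X => k (t ^ 2 * X) := hk.comp (contDiff_const.mul contDiff_id)
  rw [e]
  refine (norm_iteratedFDeriv_comp_le (C := B * t ^ (-(2 * a))) (D := D) hk2 a0h_XX
    (mod_cast le_top) z (fun j hj => ?_) fun j h1 hj => ?_).trans ?_
  · rw [norm_iteratedFDeriv_eq_norm_iteratedDeriv,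
      iteratedDeriv_comp_const_smul (hk.of_le (mod_cast le_top)), norm_smul,
      Real.norm_of_nonneg (by positivity)]
    have h1 := hC j (t ^ 2 * XX z) (one_le_mul_of_one_le_of_one_le t1 X1)
    have h3 : C j ≤ B := (le_abs_self _).trans (Finset.single_le_sum (f := fun j => |C j|)
      (fun _ _ => abs_nonneg _) (Finset.mem_range.2 (by omega)))
    have h4 : (t ^ 2 * XX z) ^ (-a - j) ≤ (t ^ 2) ^ (-a - j) :=
      Real.rpow_le_rpow_of_nonpos (by positivity) (le_mul_of_one_le_right (by positivity) X1)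
        (by have : (0 : ℝ) ≤ j := j.cast_nonneg; linarith)
    have h6 : (t ^ 2) ^ j * (t ^ 2) ^ (-a - j) = t ^ (-(2 * a)) := by
      rw [← Real.rpow_natCast (t ^ 2), ← Real.rpow_add (by positivity), ← Real.rpow_natCast t,
        ← Real.rpow_mul t0.le]
      congr 1
      push_cast
      ring
    calc _ ≤ (t ^ 2) ^ j * (B * (t ^ 2) ^ (-a - j)) :=
          mul_le_mul_of_nonneg_left (h1.trans (mul_le_mul h3 h4 (by positivity) B0)) (by positivity)
      _ = _ := by rw [← h6]; ring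
  · exact (hD j (hj.trans hi) z h5).trans (le_self_pow₀ D1 (by omega))
  · have f1 : (i.factorial : ℝ) ≤ n.factorial := by exact_mod_cast Nat.factorial_le hi
    have f2 : D ^ i ≤ D ^ n := pow_le_pow_right₀ D1 hi
    calc _ ≤ n.factorial * (B * t ^ (-(2 * a))) * D ^ n := by gcongr
      _ = _ := by ring

theorem a0h_int_le {f : E12 → ℂ} (hs : ∀ z, 5 < ‖z‖ → f =ᶠ[𝓝 z] 0) {j : ℕ} {M : ℝ}
    (hM : ∀ z, ‖z‖ ≤ 5 → ‖iteratedFDeriv ℝ j f z‖ ≤ M) :
    ∫ z, ‖iteratedFDeriv ℝ j f z‖ ≤ volume.real (Metric.closedBall (0 : E12) 5) * M := by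
  rw [← setIntegral_eq_integral_of_forall_compl_eq_zero (s := Metric.closedBall 0 5), mul_comm]
  · refine (Real.le_norm_self _).trans (norm_setIntegral_le_of_norm_le_const
      measure_closedBall_lt_top fun z hz => ?_)
    rw [norm_norm]
    exact hM z (mem_closedBall_zero_iff.1 hz)
  · intro z hz
    rw [mem_closedBall_zero_iff, not_le] at hz
    rw [((hs z hz).iteratedFDeriv ℝ j).eq_of_nhds]
    simp

end Vale.Agent.P139
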