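import Vale.Agent.P139.A0.Disc

/-! P139 task A0/Osc (PROOF.md section A0). Approximate `σ ↦ e^σ v σ` uniformly on `[0, N]` by a step function (uniform continuity); for a fixed vector `w` and `[σ1, σ2] ⊆ [0, N]`, `∫ e^(-σ) mulE ((1 - e^(-σ)) θ) w dσ` is the multiplier `(e^(i(1-e^(-σ2))θ) - e^(i(1-e^(-σ1))θ))/(iθ)` of size `≤ min (N, 2/|θ|)`; so it suffices that `∫ Wt ‖w‖ min (N, 2/|θ ζ|) → 0` as `‖η‖ → ∞`, `h → 0` uniformly: argue by contradiction with sequences, `η/‖η‖ → e`, `|θ ζ| → ∞` unless `⟪e, ζ⟫ = 0` (null set) in the first case; always in the second case.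
-/

noncomputable section

open MeasureTheory Filter Topology Set Complex
open scoped ComplexConjugate ContDiff RealInnerProductSpace

namespace Vale.Agent.P139

theorem a0_osc_ae {θ : E12 → ℝ} (hθ : Measurable θ) (g : AA) :
    mulE θ g =ᵐ[μW] fun ξ => exp (I * θ ξ) * g ξ := a0_ac'.ae_le (mulE_ae hθ g)

theorem a0_osc_cont0 {θ : E12 → ℝ} (hθ : Measurable θ) (g : AA) :
    Continuous fun t : ℝ => mulE (fun ζ => t * θ ζ) g := by
  refine continuous_iff_continuousAt.2 fun t0 => ?_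
  rw [ContinuousAt, tendsto_iff_norm_sub_tendsto_zero]
  have hi := L1.integrable_coeFn g
  have e : ∀ t : ℝ, ‖mulE (fun ζ => t * θ ζ) g - mulE (fun ζ => t0 * θ ζ) g‖ =
      ∫ ξ, ‖(exp (I * (t * θ ξ : ℝ)) - exp (I * (t0 * θ ξ : ℝ))) * g ξ‖ ∂μW := by
    intro t
    rw [L1.norm_eq_integral_norm]
    refine integral_congr_ae ?_
    filter_upwards [Lp.coeFn_sub (mulE (fun ζ => t * θ ζ) g) (mulE (fun ζ => t0 * θ ζ) g),
      a0_osc_ae (hθ.const_mul t) g, a0_osc_ae (hθ.const_mul t0) g] with ξ h1 h2 h3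
    rw [h1, Pi.sub_apply, h2, h3, ← sub_mul]
  have hc : Continuous fun t : ℝ =>
      ∫ ξ, ‖(exp (I * (t * θ ξ : ℝ)) - exp (I * (t0 * θ ξ : ℝ))) * g ξ‖ ∂μW := by
    refine continuous_of_dominated (bound := fun ξ => 2 * ‖g ξ‖) (fun t => ?_)
      (fun t => Eventually.of_forall fun ξ => ?_) (hi.norm.const_mul 2)
      (Eventually.of_forall fun ξ => by fun_prop)
    · refine (AEStronglyMeasurable.mul (Measurable.aestronglyMeasurable ?_) hi.1).norm
      fun_prop
    · rw [norm_norm, norm_mul]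
      refine mul_le_mul_of_nonneg_right ((norm_sub_le _ _).trans ?_) (norm_nonneg _)
      rw [norm_exp_I_mul_ofReal, norm_exp_I_mul_ofReal]
      norm_num
  simp only [e]
  simpa using hc.tendsto t0

theorem a0_osc_cont {θ : E12 → ℝ} (hθ : Measurable θ) {v : ℝ → AA} (hv : Continuous v) :
    Continuous fun σ => mulE (fun ζ => (1 - Real.exp (-σ)) * θ ζ) (v σ) := by
  have h : Continuous fun p : ℝ × AA => mulE (fun ζ => p.1 * θ ζ) p.2 := by
    refine continuous_prod_of_continuous_lipschitzWith' _ 1 (fun t => ?_)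
      fun g => a0_osc_cont0 hθ g
    refine LipschitzWith.of_dist_le_mul fun x y => ?_
    rw [dist_eq_norm, dist_eq_norm, ← map_sub, norm_mulE (hθ.const_mul t)]
    simp
  exact h.comp (Continuous.prodMk (by fun_prop) hv)

/-- The scalar oscillatory integral. -/
theorem a0_osc_m (a : ℝ) {t s : ℝ} (ht : 0 ≤ t) (hts : t ≤ s) (hs : s ≤ t + 1) :
    ‖∫ σ in t..s, exp (I * ((1 - Real.exp (-σ)) * a : ℝ)) * (Real.exp (-σ) : ℝ)‖ ≤
      3 / (1 + |a|) := by
  have h1 : ‖∫ σ in t..s, exp (I * ((1 - Real.exp (-σ)) * a : ℝ)) * (Real.exp (-σ) : ℝ)‖ ≤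
      1 * |s - t| := intervalIntegral.norm_integral_le_of_norm_le_const fun σ hσ => by
    rw [uIoc_of_le hts] at hσ
    rw [norm_mul, norm_exp_I_mul_ofReal, one_mul, norm_real, Real.norm_of_nonneg (Real.exp_pos _).le]
    exact Real.exp_le_one_iff.2 (by linarith [hσ.1])
  have h2 := intervalIntegral.integral_eq_sub_of_hasDerivAt (a := t) (b := s)
    (f := fun σ : ℝ => exp (I * ((1 - Real.exp (-σ)) * a : ℝ)))
    (f' := fun σ : ℝ => I * a * (exp (I * ((1 - Real.exp (-σ)) * a : ℝ)) * (Real.exp (-σ) : ℝ)))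
    (fun σ _ => ((((((hasDerivAt_neg σ).exp.const_sub 1).mul_const a).ofReal_comp).const_mul
      I).cexp).congr_deriv (by push_cast; ring)) (Continuous.intervalIntegrable (by fun_prop) _ _)
  rw [intervalIntegral.integral_const_mul] at h2
  have h3 := congrArg norm h2
  rw [norm_mul, norm_mul, norm_I, one_mul, norm_real, Real.norm_eq_abs] at h3
  have h4 := h3.trans_le (norm_sub_le _ _)
  rw [norm_exp_I_mul_ofReal, norm_exp_I_mul_ofReal] at h4
  rw [abs_of_nonneg (sub_nonneg.2 hts)] at h1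
  rw [le_div_iff₀ (by positivity)]
  linarith

/-- One piece of the time integral, for a fixed vector. -/
theorem a0_osc_piece {θ : E12 → ℝ} (hθ : Measurable θ) (g : AA) {t s : ℝ} (ht : 0 ≤ t)
    (hts : t ≤ s) (hs : s ≤ t + 1) :
    ‖∫ σ in t..s, mulE (fun ζ => (1 - Real.exp (-σ)) * θ ζ) (Real.exp (-σ) • g)‖ ≤
      3 * ∫ ζ, ‖g ζ‖ / (1 + |θ ζ|) ∂μW := by
  have : IsLocallyFiniteMeasure μW := IsLocallyFiniteMeasure.withDensity_ofReal a0_cont_Wt
  have hi := L1.integrable_coeFn g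
  have hc := a0_osc_cont hθ (v := fun σ => Real.exp (-σ) • g) (by fun_prop)
  set F := ∫ σ in t..s, mulE (fun ζ => (1 - Real.exp (-σ)) * θ ζ) (Real.exp (-σ) • g) with hF
  have hα : Measurable fun ζ => -arg (F ζ) :=
    (measurable_arg.comp (Lp.stronglyMeasurable F).measurable).neg
  set Λ : AA →L[ℂ] ℂ := (L1.integralCLM' ℂ).comp (mulE fun ζ => -arg (F ζ)) with hΛ
  have hΛ' : ∀ f : AA, Λ f = ∫ ζ, exp (I * (-arg (F ζ) : ℝ)) * f ζ ∂μW := fun f => by
    rw [hΛ, ContinuousLinearMap.comp_apply, ← L1.integral_eq', L1.integral_eq_integral]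
    exact integral_congr_ae (a0_osc_ae hα f)
  have h1 : Λ F = (‖F‖ : ℝ) := by
    rw [hΛ', L1.norm_eq_integral_norm, ← integral_complex_ofReal]
    refine integral_congr_ae (Eventually.of_forall fun ζ => ?_)
    have e : exp (I * (-arg (F ζ) : ℝ)) * exp (arg (F ζ) * I) = 1 := by
      rw [← exp_add]
      simp [mul_comm]
    have e2 := norm_mul_exp_arg_mul_I (F ζ)
    beta_reduce
    linear_combination (‖F ζ‖ : ℂ) * e - exp (I * (-arg (F ζ) : ℝ)) * e2
  have h2 : ∀ σ, Λ (mulE (fun ζ => (1 - Real.exp (-σ)) * θ ζ) (Real.exp (-σ) • g)) =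
      ∫ ζ, exp (I * (-arg (F ζ) : ℝ)) * g ζ *
        (exp (I * ((1 - Real.exp (-σ)) * θ ζ : ℝ)) * (Real.exp (-σ) : ℝ)) ∂μW := fun σ => by
    rw [hΛ']
    refine integral_congr_ae ?_
    filter_upwards [a0_osc_ae (hθ.const_mul (1 - Real.exp (-σ))) (Real.exp (-σ) • g),
      a0_ac'.ae_le (a0_rsmul_ae (Real.exp (-σ)) g)] with ζ e1 e2
    rw [e1, e2]
    ring
  have h3 : Integrable (Function.uncurry fun (σ : ℝ) (ζ : E12) =>
      exp (I * (-arg (F ζ) : ℝ)) * g ζ *
        (exp (I * ((1 - Real.exp (-σ)) * θ ζ : ℝ)) * (Real.exp (-σ) : ℝ)))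
      ((volume.restrict (uIoc t s)).prod μW) := by
    refine (((Real.continuous_exp.comp continuous_neg).intervalIntegrable t s).def'.mul_prod
      hi.norm).mono' ?_ (Eventually.of_forall fun p => ?_)
    · exact ((Measurable.aestronglyMeasurable (by fun_prop)).mul hi.1.comp_snd).mul
        (Measurable.aestronglyMeasurable (by fun_prop))
    · simp only [Function.uncurry, norm_mul, norm_exp_I_mul_ofReal, one_mul, norm_real,
        Real.norm_of_nonneg (Real.exp_pos _).le, Function.comp]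
      exact (mul_comm _ _).le
  have h4 : (‖F‖ : ℂ) = ∫ ζ, exp (I * (-arg (F ζ) : ℝ)) * g ζ * (∫ σ in t..s,
      exp (I * ((1 - Real.exp (-σ)) * θ ζ : ℝ)) * (Real.exp (-σ) : ℝ)) ∂μW := by
    rw [← h1, hF, ← Λ.intervalIntegral_comp_comm (hc.intervalIntegrable _ _)]
    simp only [h2, ← intervalIntegral.integral_const_mul]
    exact intervalIntegral_integral_swap h3
  have h5 := congrArg norm h4
  rw [norm_real, norm_norm] at h5
  rw [h5, ← integral_const_mul]
  refine norm_integral_le_of_norm_le ((hi.norm.mono' ?_ (Eventually.of_forall fun ζ => ?_)).const_mul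
    3) (Eventually.of_forall fun ζ => ?_)
  · exact (hi.1.norm.aemeasurable.div (by fun_prop)).aestronglyMeasurable
  · rw [Real.norm_of_nonneg (by positivity)]
    exact div_le_self (norm_nonneg _) (le_add_of_nonneg_right (abs_nonneg _))
  · rw [norm_mul, norm_mul, norm_exp_I_mul_ofReal, one_mul]
    exact (mul_le_mul_of_nonneg_left (a0_osc_m _ ht hts hs) (norm_nonneg _)).trans_eq (by ring)

/-- Smoothing along a filter. -/
theorem a0_osc_abs {ι : Type} {l : Filter ι} {a : ι → E12 → ℝ} (ha : ∀ p, Measurable (a p))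
    (H : ∀ g : AA, Tendsto (fun p => ∫ ζ, ‖g ζ‖ / (1 + |a p ζ|) ∂μW) l (𝓝 0)) {v : ℝ → AA}
    (hv : Continuous v) (N : ℝ) {δ : ℝ} (hδ : 0 < δ) : ∀ᶠ p in l, ∀ s ∈ Icc 0 N,
      ‖∫ σ in (0 : ℝ)..s, mulE (fun ζ => (1 - Real.exp (-σ)) * a p ζ) (v σ)‖ ≤ δ := by
  have hw : Continuous fun σ => Real.exp σ • v σ := by fun_prop
  have hε : 0 < δ / (2 * (|N| + 1)) := by positivity
  generalize hε' : δ / (2 * (|N| + 1)) = ε at hε
  obtain ⟨r0, hr0, hu⟩ := Metric.uniformContinuousOn_iff_le.1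
    ((isCompact_Icc (a := 0) (b := N)).uniformContinuousOn_of_continuous hw.continuousOn) ε hε
  have hr : 0 < min r0 1 := by positivity
  have hr1 := min_le_left r0 1
  have hr2 := min_le_right r0 1
  generalize min r0 1 = r at hr hr1 hr2
  have key : ∀ j : ℕ, ∀ ε' > 0, ∀ᶠ p in l, ∀ s ∈ Icc 0 N, s ≤ j * r →
      ‖∫ σ in (0 : ℝ)..s, mulE (fun ζ => (1 - Real.exp (-σ)) * a p ζ) (v σ)‖ ≤ ε * s + ε' := by
    intro j
    induction j with
    | zero =>
      refine fun ε' h => Eventually.of_forall fun p s hs h0 => ?_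
      rw [show s = 0 from le_antisymm (by simpa using h0) hs.1]
      simpa using h.le
    | succ j ih =>
      intro ε' h
      have ht : 0 ≤ j * r := by positivity
      have hj : ((j + 1 : ℕ) : ℝ) * r = j * r + r := by push_cast; ring
      rw [hj]
      generalize (j : ℝ) * r = t at ih ht
      filter_upwards [ih (ε' / 2) (half_pos h), (H (Real.exp t • v t)).eventually
        (ge_mem_nhds (show 0 < ε' / 6 by positivity))] with p h1 h2 s hs hst
      rcases le_total s t with h3 | h3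
      · exact (h1 s hs h3).trans (by linarith)
      have htN : t ∈ Icc 0 N := ⟨ht, h3.trans hs.2⟩
      have c1 := a0_osc_cont (ha p) hv
      have c2 := a0_osc_cont (ha p) (v := fun σ => Real.exp (-σ) • Real.exp t • v t) (by fun_prop)
      have h4 := a0_osc_piece (ha p) (Real.exp t • v t) ht h3 (by linarith)
      have h5 : ‖(∫ σ in t..s, mulE (fun ζ => (1 - Real.exp (-σ)) * a p ζ) (v σ)) -
          ∫ σ in t..s, mulE (fun ζ => (1 - Real.exp (-σ)) * a p ζ)
            (Real.exp (-σ) • Real.exp t • v t)‖ ≤ ε * |s - t| := by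
        rw [← intervalIntegral.integral_sub (c1.intervalIntegrable _ _) (c2.intervalIntegrable _ _)]
        refine intervalIntegral.norm_integral_le_of_norm_le_const fun σ hσ => ?_
        rw [uIoc_of_le h3] at hσ
        have h6 := hu σ ⟨ht.trans hσ.1.le, hσ.2.trans hs.2⟩ t htN (by
          rw [Real.dist_eq, abs_of_pos (sub_pos.2 hσ.1)]; linarith [hσ.2])
        have h7 : v σ = Real.exp (-σ) • Real.exp σ • v σ := by
          rw [smul_smul, ← Real.exp_add, neg_add_cancel, Real.exp_zero, one_smul]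
        rw [← map_sub, norm_mulE ((ha p).const_mul _), h7, ← smul_sub, norm_smul, ← dist_eq_norm,
          Real.norm_of_nonneg (Real.exp_pos _).le]
        exact (mul_le_of_le_one_left dist_nonneg
          (Real.exp_le_one_iff.2 (by linarith [hσ.1]))).trans h6
      rw [abs_of_nonneg (sub_nonneg.2 h3)] at h5
      rw [← intervalIntegral.integral_add_adjacent_intervals (c1.intervalIntegrable 0 t)
        (c1.intervalIntegrable t s)]
      refine (norm_add_le _ _).trans ?_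
      linarith [h1 t htN le_rfl, (norm_sub_norm_le _ _).trans h5]
  obtain ⟨j, hj⟩ := exists_nat_ge (N / r)
  filter_upwards [key j (δ / 2) (half_pos hδ)] with p hp s hs
  refine (hp s hs (hs.2.trans ((div_le_iff₀ hr).1 hj))).trans ?_
  have h1 : ε * (2 * (|N| + 1)) = δ := by rw [← hε']; field_simp
  nlinarith [mul_le_mul_of_nonneg_left (hs.2.trans (le_abs_self N)) hε.le]

theorem a0_osc_dct {ι : Type} {l : Filter ι} [l.IsCountablyGenerated] {a : ι → E12 → ℝ}
    (ha : ∀ p, Measurable (a p)) (h : ∀ᵐ ζ : E12, Tendsto (fun p => |a p ζ|) l atTop) (g : AA) :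
    Tendsto (fun p => ∫ ζ, ‖g ζ‖ / (1 + |a p ζ|) ∂μW) l (𝓝 0) := by
  have hi := L1.integrable_coeFn g
  rw [← integral_zero E12 ℝ (μ := μW)]
  refine tendsto_integral_filter_of_dominated_convergence (fun ζ => ‖g ζ‖)
    (Eventually.of_forall fun p => ?_) (Eventually.of_forall fun p => Eventually.of_forall fun ζ => ?_)
    hi.norm ((h.filter_mono a0_ac'.ae_le).mono fun ζ hζ => ?_)
  · have := ha p
    exact (hi.1.norm.aemeasurable.div (by fun_prop)).aestronglyMeasurable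
  · rw [Real.norm_of_nonneg (by positivity)]
    exact div_le_self (norm_nonneg _) (le_add_of_nonneg_right (abs_nonneg _))
  · exact (tendsto_atTop_add_const_left _ 1 hζ).const_div_atTop _

theorem a0_osc_dir {l : Filter (E12 × ℝ)} [l.IsCountablyGenerated]
    (h1 : Tendsto (fun p : E12 × ℝ => ‖p.1‖) l atTop) (h2 : Tendsto (fun p : E12 × ℝ => p.2) l (𝓝[≥] 0))
    (g : AA) : Tendsto (fun p : E12 × ℝ =>
      ∫ ζ, ‖g ζ‖ / (1 + |‖p.1 + rnd p.2 ζ‖ ^ 2 - ‖p.1‖ ^ 2|) ∂μW) l (𝓝 0) := by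
  refine tendsto_of_subseq_tendsto fun ns hns => ?_
  have h3 := h1.comp hns
  have h4 := h2.comp hns
  obtain ⟨e, he, φ, hφ, hlim⟩ := (isCompact_sphere (0 : E12) 1).tendsto_subseq'
    (x := fun n => ‖(ns n).1‖⁻¹ • (ns n).1) ((h3.eventually_gt_atTop 0).mono fun n hn => by
      rw [mem_sphere_zero_iff_norm]
      exact norm_smul_inv_norm (norm_pos_iff.1 hn)).frequently
  refine ⟨φ, a0_osc_dct (l := atTop)
    (a := fun n ζ => ‖(ns (φ n)).1 + rnd (ns (φ n)).2 ζ‖ ^ 2 - ‖(ns (φ n)).1‖ ^ 2) (fun n => ?_) ?_ g⟩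
  · have := a0_meas_rnd (ns (φ n)).2
    fun_prop
  have h5 := h3.comp hφ.tendsto_atTop
  have h6 := h4.comp hφ.tendsto_atTop
  have h0 : ∀ᵐ ζ : E12, ζ ∉ (ℝ ∙ e)ᗮ := measure_eq_zero_iff_ae_notMem.1
    (Measure.addHaar_submodule volume _ fun h => by
      have h7 : e ∈ (ℝ ∙ e)ᗮ := h ▸ Submodule.mem_top
      rw [Submodule.mem_orthogonal_singleton_iff_inner_right, inner_self_eq_zero] at h7
      simp [h7] at he)
  filter_upwards [h0] with ζ hζ
  rw [Submodule.mem_orthogonal_singleton_iff_inner_right] at hζ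
  have h7 : Tendsto (fun n => rnd (ns (φ n)).2 ζ) atTop (𝓝 ζ) := by
    rw [tendsto_iff_norm_sub_tendsto_zero]
    refine squeeze_zero' (Eventually.of_forall fun _ => norm_nonneg _)
      ((h6.eventually self_mem_nhdsWithin).mono fun n hn => a0_rnd_le hn ζ) ?_
    simpa using (h6.mono_right nhdsWithin_le_nhds).const_mul 2
  have h8 := (((hlim.inner (𝕜 := ℝ) h7).const_mul 2).add
    (h5.inv_tendsto_atTop.mul (h7.norm.pow 2))).abs
  rw [zero_mul, add_zero] at h8
  refine (h5.atTop_mul_pos (abs_pos.2 (mul_ne_zero two_ne_zero hζ)) h8).congr' ?_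
  filter_upwards [h5.eventually_gt_atTop 0] with n hn
  simp only [Function.comp, Pi.inv_apply] at hn ⊢
  rw [norm_add_sq_real, real_inner_smul_left, ← abs_of_pos hn, ← abs_mul, abs_of_pos hn]
  congr 1
  field_simp
  ring

/-- Smoothing: the time integral of a fast oscillating multiplier is small. -/
theorem smoothing {v : ℝ → AA} (hv : Continuous v) (N : ℝ) {δ : ℝ} (hδ : 0 < δ) :
    ∃ M h0 : ℝ, 0 < h0 ∧ ∀ (η : E12) (h : ℝ), M ≤ ‖η‖ → h ∈ Icc 0 h0 → ∀ s ∈ Icc 0 N,
      ‖∫ σ in (0 : ℝ)..s, mulE (fun ζ => (1 - Real.exp (-σ)) *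
        (‖η + rnd h ζ‖ ^ 2 - ‖η‖ ^ 2)) (v σ)‖ ≤ δ ∧
      ‖∫ σ in (0 : ℝ)..s, mulE (fun ζ => (1 - Real.exp (-σ)) *
        (‖rnd h ζ - η‖ ^ 2 + ‖η‖ ^ 2)) (v σ)‖ ≤ δ := by
  have h1 : Tendsto (fun p : E12 × ℝ => ‖p.1‖) (comap norm atTop ×ˢ 𝓝[≥] 0) atTop :=
    tendsto_comap.comp tendsto_fst
  have h2 := a0_osc_abs (a := fun (p : E12 × ℝ) ζ => ‖p.1 + rnd p.2 ζ‖ ^ 2 - ‖p.1‖ ^ 2)
    (fun p => by have := a0_meas_rnd p.2; fun_prop) (a0_osc_dir h1 tendsto_snd) hv N hδ
  have hm : ∀ p : E12 × ℝ, Measurable fun ζ => ‖rnd p.2 ζ - p.1‖ ^ 2 + ‖p.1‖ ^ 2 := fun p => by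
    have := a0_meas_rnd p.2
    fun_prop
  have h3 := a0_osc_abs hm (a0_osc_dct hm (Eventually.of_forall fun ζ =>
    tendsto_atTop_mono (fun p => (le_add_of_nonneg_left (sq_nonneg _)).trans (le_abs_self _))
      ((tendsto_pow_atTop two_ne_zero).comp h1))) hv N hδ
  obtain ⟨⟨M, h0⟩, ⟨-, hh⟩, H⟩ := ((atTop_basis.comap norm).prod nhdsGE_basis_Icc).eventually_iff.1
    (h2.and h3)
  exact ⟨M, h0, hh, fun η h hη hh s hs =>
    ⟨(H (x := (η, h)) ⟨hη, hh⟩).1 s hs, (H (x := (η, h)) ⟨hη, hh⟩).2 s hs⟩⟩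

end Vale.Agent.P139
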