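import Vale.Agent.P139.A0.Ev

/-! P139 task A0/Smooth (PROOF.md section A0). Differentiation under the integral sign. Either use the Fourier transform API (`VectorFourier.contDiff_fourierIntegral`, `iteratedFDeriv_fourierIntegral`, bilinear form `-(2π)⁻¹ • innerSL`), or induct directly; `‖ξ‖ ^ j ≤ Wt ξ`. Laplacian: `InnerProductSpace.laplacian_eq_iteratedFDeriv_orthonormalBasis`. The time derivative: `a0_ev_Sg` and `hasDerivAt_integral_of_dominated_loc_of_deriv_le`.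
-/

noncomputable section

open MeasureTheory Filter Topology Set Complex
open scoped ComplexConjugate ContDiff RealInnerProductSpace

namespace Vale.Agent.P139

/-- The bilinear form for which the Fourier integral is `ev`. -/
def a0sm_L : E12 →L[ℝ] E12 →L[ℝ] ℝ := (-(2 * Real.pi)⁻¹) • innerSL ℝ

theorem a0sm_L_apply (v w : E12) : a0sm_L v w = -(2 * Real.pi)⁻¹ * ⟪v, w⟫ := rfl

theorem a0sm_FI (f : E12 → ℂ) (y : E12) :
    VectorFourier.fourierIntegral Real.fourierChar volume a0sm_L.toLinearMap₁₂ f y =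
      ∫ ξ, f ξ * exp (I * ⟪ξ, y⟫) := by
  rw [Real.vector_fourierIntegral_eq_integral_exp_smul]
  refine integral_congr_ae (Eventually.of_forall fun ξ => ?_)
  have : (-2 * Real.pi * a0sm_L.toLinearMap₁₂ ξ y) = ⟪ξ, y⟫ := by
    change -2 * Real.pi * a0sm_L ξ y = _
    rw [a0sm_L_apply]
    field_simp
  simp only [this, smul_eq_mul]
  rw [mul_comm, mul_comm I]

theorem a0sm_ev (g : AA) :
    ev g = VectorFourier.fourierIntegral Real.fourierChar volume a0sm_L.toLinearMap₁₂ g :=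
  funext fun y => (a0sm_FI g y).symm

theorem a0sm_int (g : AA) {n : ℕ} (hn : n ≤ 20) : Integrable fun ξ => ‖ξ‖ ^ n * ‖g ξ‖ :=
  (a0_intW g).mono' ((continuous_norm.pow n).aestronglyMeasurable.mul (a0_meas g).norm)
    (Eventually.of_forall fun ξ => by
      rw [Real.norm_of_nonneg (by positivity)]
      exact mul_le_mul_of_nonneg_right (a0_pow_le_Wt hn ξ) (norm_nonneg _))

theorem a0sm_iter (g : AA) {n : ℕ} (hn : n ≤ 20) (y : E12) (v : Fin n → E12) :
    iteratedFDeriv ℝ n (ev g) y v = ∫ ξ, g ξ * (∏ i, I * ⟪ξ, v i⟫) * exp (I * ⟪ξ, y⟫) := by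
  rw [a0sm_ev, VectorFourier.iteratedFDeriv_fourierIntegral a0sm_L (N := 20)
    (fun k hk => a0sm_int g (by exact_mod_cast hk)) (a0_meas g) (by exact_mod_cast hn),
    Real.fourierIntegral_continuousMultilinearMap_apply'
      (VectorFourier.integrable_fourierPowSMulRight _ (a0sm_int g hn) (a0_meas g)), a0sm_FI]
  refine integral_congr_ae (Eventually.of_forall fun ξ => ?_)
  simp only [VectorFourier.fourierPowSMulRight_apply, a0sm_L_apply, Finset.prod_mul_distrib,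
    Finset.prod_const, Finset.card_univ, Fintype.card_fin, real_smul, smul_eq_mul]
  push_cast
  have : (-(2 * (Real.pi : ℂ) * I)) ^ n * (-(2 * (Real.pi : ℂ))⁻¹) ^ n = I ^ n := by
    rw [← mul_pow]
    congr 1
    have : (Real.pi : ℂ) ≠ 0 := ofReal_ne_zero.2 Real.pi_ne_zero
    field_simp
  rw [← this]
  ring

theorem a0sm_mul (g : AA) {φ : E12 → ℂ} (hφ : Continuous φ) {K : ℝ}
    (h : ∀ ξ, ‖φ ξ‖ ≤ K * Wt ξ) : Integrable fun ξ => g ξ * φ ξ :=
  ((a0_intW g).const_mul K).mono' ((a0_meas g).mul hφ.aestronglyMeasurable)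
    (Eventually.of_forall fun ξ => by
      rw [norm_mul]
      linarith [mul_le_mul_of_nonneg_left (h ξ) (norm_nonneg (g ξ))])

theorem a0sm_in (ξ y : E12) : |⟪ξ, y⟫| ≤ ‖y‖ * Wt ξ := by
  refine (abs_real_inner_le_norm ξ y).trans ?_
  rw [mul_comm]
  exact mul_le_mul_of_nonneg_left (by simpa using a0_pow_le_Wt (j := 1) (by norm_num) ξ)
    (norm_nonneg _)

theorem ev_contDiff (g : AA) : ContDiff ℝ 20 (ev g) := by
  rw [a0sm_ev]
  exact VectorFourier.contDiff_fourierIntegral a0sm_L (N := 20)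
    fun k hk => a0sm_int g (by exact_mod_cast hk)

theorem ev_bound (g : AA) {j : ℕ} (hj : j ≤ 20) (y : E12) :
    ‖iteratedFDeriv ℝ j (ev g) y‖ ≤ ‖g‖ := by
  refine ContinuousMultilinearMap.opNorm_le_bound (norm_nonneg _) fun v => ?_
  rw [a0sm_iter g hj, AA_norm, ← integral_mul_const]
  refine norm_integral_le_of_norm_le ((a0_intW g).mul_const _) (Eventually.of_forall fun ξ => ?_)
  rw [norm_mul, norm_mul, a0ev_norm, mul_one, norm_prod]
  have h : ∏ i, ‖I * (⟪ξ, v i⟫ : ℝ)‖ ≤ ∏ i, ‖ξ‖ * ‖v i‖ :=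
    Finset.prod_le_prod (fun _ _ => norm_nonneg _) fun i _ => by
      rw [norm_mul, norm_I, one_mul, norm_real]; exact norm_inner_le_norm _ _
  rw [Finset.prod_mul_distrib, Finset.prod_const, Finset.card_univ, Fintype.card_fin] at h
  have h1 := mul_le_mul_of_nonneg_right (a0_pow_le_Wt hj ξ)
    (Finset.prod_nonneg fun i (_ : i ∈ Finset.univ) => norm_nonneg (v i))
  linarith [mul_le_mul_of_nonneg_left (h.trans h1) (norm_nonneg (g ξ))]

theorem a0_fderiv_ev (g : AA) (y v : E12) :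
    fderiv ℝ (ev g) y v = ∫ ζ, g ζ * (I * ⟪ζ, v⟫) * exp (I * ⟪ζ, y⟫) := by
  have h := a0sm_iter g (n := 1) (by norm_num) y fun _ => v
  simpa only [iteratedFDeriv_one_apply, Fin.prod_univ_succ, Fin.prod_univ_zero, mul_one] using h

theorem a0_lap_ev (g : AA) (y : E12) :
    Laplacian.laplacian (ev g) y = ∫ ζ, g ζ * (-(‖ζ‖ ^ 2 : ℝ)) * exp (I * ⟪ζ, y⟫) := by
  rw [InnerProductSpace.laplacian_eq_iteratedFDeriv_orthonormalBasis _
    (EuclideanSpace.basisFun (Fin 12) ℝ)]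
  simp only [a0sm_iter g (n := 2) (by norm_num), Fin.prod_univ_two, Matrix.cons_val_zero,
    Matrix.cons_val_one]
  rw [← integral_finsetSum]
  · refine integral_congr_ae (Eventually.of_forall fun ξ => ?_)
    simp only [← Finset.sum_mul, ← Finset.mul_sum]
    congr 2
    rw [← (EuclideanSpace.basisFun (Fin 12) ℝ).sum_sq_inner_left ξ]
    push_cast
    rw [← Finset.sum_neg_distrib]
    refine Finset.sum_congr rfl fun i _ => ?_
    linear_combination (⟪ξ, EuclideanSpace.basisFun (Fin 12) ℝ i⟫ : ℂ) ^ 2 * I_mul_I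
  · intro i _
    refine a0ev_int (a0sm_mul g (K := 1) (by fun_prop) fun ξ => ?_) y
    have h := norm_inner_le_norm (𝕜 := ℝ) ξ (EuclideanSpace.basisFun (Fin 12) ℝ i)
    rw [(EuclideanSpace.basisFun (Fin 12) ℝ).orthonormal.1 i, mul_one] at h
    rw [norm_mul, norm_mul, norm_I, one_mul, norm_real, one_mul]
    refine (mul_le_mul h h (norm_nonneg _) (norm_nonneg _)).trans ?_
    rw [← sq]
    exact a0_pow_le_Wt (by norm_num) ξ

theorem a0_deriv_ev_Sg (ν : ℂ) (g : AA) (y : E12) (s : ℝ) : HasDerivAt (fun s => ev (Sg ν s g) y)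
    (∫ ζ, g ζ * (-ν - I * (Real.exp (-s) * ‖ζ‖ ^ 2 : ℝ) - I / 2 * (Real.exp (-s / 2) * ⟪ζ, y⟫ : ℝ)) *
      exp (-ν * s - I * ((1 - Real.exp (-s)) * ‖ζ‖ ^ 2 : ℝ) +
        I * (Real.exp (-s / 2) * ⟪ζ, y⟫ : ℝ))) s := by
  simp only [a0_ev_Sg]
  obtain ⟨K, hK⟩ : ∃ K, K = Real.exp (|s| + 1) := ⟨_, rfl⟩
  have hK1 : 1 ≤ K := hK ▸ Real.one_le_exp (by positivity)
  have hn : ∀ (t a b : ℝ), ‖exp (-ν * t - I * a + I * b)‖ = Real.exp (-ν.re * t) := fun t a b => by
    rw [norm_exp]; simp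
  refine (hasDerivAt_integral_of_dominated_loc_of_deriv_le (Metric.ball_mem_nhds s one_pos)
    (bound := fun ζ => (‖ν‖ + K + K * ‖y‖) * Real.exp (‖ν‖ * (|s| + 1)) * (Wt ζ * ‖g ζ‖))
    (F' := fun t ζ => g ζ * (-ν - I * (Real.exp (-t) * ‖ζ‖ ^ 2 : ℝ) -
      I / 2 * (Real.exp (-t / 2) * ⟪ζ, y⟫ : ℝ)) * exp (-ν * t - I * ((1 - Real.exp (-t)) *
        ‖ζ‖ ^ 2 : ℝ) + I * (Real.exp (-t / 2) * ⟪ζ, y⟫ : ℝ)))
    (Eventually.of_forall fun t => (a0_meas g).mul (Continuous.aestronglyMeasurable (by fun_prop)))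
    (a0sm_mul g (K := Real.exp (-ν.re * s)) (by fun_prop) fun ξ => by
      rw [hn]; exact le_mul_of_one_le_right (Real.exp_pos _).le (a0_one_le_Wt ξ))
    (((a0_meas g).mul (Continuous.aestronglyMeasurable (by fun_prop))).mul
      (Continuous.aestronglyMeasurable (by fun_prop)))
    (Eventually.of_forall fun ζ t ht => ?_) ((a0_intW g).const_mul _)
    (Eventually.of_forall fun ζ t _ => ?_)).2
  · have h1 : |t| ≤ |s| + 1 := by
      have := abs_sub_abs_le_abs_sub t s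
      rw [Metric.mem_ball, Real.dist_eq] at ht
      linarith
    have h2 : Real.exp (-t) ≤ K := hK ▸ Real.exp_le_exp.2 ((neg_le_abs t).trans h1)
    have h3 : Real.exp (-t / 2) ≤ K :=
      hK ▸ Real.exp_le_exp.2 (by linarith [neg_le_abs t, abs_nonneg t])
    have h4 : Real.exp (-ν.re * t) ≤ Real.exp (‖ν‖ * (|s| + 1)) := Real.exp_le_exp.2
      ((le_abs_self _).trans (by rw [abs_mul, abs_neg]; gcongr; exact abs_re_le_norm ν))
    have h5 : ‖-ν - I * (Real.exp (-t) * ‖ζ‖ ^ 2 : ℝ) - I / 2 * (Real.exp (-t / 2) * ⟪ζ, y⟫ : ℝ)‖ ≤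
        (‖ν‖ + K + K * ‖y‖) * Wt ζ := by
      refine (norm_sub_le _ _).trans ((add_le_add_left (norm_sub_le _ _) _).trans ?_)
      rw [norm_neg, norm_mul, norm_mul, norm_div, norm_I, norm_real, norm_real, Complex.norm_two,
        Real.norm_of_nonneg (by positivity), Real.norm_eq_abs, abs_mul, abs_of_pos (Real.exp_pos _)]
      have k1 := le_mul_of_one_le_right (norm_nonneg ν) (a0_one_le_Wt ζ)
      have k2 := mul_le_mul h2 (a0_pow_le_Wt (j := 2) (by norm_num) ζ) (by positivity) (by linarith)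
      have k3 := mul_le_mul h3 (a0sm_in ζ y) (abs_nonneg _) (by linarith)
      have k4 : 0 ≤ Real.exp (-t / 2) * |⟪ζ, y⟫| := by positivity
      linarith
    rw [norm_mul, norm_mul, hn]
    calc _ ≤ ‖g ζ‖ * ((‖ν‖ + K + K * ‖y‖) * Wt ζ) * Real.exp (‖ν‖ * (|s| + 1)) := by
          have := a0_Wt_pos ζ
          gcongr
      _ = _ := by ring
  · have d0 := (hasDerivAt_id' t).ofReal_comp.const_mul (-ν)
    have d1 := ((((hasDerivAt_neg' t).exp.const_sub 1).mul_const (‖ζ‖ ^ 2)).ofReal_comp).const_mul I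
    have d2 := ((((hasDerivAt_neg' t).div_const 2).exp.mul_const ⟪ζ, y⟫).ofReal_comp).const_mul I
    refine (((d0.fun_sub d1).fun_add d2).cexp.const_mul (g ζ)).congr_deriv ?_
    push_cast
    ring

theorem hasDerivAt_ev_Sg (ν : ℂ) (g : AA) (y : E12) : HasDerivAt (fun s => ev (Sg ν s g) y)
    (I * Laplacian.laplacian (ev g) y - ν * ev g y - 1 / 2 * fderiv ℝ (ev g) y y) 0 := by
  refine (a0_deriv_ev_Sg ν g y 0).congr_deriv ?_
  have i0 := a0ev_int (a0_int g) y
  have i1 := a0ev_int (a0sm_mul g (φ := fun ζ => I * ⟪ζ, y⟫) (K := ‖y‖) (by fun_prop) fun ξ => by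
    rw [norm_mul, norm_I, one_mul, norm_real]; exact a0sm_in ξ y) y
  have i2 := a0ev_int (a0sm_mul g (φ := fun ζ => -(‖ζ‖ ^ 2 : ℝ)) (K := 1) (by fun_prop) fun ξ => by
    rw [norm_neg, norm_real, Real.norm_of_nonneg (by positivity), one_mul]
    exact a0_pow_le_Wt (by norm_num) ξ) y
  rw [a0_lap_ev, a0_fderiv_ev, ev, ← integral_const_mul, ← integral_const_mul, ← integral_const_mul,
    ← integral_sub (i2.const_mul _) (i0.const_mul _),
    ← integral_sub (by exact (i2.const_mul _).sub (i0.const_mul _)) (i1.const_mul _)]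
  refine integral_congr_ae (Eventually.of_forall fun ζ => ?_)
  simp only [neg_zero, zero_div, Real.exp_zero, sub_self, zero_mul, one_mul, ofReal_zero, mul_zero,
    zero_add]
  ring

end Vale.Agent.P139
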