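import Vale.Agent.P139.DefT

/-! P139 task A0/W (PROOF.md section A0). The space `AA`: basic facts, construction of elements and of operators, affine changes of variables.
-/

noncomputable section

open MeasureTheory Filter Topology Set Complex
open scoped ComplexConjugate ContDiff RealInnerProductSpace

namespace Vale.Agent.P139

theorem a0_one_le_Wt (ξ : E12) : 1 ≤ Wt ξ := by
  unfold Wt
  exact le_add_of_nonneg_right (by positivity)

theorem a0_Wt_pos (ξ : E12) : 0 < Wt ξ :=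
one_pos.trans_le (a0_one_le_Wt ξ)

theorem a0_cont_Wt : Continuous Wt :=
by unfold Wt; fun_prop

theorem a0_Wt_neg (ξ : E12) : Wt (-ξ) = Wt ξ :=
by simp [Wt]

theorem a0_Wt_smul {r K : ℝ} (hK : 1 ≤ K) (hr : |r| ≤ K) (ξ : E12) : Wt (r • ξ) ≤ K ^ 20 * Wt ξ := by
  have h1 : 1 ≤ K ^ 20 := one_le_pow₀ hK
  have h2 : |r| ^ 20 ≤ K ^ 20 := pow_le_pow_left₀ (abs_nonneg r) hr 20
  have h3 := mul_le_mul_of_nonneg_right h2 (show 0 ≤ ‖ξ‖ ^ 20 by positivity)
  simp only [Wt, norm_smul, Real.norm_eq_abs, mul_pow]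
  linarith

theorem a0_pow_le_Wt {j : ℕ} (hj : j ≤ 20) (ξ : E12) : ‖ξ‖ ^ j ≤ Wt ξ := by
  unfold Wt
  rcases le_total ‖ξ‖ 1 with h | h
  · exact (pow_le_one₀ (norm_nonneg _) h).trans (le_add_of_nonneg_right (by positivity))
  · exact (pow_le_pow_right₀ h hj).trans (le_add_of_nonneg_left zero_le_one)

theorem Wt_add (ξ η : E12) : Wt (ξ + η) ≤ 2 ^ 20 * (Wt ξ * Wt η) := by
  have h1 : ‖ξ + η‖ ^ 20 ≤ 2 ^ 19 * (‖ξ‖ ^ 20 + ‖η‖ ^ 20) :=
    (pow_le_pow_left₀ (norm_nonneg _) (norm_add_le _ _) 20).trans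
      (add_pow_le (norm_nonneg _) (norm_nonneg _) 20)
  have h2 : 0 ≤ ‖ξ‖ ^ 20 := by positivity
  have h3 : 0 ≤ ‖η‖ ^ 20 := by positivity
  have h4 := mul_nonneg h2 h3
  unfold Wt
  linarith

theorem a0_ac : (volume : Measure E12) ≪ μW :=
withDensity_absolutelyContinuous' a0_cont_Wt.measurable.ennreal_ofReal.aemeasurable
    (Eventually.of_forall fun ξ => (ENNReal.ofReal_pos.2 (a0_Wt_pos ξ)).ne')

theorem a0_ac' : μW ≪ (volume : Measure E12) :=
withDensity_absolutelyContinuous _ _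

theorem AA_ext {f g : AA} (h : f =ᵐ[volume] g) : f = g :=
Lp.ext (a0_ac'.ae_le h)

theorem AA_integrable (g : AA) : Integrable (fun ξ => (Wt ξ : ℂ) * g ξ) := by
  have h := (integrable_withDensity_iff_integrable_smul₀' (μ := volume)
    a0_cont_Wt.measurable.ennreal_ofReal.aemeasurable (by simp)).1 (L1.integrable_coeFn g)
  simpa only [ENNReal.toReal_ofReal (a0_Wt_pos _).le, real_smul] using h

theorem AA_norm (g : AA) : ‖g‖ = ∫ ξ, Wt ξ * ‖g ξ‖ := by
  have h := integral_withDensity_eq_integral_toReal_smul₀ (μ := volume)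
    a0_cont_Wt.measurable.ennreal_ofReal.aemeasurable (by simp) fun ξ => ‖g ξ‖
  simp only [ENNReal.toReal_ofReal (a0_Wt_pos _).le, smul_eq_mul] at h
  rw [L1.norm_eq_integral_norm]
  exact h

theorem a0_meas (g : AA) : AEStronglyMeasurable g volume :=
(Lp.aestronglyMeasurable g).mono_ac a0_ac

theorem a0_intW (g : AA) : Integrable fun ξ => Wt ξ * ‖g ξ‖ := by
  simpa only [norm_mul, norm_real, Real.norm_of_nonneg (a0_Wt_pos _).le] using
    (AA_integrable g).norm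

theorem a0_int (g : AA) : Integrable g volume :=
(a0_intW g).mono' (a0_meas g) (Eventually.of_forall fun ξ =>
    le_mul_of_one_le_left (norm_nonneg _) (a0_one_le_Wt ξ))

theorem a0_mk {f : E12 → ℂ} (hm : AEStronglyMeasurable f volume)
    (hf : Integrable fun ξ => Wt ξ * ‖f ξ‖) : ∃ g : AA, g =ᵐ[volume] f := by
  have h : Integrable f μW := by
    refine (integrable_withDensity_iff_integrable_smul₀' (μ := volume)
      a0_cont_Wt.measurable.ennreal_ofReal.aemeasurable (by simp)).2 ?_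
    simp only [ENNReal.toReal_ofReal (a0_Wt_pos _).le]
    refine hf.mono' (a0_cont_Wt.aestronglyMeasurable.smul hm) (Eventually.of_forall fun ξ => ?_)
    rw [norm_smul, Real.norm_of_nonneg (a0_Wt_pos _).le]
  exact ⟨h.toL1 f, a0_ac.ae_le h.coeFn_toL1⟩

theorem a0_norm_ae {g : AA} {f : E12 → ℂ} (h : g =ᵐ[volume] f) : ‖g‖ = ∫ ξ, Wt ξ * ‖f ξ‖ := by
  rw [AA_norm]
  exact integral_congr_ae (h.mono fun ξ hξ => by simp only [hξ])

theorem a0_add_ae (f g : AA) : (f + g : AA) =ᵐ[volume] fun ξ => f ξ + g ξ :=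
a0_ac.ae_le (Lp.coeFn_add f g)

theorem a0_sub_ae (f g : AA) : (f - g : AA) =ᵐ[volume] fun ξ => f ξ - g ξ :=
a0_ac.ae_le (Lp.coeFn_sub f g)

theorem a0_smul_ae (c : ℂ) (g : AA) : (c • g : AA) =ᵐ[volume] fun ξ => c * g ξ :=
a0_ac.ae_le (Lp.coeFn_smul c g)

theorem a0_rsmul_ae (c : ℝ) (g : AA) : (c • g : AA) =ᵐ[volume] fun ξ => c * g ξ :=
a0_ac.ae_le (Lp.coeFn_smul c g)

/-- Operators with values in `AA` from a formula. -/
theorem a0_clm {𝕜 E : Type} [RCLike 𝕜] [NormedAlgebra 𝕜 ℂ] [NormedAddCommGroup E] [NormedSpace 𝕜 E]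
    (Φ : E → E12 → ℂ) (C : ℝ) (hm : ∀ x, AEStronglyMeasurable (Φ x) volume)
    (hi : ∀ x, Integrable fun ξ => Wt ξ * ‖Φ x ξ‖) (hb : ∀ x, ∫ ξ, Wt ξ * ‖Φ x ξ‖ ≤ C * ‖x‖)
    (ha : ∀ x y, Φ (x + y) =ᵐ[volume] fun ξ => Φ x ξ + Φ y ξ)
    (hs : ∀ (c : 𝕜) x, Φ (c • x) =ᵐ[volume] fun ξ => c • Φ x ξ) :
    ∃ T : E →L[𝕜] AA, ∀ x, T x =ᵐ[volume] Φ x := by
  choose T hT using fun x => a0_mk (hm x) (hi x)
  let T' : E →ₗ[𝕜] AA :=
    { toFun := T
      map_add' := fun x y => AA_ext (by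
        filter_upwards [hT (x + y), ha x y, a0_add_ae (T x) (T y), hT x, hT y] with ξ h1 h2 h3 h4 h5
        rw [h1, h2, h3, h4, h5])
      map_smul' := fun c x => AA_ext (by
        filter_upwards [hT (c • x), hs c x, a0_ac.ae_le (Lp.coeFn_smul c (T x)), hT x]
          with ξ h1 h2 h3 h4
        rw [h1, h2, RingHom.id_apply, h3, Pi.smul_apply, h4]) }
  exact ⟨T'.mkContinuous C fun x => (a0_norm_ae (hT x)).trans_le (hb x), hT⟩

theorem a0_qmp {r : ℝ} (hr : r ≠ 0) (b : E12) :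
    Measure.QuasiMeasurePreserving (fun ξ : E12 => r • ξ + b) volume volume :=
(measurePreserving_add_right volume b).quasiMeasurePreserving.comp
    (Measure.quasiMeasurePreserving_smul volume hr)

theorem a0_int_aff {F : Type} [NormedAddCommGroup F] [NormedSpace ℝ F] (φ : E12 → F) {r : ℝ}
    (hr : r ≠ 0) (b : E12) : ∫ ξ, φ (r • ξ + b) = (|r| ^ 12)⁻¹ • ∫ ξ, φ ξ := by
  have h := Measure.integral_comp_smul (volume : Measure E12) (fun ξ => φ (ξ + b)) r
  simp only [finrank_euclideanSpace, Fintype.card_fin, integral_add_right_eq_self] at h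
  rw [h, abs_inv, abs_pow]

theorem a0_intble_aff {F : Type} [NormedAddCommGroup F] {φ : E12 → F} (h : Integrable φ) {r : ℝ}
    (hr : r ≠ 0) (b : E12) : Integrable fun ξ => φ (r • ξ + b) :=
(integrable_comp_smul_iff volume (fun ξ => φ (ξ + b)) hr).2 (h.comp_add_right b)

/-- Weighted composition operators. -/
theorem a0_aff {a : E12 → ℂ} (ha : Measurable a) {K : ℝ} (hK : ∀ ξ, ‖a ξ‖ ≤ K) {r : ℝ} (hr : r ≠ 0)
    (b : E12) : ∃ T : AA →L[ℂ] AA, ∀ g : AA, T g =ᵐ[volume] fun ξ => a ξ * g (r • ξ + b) := by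
  have hK0 : 0 ≤ K := (norm_nonneg _).trans (hK 0)
  obtain ⟨D, hD0, hD⟩ : ∃ D, 0 ≤ D ∧ ∀ ξ, Wt ξ ≤ D * Wt (r • ξ + b) := by
    refine ⟨(1 + |r⁻¹|) ^ 20 * (2 ^ 20 * Wt (-b)), by have := a0_Wt_pos (-b); positivity,
      fun ξ => ?_⟩
    have h1 := a0_Wt_smul (r := r⁻¹) (K := 1 + |r⁻¹|) (le_add_of_nonneg_right (abs_nonneg _))
      (le_add_of_nonneg_left zero_le_one) (r • ξ + b + -b)
    rw [add_neg_cancel_right, inv_smul_smul₀ hr] at h1
    have h2 := Wt_add (r • ξ + b) (-b)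
    rw [add_neg_cancel_right] at h2
    refine h1.trans ((mul_le_mul_of_nonneg_left h2 (by positivity)).trans (le_of_eq (by ring)))
  have hm : ∀ g : AA, AEStronglyMeasurable (fun ξ => a ξ * g (r • ξ + b)) volume := fun g =>
    ha.aestronglyMeasurable.mul ((a0_meas g).comp_quasiMeasurePreserving (a0_qmp hr b))
  have hle : ∀ (g : AA) ξ, Wt ξ * ‖a ξ * g (r • ξ + b)‖ ≤
      D * K * (Wt (r • ξ + b) * ‖g (r • ξ + b)‖) := fun g ξ => by
    rw [norm_mul]
    have := a0_Wt_pos (r • ξ + b)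
    calc _ ≤ D * Wt (r • ξ + b) * (K * ‖g (r • ξ + b)‖) := by gcongr; exacts [hD ξ, hK ξ]
      _ = _ := by ring
  have hi := fun g : AA => (a0_intble_aff (a0_intW g) hr b).const_mul (D * K)
  have hi' : ∀ g : AA, Integrable fun ξ => Wt ξ * ‖a ξ * g (r • ξ + b)‖ := fun g =>
    (hi g).mono' (a0_cont_Wt.aestronglyMeasurable.mul (hm g).norm) (Eventually.of_forall fun ξ => by
      rw [Real.norm_of_nonneg (mul_nonneg (a0_Wt_pos _).le (norm_nonneg _))]; exact hle g ξ)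
  refine a0_clm (fun (g : AA) ξ => a ξ * g (r • ξ + b)) (D * K * (|r| ^ 12)⁻¹) hm hi'
    (fun g => (integral_mono (hi' g) (hi g) (hle g)).trans (le_of_eq ?_)) (fun f g => ?_)
    fun c g => ?_
  · rw [integral_const_mul, a0_int_aff (fun ξ => Wt ξ * ‖g ξ‖) hr b, AA_norm, smul_eq_mul, mul_assoc,
      mul_assoc, mul_assoc]
  · filter_upwards [(a0_qmp hr b).ae_eq (a0_add_ae f g)] with ξ h
    simp only [Function.comp] at h
    rw [h, mul_add]
  · filter_upwards [(a0_qmp hr b).ae_eq (a0_smul_ae c g)] with ξ h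
    simp only [Function.comp] at h
    rw [h, smul_eq_mul, mul_left_comm]

/-- Continuous functions with compact support are dense. -/
theorem a0_dense (g : AA) {ε : ℝ} (hε : 0 < ε) : ∃ (g' : AA) (φ : E12 → ℂ), Continuous φ ∧
    HasCompactSupport φ ∧ g' =ᵐ[volume] φ ∧ ‖g - g'‖ ≤ ε := by
  have : IsLocallyFiniteMeasure μW := IsLocallyFiniteMeasure.withDensity_ofReal a0_cont_Wt
  obtain ⟨φ, h1, h2, h3, h4⟩ :=
    (L1.integrable_coeFn g).exists_hasCompactSupport_integral_sub_le hε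
  refine ⟨h4.toL1 φ, φ, h3, h1, a0_ac.ae_le h4.coeFn_toL1, ?_⟩
  rw [L1.norm_eq_integral_norm]
  refine le_trans (le_of_eq (integral_congr_ae ?_)) h2
  filter_upwards [Lp.coeFn_sub g (h4.toL1 φ), h4.coeFn_toL1] with ξ e1 e2
  rw [e1, Pi.sub_apply, e2]

end Vale.Agent.P139
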